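import Crest.Agent.R125.Defs

/-!
# Row 125, task A: closed finite-codimensional subspaces
-/

set_option autoImplicit false

namespace Crest.Agent.R125

open Filter Topology

variable {X : Type} [NormedAddCommGroup X] [NormedSpace ℝ X]

/-- The kernel of a continuous linear map into a finite-dimensional space is `Cof`. -/
theorem cof_ker {V : Type*} [NormedAddCommGroup V] [NormedSpace ℝ V] [FiniteDimensional ℝ V]
    (T : X →L[ℝ] V) : Cof {x : X | T x = 0} := by
  refine ⟨LinearMap.ker (T : X →ₗ[ℝ] V), ?_, ?_, ?_⟩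
  · ext x; simp
  · exact isClosed_eq T.continuous continuous_const
  · exact LinearEquiv.finiteDimensional (LinearMap.quotKerEquivRange (T : X →ₗ[ℝ] V)).symm

/-- Every `Cof` set is the kernel of a continuous linear map onto a finite-dimensional normed
space, whose norm is the quotient norm. -/
theorem Cof.exists_quot {F : Set X} (hF : Cof F) :
    ∃ (V : Type) (_ : NormedAddCommGroup V) (_ : NormedSpace ℝ V) (_ : FiniteDimensional ℝ V)
      (q : X →L[ℝ] V), F = {x : X | q x = 0} ∧
        (∀ x : X, ∀ ε : ℝ, ‖q x‖ < ε → ∃ f ∈ F, ‖x - f‖ < ε) ∧ (∀ x : X, ‖q x‖ ≤ ‖x‖) := by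
  obtain ⟨S, rfl, hcl, hfd⟩ := hF
  have : IsClosed (S : Set X) := hcl
  refine ⟨X ⧸ S, inferInstance, inferInstance, hfd, S.mkQL, ?_, ?_, ?_⟩
  · ext x
    simp [Submodule.mkQL_apply]
  · intro x ε hx
    have hx' : ‖(Submodule.Quotient.mk x : X ⧸ S)‖ < ε := hx
    obtain ⟨m, hm, hmε⟩ := Submodule.Quotient.norm_mk_lt (Submodule.Quotient.mk x : X ⧸ S)
      (sub_pos.mpr hx')
    have hmem : x - m ∈ S := by
      have := (Submodule.Quotient.eq S).mp hm
      have h2 : x - m = -(m - x) := by abel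
      rw [h2]; exact S.neg_mem this
    refine ⟨x - m, hmem, ?_⟩
    have : x - (x - m) = m := by abel
    rw [this]; linarith
  · intro x
    exact Submodule.Quotient.norm_mk_le S x

theorem cof_univ : Cof (Set.univ : Set X) := by
  have := cof_ker (0 : X →L[ℝ] ℝ)
  simpa using this

/-- Common kernel of finitely many continuous functionals. -/
theorem cof_of_finite_functionals {ι : Type*} [Finite ι] (φ : ι → X →L[ℝ] ℝ) :
    Cof {x : X | ∀ i, φ i x = 0} := by
  cases nonempty_fintype ι
  have := cof_ker (ContinuousLinearMap.pi φ)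
  convert this using 2
  ext x
  simp [funext_iff]

theorem Cof.inter {F G : Set X} (hF : Cof F) (hG : Cof G) : Cof (F ∩ G) := by
  obtain ⟨V, _, _, _, q, rfl, -, -⟩ := hF.exists_quot
  obtain ⟨W, _, _, _, r, rfl, -, -⟩ := hG.exists_quot
  have := cof_ker (q.prod r)
  convert this using 2
  ext x
  simp [Prod.ext_iff]

/-- preimage of a `Cof` set under a continuous linear map -/
theorem Cof.preimage {Y : Type} [NormedAddCommGroup Y] [NormedSpace ℝ Y] {F : Set Y} (hF : Cof F)
    (T : X →L[ℝ] Y) : Cof (T ⁻¹' F) := by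
  obtain ⟨V, _, _, _, q, rfl, -, -⟩ := hF.exists_quot
  exact cof_ker (q.comp T)

theorem Cof.iInter_finset {ι : Type*} (s : Finset ι) (F : ι → Set X) (hF : ∀ i ∈ s, Cof (F i)) :
    Cof (⋂ i ∈ s, F i) := by
  classical
  induction s using Finset.induction_on with
  | empty => simpa using cof_univ
  | insert a s ha ih =>
    rw [Finset.set_biInter_insert]
    exact (hF a (Finset.mem_insert_self a s)).inter
      (ih fun i hi => hF i (Finset.mem_insert_of_mem hi))

theorem Cof.zero_mem {F : Set X} (hF : Cof F) : (0 : X) ∈ F := by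
  obtain ⟨S, rfl, -, -⟩ := hF
  exact S.zero_mem

theorem Cof.smul_mem {F : Set X} (hF : Cof F) (a : ℝ) {x : X} (hx : x ∈ F) : a • x ∈ F := by
  obtain ⟨S, rfl, -, -⟩ := hF
  exact S.smul_mem a hx

theorem Cof.add_mem {F : Set X} (hF : Cof F) {x y : X} (hx : x ∈ F) (hy : y ∈ F) : x + y ∈ F := by
  obtain ⟨S, rfl, -, -⟩ := hF
  exact S.add_mem hx hy

theorem Cof.neg_mem {F : Set X} (hF : Cof F) {x : X} (hx : x ∈ F) : -x ∈ F := by
  obtain ⟨S, rfl, -, -⟩ := hF
  exact S.neg_mem hx

theorem Cof.sub_mem {F : Set X} (hF : Cof F) {x y : X} (hx : x ∈ F) (hy : y ∈ F) : x - y ∈ F := by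
  obtain ⟨S, rfl, -, -⟩ := hF
  exact S.sub_mem hx hy

/-- A `Cof` set contains the common kernel of finitely many continuous functionals, and more
precisely there is `C` such that every `x` is within `C * max_i |φ i x|` of `F`. (Not needed if the
two lemmas below are proved directly through the quotient.) -/
theorem Cof.exists_functionals {F : Set X} (hF : Cof F) :
    ∃ (n : ℕ) (φ : Fin n → X →L[ℝ] ℝ), {x : X | ∀ i, φ i x = 0} ⊆ F := by
  obtain ⟨V, _, _, _, q, rfl, -, -⟩ := hF.exists_quot
  let b := Module.finBasis ℝ V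
  refine ⟨Module.finrank ℝ V, fun i => (LinearMap.toContinuousLinearMap (b.coord i)).comp q, ?_⟩
  intro x hx
  have hx' : ∀ i, b.repr (q x) i = 0 := by
    intro i
    have := hx i
    simpa using this
  show q x = 0
  apply b.repr.injective
  ext i
  simp [hx' i]

/-- A weakly null sequence gets arbitrarily close to any `Cof` set. -/
theorem Cof.eventually_near {F : Set X} (hF : Cof F) (d : ℕ → X)
    (hd : ∀ φ : X →L[ℝ] ℝ, Tendsto (fun n => φ (d n)) atTop (𝓝 0)) (ε : ℝ) (hε : 0 < ε) :
    ∀ᶠ n in atTop, ∃ f ∈ F, ‖d n - f‖ < ε := by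
  obtain ⟨V, _, _, _, q, hFq, hnear, -⟩ := hF.exists_quot
  let b := Module.finBasis ℝ V
  have h1 : Tendsto (fun n => b.equivFunL (q (d n))) atTop (𝓝 0) := by
    rw [tendsto_pi_nhds]
    intro i
    have := hd ((LinearMap.toContinuousLinearMap (b.coord i)).comp q)
    simpa using this
  have h2 : Tendsto (fun n => q (d n)) atTop (𝓝 0) := by
    have := (b.equivFunL.symm.continuous.tendsto 0).comp h1
    simpa [Function.comp_def] using this
  have h3 : Tendsto (fun n => ‖q (d n)‖) atTop (𝓝 0) := by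
    simpa using h2.norm
  filter_upwards [h3.eventually (gt_mem_nhds hε)] with n hn
  exact hnear _ _ hn

/-- In a bounded sequence two distinct terms have difference close to a given `Cof` set. -/
theorem Cof.exists_pair_near {F : Set X} (hF : Cof F) (w : ℕ → X) (C : ℝ)
    (hw : ∀ n, ‖w n‖ ≤ C) (ε : ℝ) (hε : 0 < ε) :
    ∃ i j : ℕ, i ≠ j ∧ ∃ f ∈ F, ‖(w i - w j) - f‖ < ε := by
  obtain ⟨V, _, _, _, q, hFq, hnear, hle⟩ := hF.exists_quot
  have : ProperSpace V := FiniteDimensional.proper_real V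
  have hb : ∀ n, q (w n) ∈ Metric.closedBall (0 : V) C := by
    intro n
    rw [mem_closedBall_zero_iff]
    exact (hle _).trans (hw n)
  obtain ⟨a, -, φ, hφ, hlim⟩ :=
    tendsto_subseq_of_bounded (Metric.isBounded_closedBall) hb
  have hc : CauchySeq (fun n => q (w (φ n))) := hlim.cauchySeq
  rw [Metric.cauchySeq_iff] at hc
  obtain ⟨N, hN⟩ := hc ε hε
  have h := hN N le_rfl (N + 1) (Nat.le_succ N)
  refine ⟨φ N, φ (N + 1), (hφ (Nat.lt_succ_self N)).ne, ?_⟩
  apply hnear
  rw [map_sub, ← dist_eq_norm]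
  exact h

/-- In infinite dimension a `Cof` set contains a nonzero vector. -/
theorem Cof.exists_ne_zero (hX : ¬ FiniteDimensional ℝ X) {F : Set X} (hF : Cof F) :
    ∃ y ∈ F, y ≠ 0 := by
  by_contra hcon
  push Not at hcon
  obtain ⟨V, _, _, _, q, rfl, -, -⟩ := hF.exists_quot
  apply hX
  have hinj : Function.Injective (q : X →ₗ[ℝ] V) := by
    rw [← LinearMap.ker_eq_bot, LinearMap.ker_eq_bot']
    intro x hx
    exact hcon x hx
  exact FiniteDimensional.of_injective (q : X →ₗ[ℝ] V) hinj

/-- restriction of a `Cof` set to a subspace -/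
theorem Cof.restrict {F : Set X} (hF : Cof F) (S : Submodule ℝ X) :
    Cof {y : S | (y : X) ∈ F} :=
  hF.preimage S.subtypeL

end Crest.Agent.R125
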