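import Crest.Agent.R125.DaugSlice

/-!
# Row 125, task H1 (part 2): weak neighbourhoods in the ball of a Daugavet space
-/

set_option autoImplicit false

namespace Crest.Agent.R125

open Filter Topology Crest.AnalysisR.L1Subspace

variable {V : Type} [NormedAddCommGroup V] [NormedSpace ℝ V]
variable {Q : Type*} [NormedAddCommGroup Q] [NormedSpace ℝ Q]

/-- `w` is approximated by images `q z` of ball vectors `z` which are "`ℓ¹`-orthogonal" to any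
prescribed vector `v`. -/
def Good (q : V →L[ℝ] Q) (w : Q) : Prop :=
  ∀ (v : V) (ε : ℝ), 0 < ε → ∃ z : V, ‖z‖ ≤ 1 ∧ ‖q z - w‖ < ε ∧ ‖v‖ + 1 - ε < ‖v + z‖

theorem good_isClosed (q : V →L[ℝ] Q) : IsClosed {w | Good q w} := by
  rw [← closure_subset_iff_isClosed]
  intro w hw v ε hε
  obtain ⟨w', hw', hd⟩ := Metric.mem_closure_iff.mp hw (ε / 2) (by linarith)
  obtain ⟨z, hz1, hz2, hz3⟩ := hw' v (ε / 2) (by linarith)
  refine ⟨z, hz1, ?_, by linarith⟩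
  rw [dist_eq_norm] at hd
  calc ‖q z - w‖ = ‖(q z - w') - (w - w')‖ := by congr 1; abel
    _ ≤ ‖q z - w'‖ + ‖w - w'‖ := norm_sub_le _ _
    _ < ε := by linarith

theorem good_convex (q : V →L[ℝ] Q) : Convex ℝ {w | Good q w} := by
  rw [convex_iff_forall_pos]
  intro w₁ h₁ w₂ h₂ a b ha hb hab v ε hε
  obtain ⟨z₁, hz1, hz2, hz3⟩ := h₁ (a⁻¹ • v) ε hε
  obtain ⟨z₂, hy1, hy2, hy3⟩ := h₂ (b⁻¹ • (v + a • z₁)) ε hε
  have e1 : ‖a⁻¹ • v + z₁‖ = a⁻¹ * ‖v + a • z₁‖ := by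
    have : a⁻¹ • v + z₁ = a⁻¹ • (v + a • z₁) := by
      rw [smul_add, smul_smul, inv_mul_cancel₀ ha.ne', one_smul]
    rw [this, norm_smul, Real.norm_eq_abs, abs_of_pos (inv_pos.mpr ha)]
  have e2 : ‖b⁻¹ • (v + a • z₁) + z₂‖ = b⁻¹ * ‖v + a • z₁ + b • z₂‖ := by
    have : b⁻¹ • (v + a • z₁) + z₂ = b⁻¹ • (v + a • z₁ + b • z₂) := by
      rw [smul_add _ _ (b • z₂), smul_smul _ b, inv_mul_cancel₀ hb.ne', one_smul]
    rw [this, norm_smul, Real.norm_eq_abs, abs_of_pos (inv_pos.mpr hb)]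
  rw [e1, norm_smul, Real.norm_eq_abs, abs_of_pos (inv_pos.mpr ha)] at hz3
  rw [e2, norm_smul, Real.norm_eq_abs, abs_of_pos (inv_pos.mpr hb)] at hy3
  have f1 : ‖v‖ + a - a * ε < ‖v + a • z₁‖ := by
    have := mul_lt_mul_of_pos_left hz3 ha
    have e : a * (a⁻¹ * ‖v‖ + 1 - ε) = ‖v‖ + a - a * ε := by field_simp
    have e' : a * (a⁻¹ * ‖v + a • z₁‖) = ‖v + a • z₁‖ := by field_simp
    rwa [e, e'] at this
  have f2 : ‖v + a • z₁‖ + b - b * ε < ‖v + a • z₁ + b • z₂‖ := by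
    have := mul_lt_mul_of_pos_left hy3 hb
    have e : b * (b⁻¹ * ‖v + a • z₁‖ + 1 - ε) = ‖v + a • z₁‖ + b - b * ε := by field_simp
    have e' : b * (b⁻¹ * ‖v + a • z₁ + b • z₂‖) = ‖v + a • z₁ + b • z₂‖ := by field_simp
    rwa [e, e'] at this
  refine ⟨a • z₁ + b • z₂, ?_, ?_, ?_⟩
  · calc ‖a • z₁ + b • z₂‖ ≤ ‖a • z₁‖ + ‖b • z₂‖ := norm_add_le _ _
      _ = a * ‖z₁‖ + b * ‖z₂‖ := by
        rw [norm_smul, norm_smul, Real.norm_eq_abs, Real.norm_eq_abs, abs_of_pos ha, abs_of_pos hb]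
      _ ≤ a * 1 + b * 1 := by gcongr
      _ = 1 := by linarith
  · calc ‖q (a • z₁ + b • z₂) - (a • w₁ + b • w₂)‖
        = ‖a • (q z₁ - w₁) + b • (q z₂ - w₂)‖ := by
          congr 1
          simp only [map_add, map_smul, smul_sub]
          abel
      _ ≤ ‖a • (q z₁ - w₁)‖ + ‖b • (q z₂ - w₂)‖ := norm_add_le _ _
      _ = a * ‖q z₁ - w₁‖ + b * ‖q z₂ - w₂‖ := by
        rw [norm_smul, norm_smul, Real.norm_eq_abs, Real.norm_eq_abs, abs_of_pos ha, abs_of_pos hb]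
      _ < a * ε + b * ε := by
        have := mul_lt_mul_of_pos_left hz2 ha
        have := mul_lt_mul_of_pos_left hy2 hb
        linarith
      _ = ε := by rw [← add_mul, hab, one_mul]
  · have : ε = a * ε + b * ε := by rw [← add_mul, hab, one_mul]
    rw [← add_assoc]
    linarith

/-- finitely many conditions can be met inside a slice -/
theorem multi_slice (hD : HasDaugavetProperty V) (l : List (V × ℝ)) :
    (∀ p ∈ l, 0 < p.2) → ∀ (φ : V →L[ℝ] ℝ) (c : ℝ) (z₀ : V), ‖z₀‖ ≤ 1 → c < φ z₀ →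
    ∃ z : V, ‖z‖ ≤ 1 ∧ c < φ z ∧ ∀ p ∈ l, ‖p.1‖ + 1 - p.2 < ‖p.1 + z‖ := by
  induction l with
  | nil =>
    intro _ φ c z₀ h1 h2
    exact ⟨z₀, h1, h2, by simp⟩
  | cons p l ih =>
    intro hl φ c z₀ h1 h2
    obtain ⟨φ', c', z₁, g1, g2, g3⟩ := slice_lemma hD φ c z₀ h1 h2 p.1 p.2 (hl p (by simp))
    obtain ⟨z, k1, k2, k3⟩ := ih (fun p' hp' => hl p' (by simp [hp'])) φ' c' z₁ g1 g2
    refine ⟨z, k1, (g3 z k1 k2).1, ?_⟩
    intro p' hp'
    rcases List.mem_cons.mp hp' with rfl | h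
    · exact (g3 z k1 k2).2
    · exact k3 p' h

theorem good_meets_slice [FiniteDimensional ℝ Q] (hD : HasDaugavetProperty V) (q : V →L[ℝ] Q)
    (ψ : Q →L[ℝ] ℝ) (c : ℝ) (z₀ : V) (hz₀ : ‖z₀‖ ≤ 1) (hc : c < ψ (q z₀)) :
    ∃ w, Good q w ∧ c < ψ w := by
  have : ProperSpace Q := FiniteDimensional.proper_real Q
  set c' := (c + ψ (q z₀)) / 2 with hc'
  have hc1 : c < c' := by rw [hc']; linarith
  have hc2 : c' < ψ (q z₀) := by rw [hc']; linarith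
  let t : V × {ε : ℝ // 0 < ε} → Set Q := fun i =>
    closure (q '' {z | ‖z‖ ≤ 1 ∧ c' < ψ (q z) ∧ ‖i.1‖ + 1 - (i.2 : ℝ) < ‖i.1 + z‖})
  have hK : IsCompact (Metric.closedBall (0 : Q) ‖q‖) := isCompact_closedBall _ _
  obtain ⟨w, -, hw⟩ := hK.inter_iInter_nonempty t (fun i => isClosed_closure) (by
    intro u
    obtain ⟨z, k1, k2, k3⟩ := multi_slice hD (u.toList.map (fun i => (i.1, (i.2 : ℝ))))
      (by
        intro p hp
        obtain ⟨i, -, rfl⟩ := List.mem_map.mp hp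
        exact i.2.2)
      (ψ.comp q) c' z₀ hz₀ hc2
    refine ⟨q z, ?_, ?_⟩
    · rw [mem_closedBall_zero_iff]
      calc ‖q z‖ ≤ ‖q‖ * ‖z‖ := q.le_opNorm z
        _ ≤ ‖q‖ * 1 := by gcongr
        _ = ‖q‖ := by ring
    · simp only [Set.mem_iInter]
      intro i hi
      apply subset_closure
      refine ⟨z, ⟨k1, k2, ?_⟩, rfl⟩
      exact k3 (i.1, (i.2 : ℝ)) (List.mem_map.mpr ⟨i, Finset.mem_toList.mpr hi, rfl⟩))
  rw [Set.mem_iInter] at hw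
  refine ⟨w, ?_, ?_⟩
  · intro v ε hε
    obtain ⟨w', ⟨z, ⟨h1, -, h3⟩, rfl⟩, hd⟩ := Metric.mem_closure_iff.mp (hw (v, ⟨ε, hε⟩)) ε hε
    refine ⟨z, h1, ?_, h3⟩
    rwa [dist_comm, dist_eq_norm] at hd
  · have hcl : IsClosed {w : Q | c' ≤ ψ w} := isClosed_le continuous_const ψ.continuous
    have hsub : t (0, ⟨1, one_pos⟩) ⊆ {w : Q | c' ≤ ψ w} := by
      apply closure_minimal _ hcl
      rintro _ ⟨z, ⟨-, h2, -⟩, rfl⟩
      exact h2.le
    have : c' ≤ ψ w := hsub (hw _)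
    linarith

theorem good_of_ball [FiniteDimensional ℝ Q] (hD : HasDaugavetProperty V) (q : V →L[ℝ] Q)
    (x : V) (hx : ‖x‖ ≤ 1) : Good q (q x) := by
  by_contra hcon
  obtain ⟨ψ, u, h1, h2⟩ := geometric_hahn_banach_closed_point (good_convex q) (good_isClosed q)
    (show q x ∉ {w | Good q w} from hcon)
  obtain ⟨w, hw1, hw2⟩ := good_meets_slice hD q ψ u x hx h2
  exact absurd (h1 w hw1) (not_lt.mpr hw2.le)

end Crest.Agent.R125
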