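import Crest.Agent.R125.Cof
import Crest.Prelude.Def_DaugavetL1

/-!
# Row 125, task H1 (part 1): the slice lemma for the Daugavet property
-/

set_option autoImplicit false

namespace Crest.Agent.R125

open Filter Topology Crest.AnalysisR.L1Subspace

variable {V : Type} [NormedAddCommGroup V] [NormedSpace ℝ V]

theorem daugavet_exists_ne_zero (hD : HasDaugavetProperty V) : ∃ w : V, w ≠ 0 := by
  by_contra hcon
  push Not at hcon
  have h := hD 0 0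
  have h1 : (ContinuousLinearMap.id ℝ V + (0 : V →L[ℝ] ℝ).smulRight (0 : V)) = 0 := by
    ext x
    rw [hcon x]
    simp
  have h2 : ((0 : V →L[ℝ] ℝ).smulRight (0 : V)) = 0 := by
    ext x
    simp
  rw [h1, h2] at h
  simp at h

theorem slice_core (hD : HasDaugavetProperty V) (φ : V →L[ℝ] ℝ) (c : ℝ) (hc : c < ‖φ‖)
    (hφ : 0 < ‖φ‖) (v : V) (hv : 0 < ‖v‖) (ε : ℝ) (hε : 0 < ε) :
    ∃ (φ' : V →L[ℝ] ℝ) (c' : ℝ) (z₁ : V), ‖z₁‖ ≤ 1 ∧ c' < φ' z₁ ∧
      ∀ z, ‖z‖ ≤ 1 → c' < φ' z → c < φ z ∧ ‖v‖ + 1 - ε < ‖v + z‖ := by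
  set a := ‖φ‖ with ha
  set b := ‖v‖ with hb
  obtain ⟨δ, hδ0, hδ1, hδ2, hδ3⟩ : ∃ δ : ℝ, 0 < δ ∧ δ ≤ b * (a - c) ∧ δ ≤ a * b ∧
      δ * (1 + a) ≤ ε * a := by
    refine ⟨min (min (b * (a - c)) (a * b)) (ε * a / (1 + a)), ?_, ?_, ?_, ?_⟩
    · have h1 : 0 < b * (a - c) := mul_pos hv (by linarith)
      have h2 : 0 < a * b := mul_pos hφ hv
      have h3 : 0 < ε * a / (1 + a) := by positivity
      exact lt_min (lt_min h1 h2) h3
    · exact (min_le_left _ _).trans (min_le_left _ _)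
    · exact (min_le_left _ _).trans (min_le_right _ _)
    · have h3 : min (min (b * (a - c)) (a * b)) (ε * a / (1 + a)) ≤ ε * a / (1 + a) :=
        min_le_right _ _
      have h4 : 0 < 1 + a := by linarith
      calc _ ≤ ε * a / (1 + a) * (1 + a) := mul_le_mul_of_nonneg_right h3 h4.le
        _ = ε * a := by field_simp
  -- the almost norming vector
  have hnorm : ‖ContinuousLinearMap.id ℝ V + φ.smulRight v‖ = 1 + a * b := by
    rw [hD φ v, ContinuousLinearMap.norm_smulRight_apply]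
  obtain ⟨u, hu1, hu2⟩ := ContinuousLinearMap.exists_lt_apply_of_lt_opNorm
    (ContinuousLinearMap.id ℝ V + φ.smulRight v) (r := 1 + a * b - δ) (by rw [hnorm]; linarith)
  obtain ⟨g, hg1, hg2⟩ := exists_dual_vector'' ℝ ((ContinuousLinearMap.id ℝ V + φ.smulRight v) u)
  have hg3 : 1 + a * b - δ < g u + φ u * g v := by
    have : g ((ContinuousLinearMap.id ℝ V + φ.smulRight v) u) = g u + φ u * g v := by
      simp
    rw [← this, hg2]
    exact_mod_cast hu2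
  -- sign normalisation
  obtain ⟨g, u, hg1, hu1, hgv, hg3⟩ : ∃ (g : V →L[ℝ] ℝ) (u : V), ‖g‖ ≤ 1 ∧ ‖u‖ ≤ 1 ∧ 0 ≤ g v ∧
      1 + a * b - δ < g u + φ u * g v := by
    rcases le_total 0 (g v) with h | h
    · exact ⟨g, u, hg1, hu1.le, h, hg3⟩
    · refine ⟨-g, -u, by rwa [norm_neg], by rw [norm_neg]; exact hu1.le, by simpa using h, ?_⟩
      simpa using hg3
  refine ⟨g + (g v) • φ, 1 + a * b - δ, u, hu1, ?_, ?_⟩
  · simp only [add_apply, smul_apply, smul_eq_mul]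
    linarith
  · intro z hz hz2
    simp only [add_apply, smul_apply, smul_eq_mul] at hz2
    have hr : g z ≤ 1 := by
      calc g z ≤ ‖g z‖ := le_abs_self _
        _ ≤ ‖g‖ * ‖z‖ := g.le_opNorm z
        _ ≤ 1 * 1 := by gcongr
        _ = 1 := by norm_num
    have hp : g v ≤ b := by
      calc g v ≤ ‖g v‖ := le_abs_self _
        _ ≤ ‖g‖ * ‖v‖ := g.le_opNorm v
        _ ≤ 1 * b := by gcongr
        _ = b := by ring
    have hs : φ z ≤ a := by
      calc φ z ≤ ‖φ z‖ := le_abs_self _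
        _ ≤ ‖φ‖ * ‖z‖ := φ.le_opNorm z
        _ ≤ a * 1 := by gcongr
        _ = a := by ring
    have hps : a * b - δ < g v * φ z := by linarith
    have hspos : 0 < φ z := by
      by_contra hneg
      push Not at hneg
      have : g v * φ z ≤ 0 := mul_nonpos_of_nonneg_of_nonpos hgv hneg
      linarith
    have hps2 : g v * φ z ≤ a * b := by
      calc g v * φ z ≤ b * a := by gcongr
        _ = a * b := by ring
    have hr2 : 1 - δ < g z := by linarith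
    constructor
    · have h1 : g v * φ z ≤ b * φ z := by gcongr
      have h2 : b * c < b * φ z := by nlinarith
      exact lt_of_mul_lt_mul_left h2 hv.le
    · have h1 : g v * φ z ≤ g v * a := by gcongr
      have h2 : a * (b + 1 - ε) < a * (g v + g z) := by nlinarith
      have h3 : b + 1 - ε < g v + g z := lt_of_mul_lt_mul_left h2 hφ.le
      calc b + 1 - ε < g v + g z := h3
        _ = g (v + z) := by simp
        _ ≤ ‖g (v + z)‖ := le_abs_self _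
        _ ≤ ‖g‖ * ‖v + z‖ := g.le_opNorm _
        _ ≤ 1 * ‖v + z‖ := by gcongr
        _ = ‖v + z‖ := by ring

/-- **Slice lemma.** -/
theorem slice_lemma (hD : HasDaugavetProperty V) (φ : V →L[ℝ] ℝ) (c : ℝ) (z₀ : V)
    (hz₀ : ‖z₀‖ ≤ 1) (hc : c < φ z₀) (v : V) (ε : ℝ) (hε : 0 < ε) :
    ∃ (φ' : V →L[ℝ] ℝ) (c' : ℝ) (z₁ : V), ‖z₁‖ ≤ 1 ∧ c' < φ' z₁ ∧
      ∀ z, ‖z‖ ≤ 1 → c' < φ' z → c < φ z ∧ ‖v‖ + 1 - ε < ‖v + z‖ := by
  obtain ⟨w, hw⟩ := daugavet_exists_ne_zero hD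
  have hw' : 0 < ‖w‖ := norm_pos_iff.mpr hw
  -- first: arbitrary `v`, nonzero `φ`
  have key : ∀ (ψ : V →L[ℝ] ℝ) (d : ℝ), d < ‖ψ‖ → 0 < ‖ψ‖ →
      ∃ (φ' : V →L[ℝ] ℝ) (c' : ℝ) (z₁ : V), ‖z₁‖ ≤ 1 ∧ c' < φ' z₁ ∧
      ∀ z, ‖z‖ ≤ 1 → c' < φ' z → d < ψ z ∧ ‖v‖ + 1 - ε < ‖v + z‖ := by
    intro ψ d hd hψ
    by_cases hv : v = 0
    · obtain ⟨φ', c', z₁, h1, h2, h3⟩ := slice_core hD ψ d hd hψ w hw' ε hε
      refine ⟨φ', c', z₁, h1, h2, fun z hz hz2 => ⟨(h3 z hz hz2).1, ?_⟩⟩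
      have h4 := (h3 z hz hz2).2
      have h5 := norm_add_le w z
      subst hv
      simp only [norm_zero, zero_add]
      linarith
    · exact slice_core hD ψ d hd hψ v (norm_pos_iff.mpr hv) ε hε
  by_cases hφ : φ = 0
  · subst hφ
    simp only [zero_apply] at hc
    obtain ⟨g, hg1, hg2⟩ := exists_dual_vector ℝ w (norm_ne_zero_iff.mpr hw)
    obtain ⟨φ', c', z₁, h1, h2, h3⟩ := key g 0 (by rw [hg1]; norm_num) (by rw [hg1]; norm_num)
    exact ⟨φ', c', z₁, h1, h2, fun z hz hz2 => ⟨by simpa using hc, (h3 z hz hz2).2⟩⟩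
  · have hφ' : 0 < ‖φ‖ := norm_pos_iff.mpr hφ
    refine key φ c ?_ hφ'
    calc c < φ z₀ := hc
      _ ≤ ‖φ z₀‖ := le_abs_self _
      _ ≤ ‖φ‖ * ‖z₀‖ := φ.le_opNorm _
      _ ≤ ‖φ‖ * 1 := by gcongr
      _ = ‖φ‖ := by ring

end Crest.Agent.R125
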