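import Crest.Agent.R125.DaugavetFact

/-!
# Row 125, task H2: consequences of the Daugavet property
-/

set_option autoImplicit false

namespace Crest.Agent.R125

open Filter Topology Crest.AnalysisR.L1Subspace

variable {V : Type} [NormedAddCommGroup V] [NormedSpace ℝ V]

/-! ## H2: consequences -/

theorem daugavet_no_AUC (hD : HasDaugavetProperty V) (hV : ∃ x : V, x ≠ 0)
    (N : V → ℝ) (hN : EquivNorm N) : ¬ AUC N := by
  refine not_AUC_of_trees 1 1 one_pos ?_ N hN
  intro n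
  refine ⟨fun _ u => ‖u‖ ≤ 1, ?_, fun _ u hu => hu, ?_⟩
  · obtain ⟨x, hx⟩ := hV
    have hx' : ‖x‖ ≠ 0 := norm_ne_zero_iff.mpr hx
    have : ‖‖x‖⁻¹ • x‖ = 1 := by
      rw [norm_smul, norm_inv, norm_norm, inv_mul_cancel₀ hx']
    exact ⟨‖x‖⁻¹ • x, this.le, this.ge⟩
  · intro j _ u hu hu0 F hF ε hε
    have hu' : 0 < ‖u‖ := norm_pos_iff.mpr hu0
    have hx : ‖‖u‖⁻¹ • u‖ = 1 := by
      rw [norm_smul, norm_inv, norm_norm, inv_mul_cancel₀ hu'.ne']
    obtain ⟨z, hz, f, hf, h1, h2⟩ := daugavet_fact hD (‖u‖⁻¹ • u) hx F hF (min ε 1)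
      (lt_min hε one_pos)
    refine ⟨‖u‖ • z, ?_, ‖u‖ • f, hF.smul_mem _ hf, ?_, ?_⟩
    · show ‖‖u‖ • z‖ ≤ 1
      rw [norm_smul, norm_norm]
      calc ‖u‖ * ‖z‖ ≤ 1 * 1 := by gcongr
        _ = 1 := by norm_num
    · have e : ‖u‖ • z - u - ‖u‖ • f = ‖u‖ • (z - ‖u‖⁻¹ • u - f) := by
        rw [smul_sub, smul_sub, smul_smul, mul_inv_cancel₀ hu'.ne', one_smul]
      rw [e, norm_smul, norm_norm]
      calc ‖u‖ * ‖z - ‖u‖⁻¹ • u - f‖ ≤ 1 * min ε 1 := by gcongr
        _ ≤ ε := by rw [one_mul]; exact min_le_left _ _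
    · rw [norm_smul, norm_norm, one_mul]
      have : 1 ≤ ‖f‖ := by
        have := min_le_right ε 1
        linarith
      nlinarith

/-- the common estimate behind the two upper bounds -/
theorem daugavet_upper (hD : HasDaugavetProperty V) (t : ℝ) (ht : 0 < t) (x : V) (hx : ‖x‖ = 1)
    (F : Set V) (hF : Cof F) (η : ℝ) (hη : 0 < η) :
    ∃ y ∈ F, ‖y‖ = 1 ∧ ‖x + t • y‖ ≤ 1 + max 0 (t - 2) + η := by
  obtain ⟨z, hz, f, hf, h1, h2⟩ := daugavet_fact hD x hx F hF (min (η / 2) 1)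
    (lt_min (by linarith) one_pos)
  set ε := min (η / 2) 1 with hε
  have hε1 : ε ≤ 1 := min_le_right _ _
  have hε2 : ε ≤ η / 2 := min_le_left _ _
  have hε0 : 0 < ε := lt_min (by linarith) one_pos
  set L := ‖f‖ with hL
  have hL1 : 1 ≤ L := by linarith
  have hL0 : 0 < L := by linarith
  have hxf : ‖x + f‖ ≤ 1 + ε := by
    have e : x + f = z - (z - x - f) := by abel
    rw [e]
    calc ‖z - (z - x - f)‖ ≤ ‖z‖ + ‖z - x - f‖ := norm_sub_le _ _
      _ ≤ 1 + ε := by linarith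
  refine ⟨L⁻¹ • f, hF.smul_mem _ hf, ?_, ?_⟩
  · rw [norm_smul, norm_inv, hL, norm_norm, inv_mul_cancel₀ hL0.ne']
  · rcases le_total t L with htL | htL
    · have e : x + t • L⁻¹ • f = (1 - t / L) • x + (t / L) • (x + f) := by
        rw [smul_add, sub_smul, one_smul, smul_smul, div_eq_mul_inv]
        abel
      have h0 : 0 ≤ t / L := by positivity
      have h3 : t / L ≤ 1 := (div_le_one hL0).mpr htL
      rw [e]
      calc ‖(1 - t / L) • x + (t / L) • (x + f)‖
          ≤ ‖(1 - t / L) • x‖ + ‖(t / L) • (x + f)‖ := norm_add_le _ _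
        _ = (1 - t / L) * 1 + (t / L) * ‖x + f‖ := by
          rw [norm_smul, norm_smul, Real.norm_eq_abs, Real.norm_eq_abs, abs_of_nonneg h0,
            abs_of_nonneg (by linarith), hx]
        _ ≤ (1 - t / L) * 1 + (t / L) * (1 + ε) := by gcongr
        _ = 1 + (t / L) * ε := by ring
        _ ≤ 1 + 1 * ε := by gcongr
        _ ≤ 1 + max 0 (t - 2) + η := by
          have := le_max_left 0 (t - 2)
          linarith
    · have e : x + t • L⁻¹ • f = (x + f) + ((t - L) / L) • f := by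
        rw [smul_smul, add_assoc]
        congr 1
        have : (t - L) / L = t * L⁻¹ - 1 := by field_simp
        rw [this, sub_smul, one_smul]
        abel
      have h0 : 0 ≤ (t - L) / L := div_nonneg (by linarith) hL0.le
      rw [e]
      calc ‖(x + f) + ((t - L) / L) • f‖ ≤ ‖x + f‖ + ‖((t - L) / L) • f‖ := norm_add_le _ _
        _ = ‖x + f‖ + (t - L) / L * L := by
          rw [norm_smul, Real.norm_eq_abs, abs_of_nonneg h0]
        _ = ‖x + f‖ + (t - L) := by field_simp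
        _ ≤ 1 + max 0 (t - 2) + η := by
          have := le_max_right 0 (t - 2)
          linarith

theorem daugavet_midLE (hD : HasDaugavetProperty V) (t : ℝ) (ht : 0 < t) :
    MidLE (fun x : V => ‖x‖) t (max (t / 2) (t - 1)) := by
  intro x hx F hF η hη
  obtain ⟨y, hy, hy1, h⟩ := daugavet_upper hD t ht x hx F hF η hη
  refine ⟨y, hy, hy1, ?_⟩
  have h2 : ‖x - t • y‖ ≤ 1 + t := by
    calc ‖x - t • y‖ ≤ ‖x‖ + ‖t • y‖ := norm_sub_le _ _
      _ = 1 + t := by
        have hx' : ‖x‖ = 1 := hx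
        rw [norm_smul, hy1, Real.norm_eq_abs, abs_of_pos ht, hx', mul_one]
  have h3 : max 0 (t - 2) + t ≤ 2 * max (t / 2) (t - 1) := by
    rcases le_total 0 (t - 2) with h | h
    · rw [max_eq_right h]
      have := le_max_right (t / 2) (t - 1)
      linarith
    · rw [max_eq_left h]
      have := le_max_left (t / 2) (t - 1)
      linarith
  show (‖x + t • y‖ + ‖x - t • y‖) / 2 - 1 ≤ _
  linarith

theorem daugavet_oneLE (hD : HasDaugavetProperty V) (t : ℝ) (ht : 0 < t) :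
    OneLE (fun x : V => ‖x‖) t (max 0 (t - 2)) := by
  intro x hx F hF η hη
  obtain ⟨y, hy, hy1, h⟩ := daugavet_upper hD t ht x hx F hF η hη
  refine ⟨y, hy, hy1, ?_⟩
  show ‖x + t • y‖ - 1 ≤ _
  linarith

/-- holds in every normed space: `F` = kernel of a norming functional of `x`. -/
theorem oneGE_trivial (t : ℝ) (ht : 0 < t) :
    OneGE (fun x : V => ‖x‖) t (max 0 (t - 2)) := by
  intro x hx η hη
  have hx' : ‖x‖ = 1 := hx
  obtain ⟨g, hg1, hg2⟩ := exists_dual_vector'' ℝ x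
  refine ⟨{y | g y = 0}, cof_ker g, ?_⟩
  intro y hy hy1
  have hy' : g y = 0 := hy
  have hy1' : ‖y‖ = 1 := hy1
  show max 0 (t - 2) - η ≤ ‖x + t • y‖ - 1
  have h1 : 1 ≤ ‖x + t • y‖ := by
    calc (1 : ℝ) = g (x + t • y) := by
          rw [map_add, map_smul, hy', hg2, hx']
          simp
      _ ≤ ‖g (x + t • y)‖ := le_abs_self _
      _ ≤ ‖g‖ * ‖x + t • y‖ := g.le_opNorm _
      _ ≤ 1 * ‖x + t • y‖ := by gcongr
      _ = ‖x + t • y‖ := by ring
  have h2 : t - 1 ≤ ‖x + t • y‖ := by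
    have := norm_sub_norm_le (t • y) (-x)
    rw [norm_smul, hy1', norm_neg, hx', Real.norm_eq_abs, abs_of_pos ht, sub_neg_eq_add,
      add_comm (t • y)] at this
    linarith
  have h3 : max 0 (t - 2) ≤ ‖x + t • y‖ - 1 := max_le (by linarith) (by linarith)
  linarith

end Crest.Agent.R125
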