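import Crest.Agent.R125.NoAUC
import Crest.Agent.R125.DaugGood

/-!
# Row 125, task H1: the Daugavet fact

Slice lemma in `DaugSlice.lean`, compactness/Hahn-Banach argument in `DaugGood.lean`.
-/

set_option autoImplicit false

namespace Crest.Agent.R125

open Filter Topology Crest.AnalysisR.L1Subspace

variable {V : Type} [NormedAddCommGroup V] [NormedSpace ℝ V]

/-- **Daugavet fact.** -/
theorem daugavet_fact (hD : HasDaugavetProperty V) (x : V) (hx : ‖x‖ = 1) (F : Set V) (hF : Cof F)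
    (ε : ℝ) (hε : 0 < ε) :
    ∃ z : V, ‖z‖ ≤ 1 ∧ ∃ f ∈ F, ‖z - x - f‖ ≤ ε ∧ 2 - ε ≤ ‖f‖ := by
  obtain ⟨S, rfl, hcl, hfd⟩ := hF
  have : IsClosed (S : Set V) := hcl
  obtain ⟨z, hz1, hz2, hz3⟩ := good_of_ball hD S.mkQL x hx.le (-x) (ε / 2) (by linarith)
  rw [← map_sub] at hz2
  obtain ⟨m, hm1, hm2⟩ := Submodule.Quotient.norm_mk_lt (S.mkQL (z - x))
    (ε := ε / 2 - ‖S.mkQL (z - x)‖) (by linarith)
  have hm3 : ‖m‖ < ε / 2 := by linarith
  refine ⟨z, hz1, z - x - m, ?_, ?_, ?_⟩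
  · have : S.mkQ (z - x - m) = 0 := by
      rw [map_sub]
      have h1 : S.mkQ m = S.mkQL (z - x) := hm1
      rw [h1]
      simp
    exact (Submodule.Quotient.mk_eq_zero S).mp this
  · have : z - x - (z - x - m) = m := by abel
    rw [this]
    linarith
  · rw [norm_neg, hx] at hz3
    have h1 : ‖-x + z‖ = ‖z - x‖ := by congr 1; abel
    have h2 : ‖z - x‖ - ‖m‖ ≤ ‖z - x - m‖ := norm_sub_norm_le _ _
    rw [h1] at hz3
    linarith

end Crest.Agent.R125
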