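import Mathlib
import Crest.Prelude.Def_AsymptoticConvexity

/-!
# Row 125 (S0166–S0169): unbundled versions of the Prelude notions

The Prelude states everything for a bundled record `RealBanach`.  We work with ordinary type-class
normed spaces and transfer by `Iff.rfl`.
-/

set_option autoImplicit false

namespace Crest.Agent.R125

open Crest.AnalysisR

variable {X : Type} [NormedAddCommGroup X] [NormedSpace ℝ X]

/-- closed linear subspace of finite codimension, as a set -/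
def Cof (F : Set X) : Prop :=
  ∃ S : Submodule ℝ X, (S : Set X) = F ∧ IsClosed F ∧ FiniteDimensional ℝ (X ⧸ S)

def EquivNorm (N : X → ℝ) : Prop :=
  (∀ x y : X, N (x + y) ≤ N x + N y) ∧ (∀ (a : ℝ) (x : X), N (a • x) = abs a * N x) ∧
    ∃ a b : ℝ, 0 < a ∧ ∀ x : X, a * ‖x‖ ≤ N x ∧ N x ≤ b * ‖x‖

def MidGE (N : X → ℝ) (t c : ℝ) : Prop :=
  ∀ x : X, N x = 1 → ∀ η : ℝ, 0 < η → ∃ F : Set X, Cof F ∧
    ∀ y ∈ F, N y = 1 → c - η ≤ (N (x + t • y) + N (x - t • y)) / 2 - 1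

def AUC (N : X → ℝ) : Prop :=
  ∀ t : ℝ, 0 < t → ∃ c : ℝ, 0 < c ∧ ∀ x : X, N x = 1 → ∃ F : Set X, Cof F ∧
    ∀ y ∈ F, N y = 1 → c ≤ N (x + t • y) - 1

def MidLE (N : X → ℝ) (t c : ℝ) : Prop :=
  ∀ x : X, N x = 1 → ∀ F : Set X, Cof F → ∀ η : ℝ, 0 < η →
    ∃ y ∈ F, N y = 1 ∧ (N (x + t • y) + N (x - t • y)) / 2 - 1 ≤ c + η

def OneGE (N : X → ℝ) (t c : ℝ) : Prop :=
  ∀ x : X, N x = 1 → ∀ η : ℝ, 0 < η → ∃ F : Set X, Cof F ∧
    ∀ y ∈ F, N y = 1 → c - η ≤ N (x + t • y) - 1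

def OneLE (N : X → ℝ) (t c : ℝ) : Prop :=
  ∀ x : X, N x = 1 → ∀ F : Set X, Cof F → ∀ η : ℝ, 0 < η →
    ∃ y ∈ F, N y = 1 ∧ N (x + t • y) - 1 ≤ c + η

def MaxGE (N : X → ℝ) (t c : ℝ) : Prop :=
  ∀ x : X, N x = 1 → ∀ η : ℝ, 0 < η → ∃ F : Set X, Cof F ∧
    ∀ y ∈ F, N y = 1 → c - η ≤ max (N (x + t • y)) (N (x - t • y)) - 1

/-- The homogeneous, `t`-uniform asymptotic midpoint inequality with constant `1/4`:
for every `x` and `η > 0` some closed finite-codimensional `F` has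
`√(4‖x‖² + ‖y‖²) - η ≤ ‖x + y‖ + ‖x - y‖` for **all** `y ∈ F`. -/
def QMid (X : Type) [NormedAddCommGroup X] [NormedSpace ℝ X] : Prop :=
  ∀ x : X, ∀ η : ℝ, 0 < η → ∃ F : Set X, Cof F ∧
    ∀ y ∈ F, Real.sqrt (4 * ‖x‖ ^ 2 + ‖y‖ ^ 2) - η ≤ ‖x + y‖ + ‖x - y‖

/-- reflexivity -/
def Refl (X : Type) [NormedAddCommGroup X] [NormedSpace ℝ X] : Prop :=
  Function.Surjective (NormedSpace.inclusionInDoubleDual ℝ X)

section bridge
variable [CompleteSpace X]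

/-- the bundled space -/
abbrev mkB (X : Type) [i1 : NormedAddCommGroup X] [i2 : NormedSpace ℝ X] [i3 : CompleteSpace X] :
    RealBanach := ⟨X, i1, i2, i3⟩

theorem isCof_iff (F : Set X) : (mkB X).IsCof F ↔ Cof F := Iff.rfl
theorem norm_eq : (mkB X).norm = fun x : X => ‖x‖ := rfl
theorem isEquivNorm_iff (N : X → ℝ) : (mkB X).IsEquivNorm N ↔ EquivNorm N := Iff.rfl
theorem isAUC_iff (N : X → ℝ) : (mkB X).IsAUC N ↔ AUC N := Iff.rfl
theorem midGE_iff (N : X → ℝ) (t c : ℝ) : (mkB X).MidpointModulusGE N t c ↔ MidGE N t c := Iff.rfl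
theorem midLE_iff (N : X → ℝ) (t c : ℝ) : (mkB X).MidpointModulusLE N t c ↔ MidLE N t c := Iff.rfl
theorem oneGE_iff (N : X → ℝ) (t c : ℝ) : (mkB X).OneSidedModulusGE N t c ↔ OneGE N t c := Iff.rfl
theorem oneLE_iff (N : X → ℝ) (t c : ℝ) : (mkB X).OneSidedModulusLE N t c ↔ OneLE N t c := Iff.rfl
theorem maxGE_iff (N : X → ℝ) (t c : ℝ) : (mkB X).MaxMidpointModulusGE N t c ↔ MaxGE N t c :=
  Iff.rfl
theorem isReflexive_iff : (mkB X).IsReflexive ↔ Refl X := Iff.rfl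
theorem isSepInf_iff : (mkB X).IsSeparableInfiniteDim ↔
    (TopologicalSpace.SeparableSpace X ∧ ¬ FiniteDimensional ℝ X) := Iff.rfl

end bridge

end Crest.Agent.R125
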