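import Mathlib
import Crest.Prelude.Def_Diamond

/-!
# Row 125, task J1: graph distances in the countably branching diamonds

Beware: `SimpleGraph.dist` is `0` for unreachable pairs, so lower bounds need reachability.
Every edge of `D (k+1)` joins an old vertex `inl _` and a new vertex `inr (e,i)`, whose only
neighbours are `inl (src e)`, `inl (tgt e)`.  By induction on walks: a walk of length `L` in
`D (k+1)` from `inl u` to `inl v` yields a walk in `D k` from `u` to `v` of length `≤ L/2` (and
from `inr (e,i)` to `inl v` one from `src e` or `tgt e` of length `≤ (L-1)/2`).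
Also: `Reachable` in `D k` implies `Reachable` of the images in `D (k+1)`.
-/

set_option autoImplicit false

namespace Crest.Agent.R125

open Crest.AnalysisR

/-- old vertex of `D (k+1)` -/
def vinl {k : ℕ} (u : DiamondVertex k) : DiamondVertex (k + 1) := Sum.inl u

/-- new vertex of `D (k+1)` -/
def vinr {k : ℕ} (e : DiamondEdge k) (i : ℕ) : DiamondVertex (k + 1) := Sum.inr (e, i)

/-- edge of `D (k+1)` -/
def emk {k : ℕ} (e : DiamondEdge k) (i : ℕ) (b : Bool) : DiamondEdge (k + 1) := (e, i, b)

theorem vinl_inj {k : ℕ} {u v : DiamondVertex k} (h : vinl u = vinl v) : u = v := Sum.inl.inj h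

theorem vinr_inj {k : ℕ} {e e' : DiamondEdge k} {i i' : ℕ} (h : vinr e i = vinr e' i') :
    e = e' ∧ i = i' := by
  have := Sum.inr.inj h
  exact ⟨congrArg Prod.fst this, congrArg Prod.snd this⟩

theorem vinl_ne_vinr {k : ℕ} (u : DiamondVertex k) (e : DiamondEdge k) (i : ℕ) :
    vinl u ≠ vinr e i := fun h => Sum.inl_ne_inr h

theorem edge_cases {k : ℕ} (E : DiamondEdge (k + 1)) : ∃ e i b, E = emk e i b :=
  ⟨E.1, E.2.1, E.2.2, rfl⟩

theorem src_false {k : ℕ} (e : DiamondEdge k) (i : ℕ) :
    diamondSrc (k + 1) (emk e i false) = vinl (diamondSrc k e) := rfl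
theorem tgt_false {k : ℕ} (e : DiamondEdge k) (i : ℕ) :
    diamondTgt (k + 1) (emk e i false) = vinr e i := rfl
theorem src_true {k : ℕ} (e : DiamondEdge k) (i : ℕ) :
    diamondSrc (k + 1) (emk e i true) = vinr e i := rfl
theorem tgt_true {k : ℕ} (e : DiamondEdge k) (i : ℕ) :
    diamondTgt (k + 1) (emk e i true) = vinl (diamondTgt k e) := rfl

theorem diamondSrc_ne_tgt : ∀ (k : ℕ) (e : DiamondEdge k), diamondSrc k e ≠ diamondTgt k e
  | 0, _ => Bool.false_ne_true
  | k + 1, E => by
    obtain ⟨e, i, b, rfl⟩ := edge_cases E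
    cases b
    · rw [src_false, tgt_false]; exact vinl_ne_vinr _ _ _
    · rw [src_true, tgt_true]; exact (vinl_ne_vinr _ _ _).symm

theorem diamond_adj_iff (k : ℕ) (x y : DiamondVertex k) :
    (diamondGraph k).Adj x y ↔ x ≠ y ∧
      ((∃ e : DiamondEdge k, diamondSrc k e = x ∧ diamondTgt k e = y) ∨
        (∃ e : DiamondEdge k, diamondSrc k e = y ∧ diamondTgt k e = x)) :=
  SimpleGraph.fromRel_adj _ _ _

theorem diamond_adj_src_tgt (k : ℕ) (e : DiamondEdge k) :
    (diamondGraph k).Adj (diamondSrc k e) (diamondTgt k e) :=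
  (diamond_adj_iff k _ _).mpr ⟨diamondSrc_ne_tgt k e, Or.inl ⟨e, rfl, rfl⟩⟩

theorem diamondDist_src_tgt (k : ℕ) (e : DiamondEdge k) :
    diamondDist k (diamondSrc k e) (diamondTgt k e) = 1 :=
  SimpleGraph.dist_eq_one_iff_adj.mpr (diamond_adj_src_tgt k e)

/-- neighbours of an old vertex -/
theorem diamond_adj_inl {k : ℕ} {u : DiamondVertex k} {y : DiamondVertex (k + 1)}
    (h : (diamondGraph (k + 1)).Adj (vinl u) y) :
    ∃ (e : DiamondEdge k) (i : ℕ), y = vinr e i ∧
      (u = diamondSrc k e ∨ u = diamondTgt k e) := by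
  obtain ⟨_, h | h⟩ := (diamond_adj_iff _ _ _).mp h
  · obtain ⟨E, h1, h2⟩ := h
    obtain ⟨e, i, b, rfl⟩ := edge_cases E
    cases b
    · rw [src_false] at h1
      rw [tgt_false] at h2
      exact ⟨e, i, h2.symm, Or.inl (vinl_inj h1).symm⟩
    · rw [src_true] at h1
      exact absurd h1.symm (vinl_ne_vinr _ _ _)
  · obtain ⟨E, h1, h2⟩ := h
    obtain ⟨e, i, b, rfl⟩ := edge_cases E
    cases b
    · rw [tgt_false] at h2
      exact absurd h2.symm (vinl_ne_vinr _ _ _)
    · rw [src_true] at h1
      rw [tgt_true] at h2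
      exact ⟨e, i, h1.symm, Or.inr (vinl_inj h2).symm⟩

/-- neighbours of a new vertex -/
theorem diamond_adj_inr {k : ℕ} {e : DiamondEdge k} {i : ℕ} {y : DiamondVertex (k + 1)}
    (h : (diamondGraph (k + 1)).Adj (vinr e i) y) :
    y = vinl (diamondSrc k e) ∨ y = vinl (diamondTgt k e) := by
  obtain ⟨_, h | h⟩ := (diamond_adj_iff _ _ _).mp h
  · obtain ⟨E, h1, h2⟩ := h
    obtain ⟨e', i', b, rfl⟩ := edge_cases E
    cases b
    · rw [src_false] at h1
      exact absurd h1 (vinl_ne_vinr _ _ _)
    · rw [src_true] at h1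
      rw [tgt_true] at h2
      obtain ⟨rfl, rfl⟩ := vinr_inj h1
      exact Or.inr h2.symm
  · obtain ⟨E, h1, h2⟩ := h
    obtain ⟨e', i', b, rfl⟩ := edge_cases E
    cases b
    · rw [src_false] at h1
      rw [tgt_false] at h2
      obtain ⟨rfl, rfl⟩ := vinr_inj h2
      exact Or.inl h1.symm
    · rw [tgt_true] at h2
      exact absurd h2 (vinl_ne_vinr _ _ _)

theorem diamond_adj_inl_src (k : ℕ) (e : DiamondEdge k) (i : ℕ) :
    (diamondGraph (k + 1)).Adj (vinl (diamondSrc k e)) (vinr e i) :=
  diamond_adj_src_tgt (k + 1) (emk e i false)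

theorem diamond_adj_inr_tgt (k : ℕ) (e : DiamondEdge k) (i : ℕ) :
    (diamondGraph (k + 1)).Adj (vinr e i) (vinl (diamondTgt k e)) :=
  diamond_adj_src_tgt (k + 1) (emk e i true)

/-- projection of walks ending at an old vertex -/
theorem diamond_walk_proj {k : ℕ} (v : DiamondVertex k) :
    ∀ {x y : DiamondVertex (k + 1)} (p : (diamondGraph (k + 1)).Walk x y),
      y = vinl v →
      (∀ u : DiamondVertex k, x = vinl u →
        ∃ q : (diamondGraph k).Walk u v, 2 * q.length ≤ p.length) ∧
      (∀ (e : DiamondEdge k) (i : ℕ), x = vinr e i →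
        (∃ q : (diamondGraph k).Walk (diamondSrc k e) v, 2 * q.length + 1 ≤ p.length) ∨
        (∃ q : (diamondGraph k).Walk (diamondTgt k e) v, 2 * q.length + 1 ≤ p.length)) := by
  intro x y p
  induction p with
  | nil =>
    intro hy
    refine ⟨fun u hu => ?_, fun e i hx => ?_⟩
    · have : u = v := vinl_inj (hu.symm.trans hy)
      subst this
      exact ⟨SimpleGraph.Walk.nil, by simp⟩
    · exact absurd (hx.symm.trans hy).symm (vinl_ne_vinr _ _ _)
  | @cons x x' y hadj p' ih =>
    intro hy
    obtain ⟨ih1, ih2⟩ := ih hy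
    have hlen := SimpleGraph.Walk.length_cons hadj p'
    refine ⟨fun u hu => ?_, fun e i hx => ?_⟩
    · subst hu
      obtain ⟨e, i, hx', hu⟩ := diamond_adj_inl hadj
      rcases ih2 e i hx' with ⟨q, hq⟩ | ⟨q, hq⟩
      · rcases hu with rfl | rfl
        · exact ⟨q, by omega⟩
        · refine ⟨SimpleGraph.Walk.cons (diamond_adj_src_tgt k e).symm q, ?_⟩
          have := SimpleGraph.Walk.length_cons (diamond_adj_src_tgt k e).symm q
          omega
      · rcases hu with rfl | rfl
        · refine ⟨SimpleGraph.Walk.cons (diamond_adj_src_tgt k e) q, ?_⟩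
          have := SimpleGraph.Walk.length_cons (diamond_adj_src_tgt k e) q
          omega
        · exact ⟨q, by omega⟩
    · subst hx
      rcases diamond_adj_inr hadj with hx' | hx'
      · obtain ⟨q, hq⟩ := ih1 _ hx'
        exact Or.inl ⟨q, by omega⟩
      · obtain ⟨q, hq⟩ := ih1 _ hx'
        exact Or.inr ⟨q, by omega⟩

theorem diamond_reachable_inl {k : ℕ} {u v : DiamondVertex k}
    (h : (diamondGraph k).Reachable u v) :
    (diamondGraph (k + 1)).Reachable (vinl u) (vinl v) := by
  obtain ⟨p⟩ := h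
  induction p with
  | nil => exact SimpleGraph.Reachable.refl _
  | @cons x x' y hadj p' ih =>
    refine SimpleGraph.Reachable.trans ?_ ih
    obtain ⟨_, ⟨e, rfl, rfl⟩ | ⟨e, rfl, rfl⟩⟩ := (diamond_adj_iff _ _ _).mp hadj
    · exact (diamond_adj_inl_src k e 0).reachable.trans (diamond_adj_inr_tgt k e 0).reachable
    · exact ((diamond_adj_inl_src k e 0).reachable.trans
        (diamond_adj_inr_tgt k e 0).reachable).symm

theorem diamondDist_vinl (k : ℕ) (u v : DiamondVertex k) :
    2 * (diamondGraph k).dist u v ≤ (diamondGraph (k + 1)).dist (vinl u) (vinl v) := by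
  by_cases hr : (diamondGraph (k + 1)).Reachable (vinl u) (vinl v)
  · obtain ⟨p, hp⟩ := hr.exists_walk_length_eq_dist
    obtain ⟨q, hq⟩ := (diamond_walk_proj v p rfl).1 u rfl
    have := SimpleGraph.dist_le q
    omega
  · have : ¬ (diamondGraph k).Reachable u v := fun h => hr (diamond_reachable_inl h)
    rw [SimpleGraph.dist_eq_zero_of_not_reachable this]
    exact Nat.zero_le _

/-- old vertices: distances at least double -/
theorem diamondDist_inl (k : ℕ) (u v : DiamondVertex k) :
    2 * diamondDist k u v ≤ diamondDist (k + 1) (Sum.inl u : DiamondVertex (k + 1)) (Sum.inl v) :=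
  diamondDist_vinl k u v

theorem diamondDist_vinr (k : ℕ) (e : DiamondEdge k) (i j : ℕ) (hij : i ≠ j) :
    2 ≤ (diamondGraph (k + 1)).dist (vinr e i) (vinr e j) := by
  have hr : (diamondGraph (k + 1)).Reachable (vinr e i) (vinr e j) :=
    (diamond_adj_inl_src k e i).symm.reachable.trans (diamond_adj_inl_src k e j).reachable
  have hne : vinr e i ≠ vinr e j := fun h => hij (vinr_inj h).2
  have h0 : 0 < (diamondGraph (k + 1)).dist (vinr e i) (vinr e j) := hr.pos_dist_of_ne hne
  have h1 : (diamondGraph (k + 1)).dist (vinr e i) (vinr e j) ≠ 1 := by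
    intro h
    have hadj := SimpleGraph.dist_eq_one_iff_adj.mp h
    rcases diamond_adj_inr hadj with h | h <;> exact absurd h.symm (vinl_ne_vinr _ _ _)
  omega

/-- two distinct middle vertices of the same edge are at distance at least two -/
theorem diamondDist_inr (k : ℕ) (e : DiamondEdge k) (i j : ℕ) (hij : i ≠ j) :
    2 ≤ diamondDist (k + 1) (Sum.inr (e, i) : DiamondVertex (k + 1)) (Sum.inr (e, j)) :=
  diamondDist_vinr k e i j hij

end Crest.Agent.R125
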