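import Crest.Agent.R125.Cof
import Crest.Agent.R125.DiamondDist

/-!
# Row 125, task J2: the asymptotic short-diagonal inequality and the distortion bound

Proof of `short_diagonal`: `x = (u-v)/2`, `w i = z i - (u+v)/2`, `y = (w i - w j)/2` satisfies `‖x ± y‖ ≤ √M` (averages) and `‖y‖ ≥ σ/2`;
if `x = 0` use `σ ≤ 2√M`; else fix small `ε, η`, `t₀ = (σ/2-ε)/‖x‖`, take `F` from `hmax t₀` at `x/‖x‖`, use `Cof.exists_pair_near` to get `i ≠ j`, `y' ∈ F`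
with `‖y - y'‖ < ε`; `τ ↦ max ‖x̂ + τ ŷ‖ ‖x̂ - τ ŷ‖` is even and convex hence monotone on `[0,∞)`; conclude `√M + ε ≥ ‖x‖ (√(1+t₀²/4) - η)` and let `ε, η → 0`.

Paper proof of the distortion bound (induction on `k`, for all maps at once):
`Q k`: for `f : DiamondVertex k → X`, `s ≥ 0`, `M`, if `‖f (src e) - f (tgt e)‖² ≤ M` for every edge `e` and
`s * dist u v ≤ ‖f u - f v‖` for all `u v`, then `s² (1 + k/4) ≤ M`.
`Q 0`: the single edge, `dist false true = 1`.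
`Q (k+1)`: apply `Q k` to `f ∘ Sum.inl` with `s' = 2 s` (`diamondDist_inl`) and `M' = 4 M - s²`: for an edge `e` of `D k`,
`u = f (inl (src e))`, `v = f (inl (tgt e))`, `z i = f (inr (e, i))`; edges `(e,i,false)`, `(e,i,true)` give
`‖u - z i‖² ≤ M`, `‖z i - v‖² ≤ M`; `‖z i - z j‖ ≥ 2 s`; `short_diagonal` gives `‖u - v‖² + (2s)²/4 ≤ 4 M`.
-/

set_option autoImplicit false

namespace Crest.Agent.R125

open Crest.AnalysisR

/-! ## J2 -/

variable {X : Type} [NormedAddCommGroup X] [NormedSpace ℝ X]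

/-- `τ ↦ max ‖x + τ y‖ ‖x - τ y‖` is monotone on `[0, ∞)`. -/
theorem J2_max_norm_mono (x y : X) {t τ : ℝ} (h0 : 0 ≤ t) (h : t ≤ τ) :
    max ‖x + t • y‖ ‖x - t • y‖ ≤ max ‖x + τ • y‖ ‖x - τ • y‖ := by
  rcases eq_or_lt_of_le (le_trans h0 h) with hτ | hτ
  · have : t = 0 := le_antisymm (by rw [hτ]; exact h) h0
    rw [this, ← hτ]
  · set c := t / τ with hc
    have hcτ : c * τ = t := by rw [hc]; field_simp
    have hc0 : 0 ≤ c := div_nonneg h0 hτ.le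
    have hc1 : c ≤ 1 := (div_le_one hτ).mpr h
    set A := ‖x + τ • y‖
    set B := ‖x - τ • y‖
    have e1 : x + t • y = ((1 + c) / 2) • (x + τ • y) + ((1 - c) / 2) • (x - τ • y) := by
      rw [← hcτ]; module
    have e2 : x - t • y = ((1 - c) / 2) • (x + τ • y) + ((1 + c) / 2) • (x - τ • y) := by
      rw [← hcτ]; module
    have n1 : ‖x + t • y‖ ≤ (1 + c) / 2 * A + (1 - c) / 2 * B := by
      rw [e1]
      refine (norm_add_le _ _).trans ?_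
      rw [norm_smul, norm_smul, Real.norm_eq_abs, Real.norm_eq_abs,
        abs_of_nonneg (by linarith : 0 ≤ (1 + c) / 2), abs_of_nonneg (by linarith : 0 ≤ (1 - c) / 2)]
    have n2 : ‖x - t • y‖ ≤ (1 - c) / 2 * A + (1 + c) / 2 * B := by
      rw [e2]
      refine (norm_add_le _ _).trans ?_
      rw [norm_smul, norm_smul, Real.norm_eq_abs, Real.norm_eq_abs,
        abs_of_nonneg (by linarith : 0 ≤ (1 + c) / 2), abs_of_nonneg (by linarith : 0 ≤ (1 - c) / 2)]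
    have hA : A ≤ max A B := le_max_left _ _
    have hB : B ≤ max A B := le_max_right _ _
    refine max_le ?_ ?_
    · nlinarith
    · nlinarith

/-- the `ε`-version of the short diagonal inequality -/
theorem J2_key
    (hmax : ∀ t : ℝ, 0 < t → MaxGE (fun x : X => ‖x‖) t (Real.sqrt (1 + t ^ 2 / 4) - 1))
    (x : X) (w : ℕ → X) (m σ : ℝ) (hx : x ≠ 0)
    (h1 : ∀ i, ‖x - w i‖ ≤ m) (h2 : ∀ i, ‖x + w i‖ ≤ m)
    (h3 : ∀ i j, i ≠ j → σ ≤ ‖w i - w j‖) (ε : ℝ) (hε : 0 < ε) (hεσ : ε < σ / 2) :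
    ‖x‖ ^ 2 + (σ / 2 - ε) ^ 2 / 4 ≤ (m + 2 * ε) ^ 2 := by
  have hx0 : 0 < ‖x‖ := norm_pos_iff.mpr hx
  have hm0 : 0 ≤ m := le_trans (norm_nonneg _) (h1 0)
  set t₀ := (σ / 2 - ε) / ‖x‖ with ht₀def
  have ht₀ : 0 < t₀ := div_pos (by linarith) hx0
  have hxh : ‖(‖x‖⁻¹ • x)‖ = 1 := norm_smul_inv_norm hx
  obtain ⟨F, hF, hFy⟩ := hmax t₀ ht₀ (‖x‖⁻¹ • x) hxh (ε / ‖x‖) (div_pos hε hx0)
  have hC : ∀ n, ‖(1 / 2 : ℝ) • w n‖ ≤ m + ‖x‖ := by
    intro n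
    have a1 : ‖w n‖ ≤ ‖x + w n‖ + ‖x‖ := by
      have : w n = (x + w n) - x := by abel
      calc ‖w n‖ = ‖(x + w n) - x‖ := by rw [← this]
        _ ≤ _ := norm_sub_le _ _
    rw [norm_smul, Real.norm_eq_abs, abs_of_pos (by norm_num : (0:ℝ) < 1 / 2)]
    nlinarith [h2 n, norm_nonneg (w n)]
  obtain ⟨i, j, hij, f, hfF, hf⟩ := hF.exists_pair_near (fun n => (1 / 2 : ℝ) • w n) _ hC ε hε
  replace hf : ‖(1 / 2 : ℝ) • w i - (1 / 2 : ℝ) • w j - f‖ < ε := hf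
  set y := (1 / 2 : ℝ) • w i - (1 / 2 : ℝ) • w j with hy
  have hy1 : ‖x + y‖ ≤ m := by
    have e : x + y = (1 / 2 : ℝ) • (x + w i) + (1 / 2 : ℝ) • (x - w j) := by rw [hy]; module
    rw [e]
    refine (norm_add_le _ _).trans ?_
    rw [norm_smul, norm_smul, Real.norm_eq_abs, abs_of_pos (by norm_num : (0:ℝ) < 1 / 2)]
    linarith [h2 i, h1 j]
  have hy2 : ‖x - y‖ ≤ m := by
    have e : x - y = (1 / 2 : ℝ) • (x - w i) + (1 / 2 : ℝ) • (x + w j) := by rw [hy]; module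
    rw [e]
    refine (norm_add_le _ _).trans ?_
    rw [norm_smul, norm_smul, Real.norm_eq_abs, abs_of_pos (by norm_num : (0:ℝ) < 1 / 2)]
    linarith [h1 i, h2 j]
  have hyn : σ / 2 ≤ ‖y‖ := by
    have e : y = (1 / 2 : ℝ) • (w i - w j) := by rw [hy]; module
    rw [e, norm_smul, Real.norm_eq_abs, abs_of_pos (by norm_num : (0:ℝ) < 1 / 2)]
    linarith [h3 i j hij]
  have hfn : σ / 2 - ε ≤ ‖f‖ := by
    have : ‖y‖ ≤ ‖y - f‖ + ‖f‖ := by
      calc ‖y‖ = ‖(y - f) + f‖ := by rw [sub_add_cancel]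
        _ ≤ _ := norm_add_le _ _
    linarith
  have hf0 : 0 < ‖f‖ := by linarith
  have hfne : f ≠ 0 := norm_pos_iff.mp hf0
  have hyh : ‖(‖f‖⁻¹ • f)‖ = 1 := norm_smul_inv_norm hfne
  have hb := hFy (‖f‖⁻¹ • f) (hF.smul_mem _ hfF) hyh
  set τ := ‖f‖ / ‖x‖ with hτdef
  have hτ : t₀ ≤ τ := div_le_div_of_nonneg_right hfn hx0.le
  have hmono := J2_max_norm_mono (‖x‖⁻¹ • x) (‖f‖⁻¹ • f) ht₀.le hτ
  have eτ : τ • (‖f‖⁻¹ • f) = ‖x‖⁻¹ • f := by
    rw [smul_smul, hτdef]; congr 1; field_simp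
  have p1 : ‖‖x‖⁻¹ • x + τ • (‖f‖⁻¹ • f)‖ ≤ (m + ε) / ‖x‖ := by
    rw [eτ, ← smul_add, norm_smul, norm_inv, norm_norm, inv_mul_eq_div]
    refine div_le_div_of_nonneg_right ?_ hx0.le
    have : x + f = (x + y) - (y - f) := by abel
    rw [this]
    refine (norm_sub_le _ _).trans ?_
    linarith
  have p2 : ‖‖x‖⁻¹ • x - τ • (‖f‖⁻¹ • f)‖ ≤ (m + ε) / ‖x‖ := by
    rw [eτ, ← smul_sub, norm_smul, norm_inv, norm_norm, inv_mul_eq_div]
    refine div_le_div_of_nonneg_right ?_ hx0.le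
    have : x - f = (x - y) + (y - f) := by abel
    rw [this]
    refine (norm_add_le _ _).trans ?_
    linarith
  have hs : Real.sqrt (1 + t₀ ^ 2 / 4) ≤ (m + 2 * ε) / ‖x‖ := by
    have := max_le p1 p2
    have e : (m + 2 * ε) / ‖x‖ = (m + ε) / ‖x‖ + ε / ‖x‖ := by ring
    rw [e]
    linarith
  have hsq := (Real.sqrt_le_iff.mp hs).2
  have e1 : ‖x‖ ^ 2 + (σ / 2 - ε) ^ 2 / 4 = ‖x‖ ^ 2 * (1 + t₀ ^ 2 / 4) := by
    rw [ht₀def]; field_simp
  have e2 : (m + 2 * ε) ^ 2 = ‖x‖ ^ 2 * ((m + 2 * ε) / ‖x‖) ^ 2 := by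
    field_simp
  rw [e1, e2]
  exact mul_le_mul_of_nonneg_left hsq (by positivity)

/-- asymptotic short-diagonal inequality -/
theorem short_diagonal
    (hmax : ∀ t : ℝ, 0 < t → MaxGE (fun x : X => ‖x‖) t (Real.sqrt (1 + t ^ 2 / 4) - 1))
    (u v : X) (z : ℕ → X) (M σ : ℝ) (hσ : 0 ≤ σ)
    (h1 : ∀ i, ‖u - z i‖ ^ 2 ≤ M) (h2 : ∀ i, ‖z i - v‖ ^ 2 ≤ M)
    (h3 : ∀ i j, i ≠ j → σ ≤ ‖z i - z j‖) :
    ‖u - v‖ ^ 2 + σ ^ 2 / 4 ≤ 4 * M := by
  have hM0 : 0 ≤ M := le_trans (by positivity) (h1 0)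
  set m := Real.sqrt M with hm
  have hm0 : 0 ≤ m := Real.sqrt_nonneg _
  have hmM : m ^ 2 = M := Real.sq_sqrt hM0
  set x := (1 / 2 : ℝ) • (u - v) with hx
  set w : ℕ → X := fun i => z i - (1 / 2 : ℝ) • (u + v) with hw
  have a1 : ∀ i, ‖x - w i‖ ≤ m := by
    intro i
    have e : x - w i = u - z i := by rw [hx, hw]; module
    rw [e]
    have := Real.abs_le_sqrt (h1 i)
    rwa [abs_of_nonneg (norm_nonneg _)] at this
  have a2 : ∀ i, ‖x + w i‖ ≤ m := by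
    intro i
    have e : x + w i = z i - v := by rw [hx, hw]; module
    rw [e]
    have := Real.abs_le_sqrt (h2 i)
    rwa [abs_of_nonneg (norm_nonneg _)] at this
  have a3 : ∀ i j, i ≠ j → σ ≤ ‖w i - w j‖ := by
    intro i j hij
    have e : w i - w j = z i - z j := by simp only [hw]; abel
    rw [e]; exact h3 i j hij
  have huv : ‖u - v‖ = 2 * ‖x‖ := by
    rw [hx, norm_smul, Real.norm_eq_abs, abs_of_pos (by norm_num : (0:ℝ) < 1 / 2)]; ring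
  rw [huv]
  have hxm : ‖x‖ ≤ m := by
    have e : x = (1 / 2 : ℝ) • (x - w 0) + (1 / 2 : ℝ) • (x + w 0) := by module
    rw [e]
    refine (norm_add_le _ _).trans ?_
    rw [norm_smul, norm_smul, Real.norm_eq_abs, abs_of_pos (by norm_num : (0:ℝ) < 1 / 2)]
    linarith [a1 0, a2 0]
  suffices hmain : ‖x‖ ^ 2 + σ ^ 2 / 16 ≤ m ^ 2 by nlinarith
  by_cases hx0 : x = 0
  · -- `σ ≤ 2 m`
    have b0 : ‖w 0‖ ≤ m := by simpa [hx0] using a2 0
    have b1 : ‖w 1‖ ≤ m := by simpa [hx0] using a2 1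
    have b2 : σ ≤ 2 * m := by
      have := a3 0 1 (by norm_num)
      have := norm_sub_le (w 0) (w 1)
      linarith
    rw [hx0, norm_zero]
    nlinarith
  · rcases eq_or_lt_of_le hσ with hσ0 | hσ0
    · rw [← hσ0]
      have := norm_nonneg x
      nlinarith
    · -- limit `ε → 0`
      have hev : ∀ᶠ ε in nhdsWithin (0:ℝ) (Set.Ioi 0),
          ‖x‖ ^ 2 + (σ / 2 - ε) ^ 2 / 4 ≤ (m + 2 * ε) ^ 2 := by
        have : Set.Ioo (0:ℝ) (σ / 2) ∈ nhdsWithin (0:ℝ) (Set.Ioi 0) :=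
          Ioo_mem_nhdsGT (by linarith)
        filter_upwards [this] with ε hε
        exact J2_key hmax x w m σ hx0 a1 a2 a3 ε hε.1 hε.2
      have l1 : Filter.Tendsto (fun ε : ℝ => ‖x‖ ^ 2 + (σ / 2 - ε) ^ 2 / 4)
          (nhdsWithin (0:ℝ) (Set.Ioi 0)) (nhds (‖x‖ ^ 2 + (σ / 2 - 0) ^ 2 / 4)) := by
        have : Continuous (fun ε : ℝ => ‖x‖ ^ 2 + (σ / 2 - ε) ^ 2 / 4) := by fun_prop
        exact (this.tendsto 0).mono_left nhdsWithin_le_nhds
      have l2 : Filter.Tendsto (fun ε : ℝ => (m + 2 * ε) ^ 2)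
          (nhdsWithin (0:ℝ) (Set.Ioi 0)) (nhds ((m + 2 * 0) ^ 2)) := by
        have : Continuous (fun ε : ℝ => (m + 2 * ε) ^ 2) := by fun_prop
        exact (this.tendsto 0).mono_left nhdsWithin_le_nhds
      have := le_of_tendsto_of_tendsto l1 l2 hev
      nlinarith

/-- the inductive statement -/
theorem J2_Q
    (hmax : ∀ t : ℝ, 0 < t → MaxGE (fun x : X => ‖x‖) t (Real.sqrt (1 + t ^ 2 / 4) - 1)) :
    ∀ (k : ℕ) (f : DiamondVertex k → X) (s M : ℝ), 0 ≤ s →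
      (∀ e : DiamondEdge k, ‖f (diamondSrc k e) - f (diamondTgt k e)‖ ^ 2 ≤ M) →
      (∀ u v : DiamondVertex k, s * (diamondDist k u v : ℝ) ≤ ‖f u - f v‖) →
      s ^ 2 * (1 + (k : ℝ) / 4) ≤ M
  | 0, f, s, M, hs, hE, hd => by
    have e0 : DiamondEdge 0 := ()
    have h1 := hd (diamondSrc 0 e0) (diamondTgt 0 e0)
    rw [diamondDist_src_tgt] at h1
    have h2 := hE e0
    simp only [Nat.cast_one, mul_one] at h1
    simp only [Nat.cast_zero, zero_div, add_zero, mul_one]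
    nlinarith
  | k + 1, f, s, M, hs, hE, hd => by
    have ih := J2_Q hmax k (fun u => f (vinl u)) (2 * s) (4 * M - s ^ 2) (by linarith) ?_ ?_
    · push_cast
      nlinarith
    · intro e
      have hsd := short_diagonal hmax (f (vinl (diamondSrc k e))) (f (vinl (diamondTgt k e)))
        (fun i => f (vinr e i)) M (2 * s) (by linarith) (fun i => hE (emk e i false))
        (fun i => hE (emk e i true)) ?_
      · show ‖f (vinl (diamondSrc k e)) - f (vinl (diamondTgt k e))‖ ^ 2 ≤ 4 * M - s ^ 2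
        nlinarith
      · intro i j hij
        have h1 := hd (vinr e i) (vinr e j)
        have h2 : (2:ℝ) ≤ (diamondDist (k + 1) (vinr e i) (vinr e j) : ℝ) := by
          exact_mod_cast diamondDist_vinr k e i j hij
        nlinarith
    · intro u v
      have h1 := hd (vinl u) (vinl v)
      have h2 : 2 * (diamondDist k u v : ℝ) ≤ (diamondDist (k + 1) (vinl u) (vinl v) : ℝ) := by
        exact_mod_cast diamondDist_vinl k u v
      show 2 * s * (diamondDist k u v : ℝ) ≤ ‖f (vinl u) - f (vinl v)‖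
      nlinarith

theorem diamond_distortion
    (hmax : ∀ t : ℝ, 0 < t → MaxGE (fun x : X => ‖x‖) t (Real.sqrt (1 + t ^ 2 / 4) - 1))
    (k : ℕ) (f : DiamondVertex k → X) (D : ℝ)
    (h : ∃ s : ℝ, 0 < s ∧ ∀ u v : DiamondVertex k,
      s * (diamondDist k u v : ℝ) ≤ ‖f u - f v‖ ∧ ‖f u - f v‖ ≤ D * s * (diamondDist k u v : ℝ)) :
    1 + (k : ℝ) / 4 ≤ D ^ 2 := by
  obtain ⟨s, hs, hd⟩ := h
  have hQ := J2_Q hmax k f s ((D * s) ^ 2) hs.le ?_ (fun u v => (hd u v).1)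
  · have hs2 : 0 < s ^ 2 := by positivity
    have : s ^ 2 * (1 + (k : ℝ) / 4) ≤ s ^ 2 * D ^ 2 := by nlinarith
    exact le_of_mul_le_mul_left this hs2
  · intro e
    have h1 := (hd (diamondSrc k e) (diamondTgt k e)).2
    rw [diamondDist_src_tgt] at h1
    simp only [Nat.cast_one, mul_one] at h1
    exact pow_le_pow_left₀ (norm_nonneg _) h1 2

end Crest.Agent.R125
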