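import Crest.Agent.R125.Cof
import Crest.Prelude.Def_DaugavetL1

/-!
# Row 125, task I: the lower midpoint bound in subspaces of `L¹` with ball totally bounded in measure

Paper proof.  Fix a unit `x ∈ E`, `t > 0`, `η > 0`.  `t - 1` is the triangle inequality
(`‖x+ty‖ + ‖x-ty‖ ≥ 2t`).  For `t/2`: choose `ε > 0` with `ε ≤ η/(2t+2)`-ish and such that `∫_A |x| < η/2` whenever
`P A < ε` (absolute continuity of the integral).  Take the finite `ε`-net `g₁..g_k ∈ E`, norming functionals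
`φᵢ ∈ E*` of `gᵢ` (`‖φᵢ‖ ≤ 1`, `φᵢ gᵢ = ‖gᵢ‖`), `F = ⋂ ker φᵢ`.  For a unit `y ∈ F` pick `i` and `a < ε` with
`P A < a`, `A = {a < |y - gᵢ|}`.  From `‖gᵢ‖ = φᵢ (gᵢ - y) ≤ ‖gᵢ - y‖`, splitting both norms over `A` and `Aᶜ`
(where `|y - gᵢ| ≤ a`): `∫_{Aᶜ}|y| - a ≤ ∫_A |y| + a`, so `∫_A |y| ≥ 1/2 - a`.  Pointwise
`|x+ty| + |x-ty| = 2 max(|x|, t|y|) ≥ 2|x| + 2 (t|y| - |x|) 1_A`, hence
`(‖x+ty‖+‖x-ty‖)/2 ≥ 1 + t ∫_A|y| - ∫_A|x| ≥ 1 + t/2 - tε - η/2`.
-/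

set_option autoImplicit false

namespace Crest.Agent.R125

open MeasureTheory Filter Topology Crest.AnalysisR.L1Subspace

section core

variable {Ω : Type} [MeasurableSpace Ω] {P : Measure Ω} [IsProbabilityMeasure P]

/-- If `|y - g| ≤ a` off `A` and `∫|g| ≤ ∫|g - y|`, then at least half of the mass of `y` sits on `A`
(up to `a`). -/
theorem l1mid_mass (y g : Ω → ℝ) (hy : Integrable y P) (hg : Integrable g P) (A : Set Ω)
    (hA : MeasurableSet A) (a : ℝ) (ha : 0 ≤ a) (hAc : ∀ z, z ∉ A → |y z - g z| ≤ a)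
    (hnorm : ∫ z, |g z| ∂P ≤ ∫ z, |g z - y z| ∂P) :
    (∫ z, |y z| ∂P) / 2 - a ≤ ∫ z in A, |y z| ∂P := by
  have h1 : ∫ z, |g z| ∂P = ∫ z in A, |g z| ∂P + ∫ z in Aᶜ, |g z| ∂P :=
    (integral_add_compl hA hg.abs).symm
  have h2 : ∫ z, |y z| ∂P = ∫ z in A, |y z| ∂P + ∫ z in Aᶜ, |y z| ∂P :=
    (integral_add_compl hA hy.abs).symm
  have h3 : ∫ z, |g z - y z| ∂P = ∫ z in A, |g z - y z| ∂P + ∫ z in Aᶜ, |g z - y z| ∂P :=
    (integral_add_compl hA (hg.sub hy).abs).symm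
  have hconst : ∫ _z in Aᶜ, a ∂P ≤ a := by
    rw [setIntegral_const, smul_eq_mul]
    have : P.real Aᶜ ≤ 1 := measureReal_le_one
    nlinarith [measureReal_nonneg (μ := P) (s := Aᶜ)]
  have hci : IntegrableOn (fun _ : Ω => a) Aᶜ P := (integrable_const a).integrableOn
  -- `∫_{Aᶜ} |g - y| ≤ a`
  have h4 : ∫ z in Aᶜ, |g z - y z| ∂P ≤ a := by
    refine le_trans (setIntegral_mono_on (hg.sub hy).abs.integrableOn hci hA.compl ?_) hconst
    intro z hz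
    rw [abs_sub_comm]
    exact hAc z hz
  -- `∫_{Aᶜ} |y| - a ≤ ∫_{Aᶜ} |g|`
  have h5 : ∫ z in Aᶜ, |y z| ∂P - a ≤ ∫ z in Aᶜ, |g z| ∂P := by
    have : ∫ z in Aᶜ, |y z| ∂P ≤ ∫ z in Aᶜ, (|g z| + a) ∂P := by
      refine setIntegral_mono_on hy.abs.integrableOn (hg.abs.integrableOn.add hci) hA.compl ?_
      intro z hz
      have := hAc z hz
      have h' : |y z| ≤ |y z - g z| + |g z| := by
        have := abs_add_le (y z - g z) (g z)
        simpa using this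
      linarith
    rw [integral_add hg.abs.integrableOn hci] at this
    linarith
  -- `∫_A |g - y| ≤ ∫_A |g| + ∫_A |y|`
  have h6 : ∫ z in A, |g z - y z| ∂P ≤ ∫ z in A, |g z| ∂P + ∫ z in A, |y z| ∂P := by
    rw [← integral_add hg.abs.integrableOn hy.abs.integrableOn]
    refine setIntegral_mono_on (hg.sub hy).abs.integrableOn
      (hg.abs.integrableOn.add hy.abs.integrableOn) hA ?_
    intro z _
    exact abs_sub _ _
  linarith

omit [IsProbabilityMeasure P] in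
/-- the pointwise inequality `|u+v| + |u-v| ≥ 2 max(|u|,|v|)` integrated over `A` and `Aᶜ`. -/
theorem l1mid_split (x y : Ω → ℝ) (hx : Integrable x P) (hy : Integrable y P) (A : Set Ω)
    (hA : MeasurableSet A) :
    2 * (∫ z, |x z| ∂P) + 2 * (∫ z in A, |y z| ∂P - ∫ z in A, |x z| ∂P) ≤
      ∫ z, |x z + y z| ∂P + ∫ z, |x z - y z| ∂P := by
  have h1 : ∫ z, |x z| ∂P = ∫ z in A, |x z| ∂P + ∫ z in Aᶜ, |x z| ∂P :=
    (integral_add_compl hA hx.abs).symm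
  have hs : Integrable (fun z => |x z + y z| + |x z - y z|) P := (hx.add hy).abs.add (hx.sub hy).abs
  have h2 : ∫ z, |x z + y z| ∂P + ∫ z, |x z - y z| ∂P =
      ∫ z in A, (|x z + y z| + |x z - y z|) ∂P + ∫ z in Aᶜ, (|x z + y z| + |x z - y z|) ∂P := by
    rw [integral_add_compl hA hs]
    exact (integral_add (hx.add hy).abs (hx.sub hy).abs).symm
  have h3 : 2 * ∫ z in A, |y z| ∂P ≤ ∫ z in A, (|x z + y z| + |x z - y z|) ∂P := by
    rw [← integral_const_mul]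
    refine setIntegral_mono_on (hy.abs.const_mul 2).integrableOn hs.integrableOn hA ?_
    intro z _
    have := abs_sub (x z + y z) (x z - y z)
    have h' : x z + y z - (x z - y z) = 2 * y z := by ring
    rw [h', abs_mul, abs_two] at this
    exact this
  have h4 : 2 * ∫ z in Aᶜ, |x z| ∂P ≤ ∫ z in Aᶜ, (|x z + y z| + |x z - y z|) ∂P := by
    rw [← integral_const_mul]
    refine setIntegral_mono_on (hx.abs.const_mul 2).integrableOn hs.integrableOn hA.compl ?_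
    intro z _
    have := abs_add_le (x z + y z) (x z - y z)
    have h' : x z + y z + (x z - y z) = 2 * x z := by ring
    rw [h', abs_mul, abs_two] at this
    exact this
  linarith

omit [IsProbabilityMeasure P] in
/-- absolute continuity of the integral, real version -/
theorem l1mid_abs_cont (x : Ω → ℝ) (hx : Integrable x P) (η : ℝ) (hη : 0 < η) :
    ∃ δ : ℝ, 0 < δ ∧ ∀ A : Set Ω, P A < ENNReal.ofReal δ → ∫ z in A, |x z| ∂P < η := by
  have hfin : ∫⁻ z, ‖x z‖ₑ ∂P ≠ ⊤ := hx.2.ne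
  obtain ⟨δ, hδ, h⟩ := exists_pos_setLIntegral_lt_of_measure_lt hfin
    (ε := ENNReal.ofReal η) (by simpa using hη)
  refine ⟨(min δ 1).toReal, ?_, ?_⟩
  · apply ENNReal.toReal_pos
    · exact (lt_min hδ one_pos).ne'
    · exact (lt_of_le_of_lt (min_le_right _ _) ENNReal.one_lt_top).ne
  · intro A hA
    rw [ENNReal.ofReal_toReal (lt_of_le_of_lt (min_le_right _ _) ENNReal.one_lt_top).ne] at hA
    have h1 := h A (lt_of_lt_of_le hA (min_le_left _ _))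
    have h2 : ∫ z in A, |x z| ∂P = (∫⁻ z in A, ‖x z‖ₑ ∂P).toReal := by
      have := integral_norm_eq_lintegral_enorm (μ := P.restrict A) hx.1.restrict
      simpa [Real.norm_eq_abs] using this
    rw [h2]
    exact (ENNReal.toReal_lt_of_lt_ofReal h1)

omit [IsProbabilityMeasure P] in
theorem l1mid_norm_eq (f : Lp ℝ 1 P) : ‖f‖ = ∫ z, |(f : Ω → ℝ) z| ∂P := by
  rw [L1.norm_eq_integral_norm]
  rfl

omit [IsProbabilityMeasure P] in
theorem l1mid_norm_add_smul (f g : Lp ℝ 1 P) (c : ℝ) :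
    ‖f + c • g‖ = ∫ z, |(f : Ω → ℝ) z + c * (g : Ω → ℝ) z| ∂P := by
  rw [L1.norm_eq_integral_norm]
  apply integral_congr_ae
  filter_upwards [Lp.coeFn_add f (c • g), Lp.coeFn_smul c g] with z h1 h2
  rw [h1, Pi.add_apply, h2, Pi.smul_apply, smul_eq_mul, Real.norm_eq_abs]

omit [IsProbabilityMeasure P] in
theorem l1mid_norm_sub_smul (f g : Lp ℝ 1 P) (c : ℝ) :
    ‖f - c • g‖ = ∫ z, |(f : Ω → ℝ) z - c * (g : Ω → ℝ) z| ∂P := by
  rw [L1.norm_eq_integral_norm]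
  apply integral_congr_ae
  filter_upwards [Lp.coeFn_sub f (c • g), Lp.coeFn_smul c g] with z h1 h2
  rw [h1, Pi.sub_apply, h2, Pi.smul_apply, smul_eq_mul, Real.norm_eq_abs]

omit [IsProbabilityMeasure P] in
theorem l1mid_norm_sub (f g : Lp ℝ 1 P) :
    ‖f - g‖ = ∫ z, |(f : Ω → ℝ) z - (g : Ω → ℝ) z| ∂P := by
  rw [L1.norm_eq_integral_norm]
  apply integral_congr_ae
  filter_upwards [Lp.coeFn_sub f g] with z h1
  rw [h1, Pi.sub_apply, Real.norm_eq_abs]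

end core

theorem l1_midGE (Ω : Type) [MeasurableSpace Ω] (P : Measure Ω) [IsProbabilityMeasure P]
    (E : Submodule ℝ (Lp ℝ 1 P)) (htb : UnitBallTotallyBoundedInMeasure P E) (t : ℝ) (ht : 0 < t) :
    MidGE (fun x : E => ‖x‖) t (max (t / 2) (t - 1)) := by
  intro x hx η hη
  simp only at hx
  -- absolute continuity for `x`
  have hxi : Integrable (fun z => ((x : Lp ℝ 1 P) : Ω → ℝ) z) P := L1.integrable_coeFn _
  obtain ⟨δ, hδ, hδA⟩ := l1mid_abs_cont _ hxi (η / 2) (by positivity)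
  set ε : ℝ := min δ (η / (2 * t)) with hεdef
  have hε : 0 < ε := lt_min hδ (by positivity)
  obtain ⟨s, hs, hnet⟩ := htb ε hε
  -- norming functionals
  have hφ : ∀ g : s, ∃ φ : E →L[ℝ] ℝ, ‖φ‖ ≤ 1 ∧ φ ⟨g.1, (hs g.1 g.2).1⟩ = ‖(g.1 : Lp ℝ 1 P)‖ := by
    intro g
    obtain ⟨φ, h1, h2⟩ := exists_dual_vector'' ℝ (⟨g.1, (hs g.1 g.2).1⟩ : E)
    exact ⟨φ, h1, by simpa using h2⟩
  choose φ hφ1 hφ2 using hφ
  refine ⟨{y : E | ∀ g : s, φ g y = 0}, cof_of_finite_functionals φ, ?_⟩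
  intro y hyF hy
  simp only at hy
  simp only
  -- the triangle inequality part
  have htri : 2 * t ≤ ‖x + t • y‖ + ‖x - t • y‖ := by
    have h1 := norm_sub_le (x + t • y) (x - t • y)
    have h2 : x + t • y - (x - t • y) = (2 * t) • y := by
      rw [two_mul, add_smul]; abel
    rw [h2, norm_smul, hy, Real.norm_eq_abs, abs_of_pos (by positivity), mul_one] at h1
    exact h1
  -- the net part
  have hy1 : ‖(y : Lp ℝ 1 P)‖ = 1 := hy
  have hx1 : ‖(x : Lp ℝ 1 P)‖ = 1 := hx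
  obtain ⟨g, hgs, hdist⟩ := hnet y y.2 hy1.le
  have hne : {a : ℝ | 0 < a ∧ P {z | a < abs (((y : Lp ℝ 1 P) : Ω → ℝ) z - (g : Ω → ℝ) z)} <
      ENNReal.ofReal a}.Nonempty := by
    refine ⟨2, by norm_num, lt_of_le_of_lt prob_le_one ?_⟩
    rw [show (1 : ENNReal) = ENNReal.ofReal 1 by simp]
    exact (ENNReal.ofReal_lt_ofReal_iff (by norm_num)).2 (by norm_num)
  obtain ⟨a, ⟨ha0, haP⟩, haε⟩ := exists_lt_of_csInf_lt hne hdist
  set A : Set Ω := {z | a < abs (((y : Lp ℝ 1 P) : Ω → ℝ) z - (g : Ω → ℝ) z)} with hA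
  have hAm : MeasurableSet A := by
    apply measurableSet_lt measurable_const
    exact (((Lp.stronglyMeasurable _).measurable.sub (Lp.stronglyMeasurable _).measurable)).abs
  have hyi : Integrable (fun z => ((y : Lp ℝ 1 P) : Ω → ℝ) z) P := L1.integrable_coeFn _
  have hgi : Integrable (fun z => (g : Ω → ℝ) z) P := L1.integrable_coeFn _
  -- `‖g‖ ≤ ‖g - y‖`
  have hgy : ‖g‖ ≤ ‖g - (y : Lp ℝ 1 P)‖ := by
    have h1 := hφ2 ⟨g, hgs⟩
    have h2 : φ ⟨g, hgs⟩ y = 0 := hyF ⟨g, hgs⟩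
    have h3 : φ ⟨g, hgs⟩ (⟨g, (hs g hgs).1⟩ - y) = ‖g‖ := by
      rw [map_sub, h2, sub_zero]; exact h1
    have h4 := (φ ⟨g, hgs⟩).le_opNorm (⟨g, (hs g hgs).1⟩ - y)
    rw [h3, Real.norm_eq_abs, abs_of_nonneg (norm_nonneg _)] at h4
    have h5 : ‖(⟨g, (hs g hgs).1⟩ - y : E)‖ = ‖g - (y : Lp ℝ 1 P)‖ := rfl
    rw [h5] at h4
    calc ‖g‖ ≤ ‖φ ⟨g, hgs⟩‖ * ‖g - (y : Lp ℝ 1 P)‖ := h4
      _ ≤ 1 * ‖g - (y : Lp ℝ 1 P)‖ := by
          apply mul_le_mul_of_nonneg_right (hφ1 _) (norm_nonneg _)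
      _ = _ := one_mul _
  rw [l1mid_norm_eq, l1mid_norm_sub] at hgy
  have hmass := l1mid_mass _ _ hyi hgi A hAm a ha0.le (fun z hz => not_lt.1 hz) hgy
  rw [← l1mid_norm_eq, hy1] at hmass
  -- small mass of `x` on `A`
  have hxA : ∫ z in A, |((x : Lp ℝ 1 P) : Ω → ℝ) z| ∂P < η / 2 := by
    apply hδA
    refine lt_of_lt_of_le haP (ENNReal.ofReal_le_ofReal ?_)
    exact haε.le.trans (min_le_left _ _)
  have hsplit := l1mid_split _ _ hxi (hyi.const_mul t) A hAm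
  rw [← l1mid_norm_eq, hx1, ← l1mid_norm_add_smul, ← l1mid_norm_sub_smul] at hsplit
  have htA : ∫ z in A, |t * ((y : Lp ℝ 1 P) : Ω → ℝ) z| ∂P =
      t * ∫ z in A, |((y : Lp ℝ 1 P) : Ω → ℝ) z| ∂P := by
    rw [← integral_const_mul]
    congr 1
    ext z
    rw [abs_mul, abs_of_pos ht]
  rw [htA] at hsplit
  have e1 : ‖x + t • y‖ = ‖(x : Lp ℝ 1 P) + t • (y : Lp ℝ 1 P)‖ := rfl
  have e2 : ‖x - t • y‖ = ‖(x : Lp ℝ 1 P) - t • (y : Lp ℝ 1 P)‖ := rfl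
  rw [← e1, ← e2] at hsplit
  have hta : t * a ≤ η / 2 := by
    have h1 : a ≤ η / (2 * t) := haε.le.trans (min_le_right _ _)
    calc t * a ≤ t * (η / (2 * t)) := by gcongr
      _ = η / 2 := by field_simp
  have hmass' : t * (1 / 2 - a) ≤ t * ∫ z in A, |((y : Lp ℝ 1 P) : Ω → ℝ) z| ∂P := by
    gcongr
  rcases max_cases (t / 2) (t - 1) with ⟨h, _⟩ | ⟨h, _⟩
  · rw [h]; nlinarith
  · rw [h]; linarith

end Crest.Agent.R125
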