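import Crest.Agent.R125.Cof

/-!
# Row 125, task C: consequences and permanence of the homogeneous midpoint inequality `QMid`
-/

set_option autoImplicit false

namespace Crest.Agent.R125

open Filter Topology

variable {X : Type} [NormedAddCommGroup X] [NormedSpace ℝ X]

/-- `QMid` gives the averaged midpoint modulus `√(1+t²/4) - 1` at every `t` (any real `t`). -/
theorem QMid.midGE (h : QMid X) (t : ℝ) :
    MidGE (fun x : X => ‖x‖) t (Real.sqrt (1 + t ^ 2 / 4) - 1) := by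
  intro x hx η hη
  obtain ⟨F, hF, hFy⟩ := h x η hη
  refine ⟨F, hF, ?_⟩
  intro y hy hy1
  have hx' : ‖x‖ = 1 := hx
  have hy1' : ‖y‖ = 1 := hy1
  have h1 := hFy (t • y) (hF.smul_mem t hy)
  have h2 : ‖t • y‖ ^ 2 = t ^ 2 := by
    rw [norm_smul, hy1', mul_one, Real.norm_eq_abs, sq_abs]
  rw [h2, hx'] at h1
  have h3 : Real.sqrt (4 * 1 ^ 2 + t ^ 2) = 2 * Real.sqrt (1 + t ^ 2 / 4) := by
    have : (4 * 1 ^ 2 + t ^ 2 : ℝ) = 2 ^ 2 * (1 + t ^ 2 / 4) := by ring
    rw [this, Real.sqrt_mul (by positivity), Real.sqrt_sq (by norm_num)]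
  rw [h3] at h1
  show Real.sqrt (1 + t ^ 2 / 4) - 1 - η ≤ (‖x + t • y‖ + ‖x - t • y‖) / 2 - 1
  linarith

theorem MidGE.mono {N : X → ℝ} {t c c' : ℝ} (h : MidGE N t c) (hc : c' ≤ c) : MidGE N t c' := by
  intro x hx η hη
  obtain ⟨F, hF, hFy⟩ := h x hx η hη
  refine ⟨F, hF, fun y hy hy1 => ?_⟩
  have := hFy y hy hy1
  linarith

theorem MidGE.maxGE {N : X → ℝ} {t c : ℝ} (h : MidGE N t c) : MaxGE N t c := by
  intro x hx η hη
  obtain ⟨F, hF, hFy⟩ := h x hx η hη
  refine ⟨F, hF, fun y hy hy1 => ?_⟩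
  have h1 := hFy y hy hy1
  have h2 := le_max_left (N (x + t • y)) (N (x - t • y))
  have h3 := le_max_right (N (x + t • y)) (N (x - t • y))
  linarith

/-- `QMid` passes to linear subspaces. -/
theorem QMid.submodule (h : QMid X) (S : Submodule ℝ X) : QMid S := by
  intro x η hη
  obtain ⟨F, hF, hFy⟩ := h (x : X) η hη
  refine ⟨{y : S | (y : X) ∈ F}, hF.restrict S, fun y hy => ?_⟩
  have h1 := hFy (y : X) hy
  simpa using h1

end Crest.Agent.R125
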