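import Crest.Agent.R125.Mid

/-!
# Row 125, task C2: `QMid` passes to `ℓ²`-sums

Paper proof.  Given `x ∈ lp Y 2`, `η > 0`: choose `H` with small tail `∑_{h ≥ H} ‖x h‖²`; for `h < H` take `F h` from
`QMid (Y h)` at `x h` with error `η₂ = η / (2 (H+1))`; `F = {y | ∀ h < H, y h ∈ F h}` (finite intersection of preimages under the
coordinate maps).  For `y ∈ F`, with `a h = ‖x h + y h‖`, `b h = ‖x h - y h‖`, `c h = √(4‖x h‖² + ‖y h‖²)`,
`e h = η₂` (`h < H`), `e h = 2 ‖x h‖` (`h ≥ H`) we have `c ≤ a + b + e` pointwise, hence by Minkowski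
`√(4‖x‖²+‖y‖²) = ‖c‖₂ ≤ ‖a‖₂ + ‖b‖₂ + ‖e‖₂ ≤ ‖x+y‖ + ‖x-y‖ + η`.
-/

set_option autoImplicit false

namespace Crest.Agent.R125

open Filter Topology

/-- finite Minkowski inequality in `ℓ²` -/
theorem midLp_sqrt_sum_add_le (s : Finset ℕ) (f g : ℕ → ℝ) :
    Real.sqrt (∑ i ∈ s, (f i + g i) ^ 2) ≤
      Real.sqrt (∑ i ∈ s, f i ^ 2) + Real.sqrt (∑ i ∈ s, g i ^ 2) := by
  have hA : 0 ≤ ∑ i ∈ s, f i ^ 2 := Finset.sum_nonneg fun _ _ => by positivity
  have hB : 0 ≤ ∑ i ∈ s, g i ^ 2 := Finset.sum_nonneg fun _ _ => by positivity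
  have hcs := Real.sum_mul_le_sqrt_mul_sqrt s f g
  rw [Real.sqrt_le_left (by positivity)]
  have h1 : ∑ i ∈ s, (f i + g i) ^ 2
      = ∑ i ∈ s, f i ^ 2 + ∑ i ∈ s, g i ^ 2 + 2 * ∑ i ∈ s, f i * g i := by
    rw [Finset.mul_sum, ← Finset.sum_add_distrib, ← Finset.sum_add_distrib]
    exact Finset.sum_congr rfl fun i _ => by ring
  have h2 : (Real.sqrt (∑ i ∈ s, f i ^ 2) + Real.sqrt (∑ i ∈ s, g i ^ 2)) ^ 2
      = ∑ i ∈ s, f i ^ 2 + ∑ i ∈ s, g i ^ 2
        + 2 * (Real.sqrt (∑ i ∈ s, f i ^ 2) * Real.sqrt (∑ i ∈ s, g i ^ 2)) := by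
    have e1 := Real.sq_sqrt hA
    have e2 := Real.sq_sqrt hB
    nlinarith
  rw [h1, h2]
  linarith

theorem midLp_hasSum (Y : ℕ → Type) [∀ i, NormedAddCommGroup (Y i)] (f : lp Y 2) :
    HasSum (fun i => ‖f i‖ ^ 2) (‖f‖ ^ 2) := by
  have h := lp.hasSum_norm (p := 2) (by norm_num) f
  simpa using h

theorem midLp_sum_le (Y : ℕ → Type) [∀ i, NormedAddCommGroup (Y i)] (f : lp Y 2)
    (s : Finset ℕ) : Real.sqrt (∑ i ∈ s, ‖f i‖ ^ 2) ≤ ‖f‖ := by
  rw [Real.sqrt_le_left (norm_nonneg _)]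
  exact sum_le_hasSum s (fun _ _ => by positivity) (midLp_hasSum Y f)

/-- `QMid` passes to `ℓ²`-sums (Minkowski's inequality in `ℓ²`). -/
theorem QMid.lp_two (Y : ℕ → Type) [∀ i, NormedAddCommGroup (Y i)] [∀ i, NormedSpace ℝ (Y i)]
    (h : ∀ i, QMid (Y i)) : QMid (lp Y 2) := by
  intro x η hη
  -- choose `H`
  have hx := midLp_hasSum Y x
  have hτ : (0 : ℝ) < η ^ 2 / 8 := by positivity
  obtain ⟨H, hH⟩ : ∃ H : ℕ, ‖x‖ ^ 2 - η ^ 2 / 8 < ∑ i ∈ Finset.range H, ‖x i‖ ^ 2 := by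
    have ht := hx.tendsto_sum_nat
    have : ∀ᶠ n in atTop, ‖x‖ ^ 2 - η ^ 2 / 8 < ∑ i ∈ Finset.range n, ‖x i‖ ^ 2 :=
      ht.eventually (lt_mem_nhds (by linarith))
    exact this.exists
  set η₂ : ℝ := η / (2 * (H + 1)) with hη₂def
  have hη₂ : 0 < η₂ := by positivity
  choose F hF hFy using fun i => h i (x i) η₂ hη₂
  refine ⟨⋂ i ∈ Finset.range H, (lp.evalCLM ℝ Y 2 i) ⁻¹' (F i),
    Cof.iInter_finset _ _ (fun i _ => (hF i).preimage _), ?_⟩
  intro y hy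
  have hy' : ∀ i, i < H → y i ∈ F i := by
    intro i hi
    have := Set.mem_iInter₂.mp hy i (Finset.mem_range.mpr hi)
    exact this
  set e : ℕ → ℝ := fun i => if i < H then η₂ else 2 * ‖x i‖ with hedef
  have he0 : ∀ i, 0 ≤ e i := by
    intro i
    simp only [hedef]
    split_ifs
    · exact hη₂.le
    · positivity
  -- pointwise inequality
  have hpt : ∀ i, Real.sqrt (4 * ‖x i‖ ^ 2 + ‖y i‖ ^ 2) ≤ ‖(x + y) i‖ + ‖(x - y) i‖ + e i := by
    intro i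
    have e1 : (x + y) i = x i + y i := rfl
    have e2 : (x - y) i = x i - y i := rfl
    rw [e1, e2]
    by_cases hi : i < H
    · have := hFy i (y i) (hy' i hi)
      simp only [hedef, if_pos hi]
      linarith
    · simp only [hedef, if_neg hi]
      have h1 : Real.sqrt (4 * ‖x i‖ ^ 2 + ‖y i‖ ^ 2) ≤ 2 * ‖x i‖ + ‖y i‖ := by
        rw [Real.sqrt_le_left (by positivity)]
        nlinarith [norm_nonneg (x i), norm_nonneg (y i)]
      have h2 : 2 * ‖y i‖ ≤ ‖x i + y i‖ + ‖x i - y i‖ := by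
        have : (2 : ℝ) • y i = (x i + y i) - (x i - y i) := by
          rw [two_smul]; abel
        calc 2 * ‖y i‖ = ‖(2 : ℝ) • y i‖ := by rw [norm_smul]; simp
          _ = ‖(x i + y i) - (x i - y i)‖ := by rw [this]
          _ ≤ _ := norm_sub_le _ _
      have := norm_nonneg (y i)
      linarith
  -- bound on `e`
  have hes : ∀ s : Finset ℕ, Real.sqrt (∑ i ∈ s, e i ^ 2) ≤ η := by
    intro s
    rw [Real.sqrt_le_left hη.le]
    have hsplit : ∑ i ∈ s, e i ^ 2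
        = ∑ i ∈ s.filter (· < H), η₂ ^ 2 + ∑ i ∈ s.filter (fun i => ¬ i < H), 4 * ‖x i‖ ^ 2 := by
      rw [← Finset.sum_filter_add_sum_filter_not s (· < H)]
      congr 1
      · refine Finset.sum_congr rfl fun i hi => ?_
        simp only [hedef, if_pos (Finset.mem_filter.mp hi).2]
      · refine Finset.sum_congr rfl fun i hi => ?_
        simp only [hedef, if_neg (Finset.mem_filter.mp hi).2]
        ring
    have h1 : ∑ i ∈ s.filter (· < H), η₂ ^ 2 ≤ η ^ 2 / 4 := by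
      rw [Finset.sum_const, nsmul_eq_mul]
      have hcard : ((s.filter (· < H)).card : ℝ) ≤ H := by
        have : (s.filter (· < H)).card ≤ (Finset.range H).card := by
          apply Finset.card_le_card
          intro i hi
          exact Finset.mem_range.mpr (Finset.mem_filter.mp hi).2
        rw [Finset.card_range] at this
        exact_mod_cast this
      have hH0 : (0 : ℝ) ≤ H := Nat.cast_nonneg H
      have hsq : η₂ ^ 2 = η ^ 2 / (4 * (H + 1) ^ 2) := by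
        rw [hη₂def, div_pow]; ring
      calc ((s.filter (· < H)).card : ℝ) * η₂ ^ 2 ≤ H * η₂ ^ 2 := by gcongr
        _ = η ^ 2 / 4 * (H / (H + 1) ^ 2) := by rw [hsq]; field_simp
        _ ≤ η ^ 2 / 4 * 1 := by
            gcongr
            rw [div_le_one (by positivity)]
            nlinarith
        _ = η ^ 2 / 4 := by ring
    have h2 : ∑ i ∈ s.filter (fun i => ¬ i < H), 4 * ‖x i‖ ^ 2 ≤ η ^ 2 / 2 := by
      rw [← Finset.mul_sum]
      have hdisj : Disjoint (s.filter (fun i => ¬ i < H)) (Finset.range H) := by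
        rw [Finset.disjoint_left]
        intro i hi hi'
        exact (Finset.mem_filter.mp hi).2 (Finset.mem_range.mp hi')
      have := sum_le_hasSum (s.filter (fun i => ¬ i < H) ∪ Finset.range H)
        (fun _ _ => by positivity) hx
      rw [Finset.sum_union hdisj] at this
      linarith
    rw [hsplit]
    nlinarith [sq_nonneg η]
  -- conclusion
  set R : ℝ := ‖x + y‖ + ‖x - y‖ + η with hR
  have hR0 : 0 ≤ R := by positivity
  have hsum : HasSum (fun i => 4 * ‖x i‖ ^ 2 + ‖y i‖ ^ 2) (4 * ‖x‖ ^ 2 + ‖y‖ ^ 2) :=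
    (hx.mul_left 4).add (midLp_hasSum Y y)
  have hfin : ∀ s : Finset ℕ, ∑ i ∈ s, (4 * ‖x i‖ ^ 2 + ‖y i‖ ^ 2) ≤ R ^ 2 := by
    intro s
    have h0 : 0 ≤ ∑ i ∈ s, (4 * ‖x i‖ ^ 2 + ‖y i‖ ^ 2) :=
      Finset.sum_nonneg fun _ _ => by positivity
    have h1 : ∑ i ∈ s, (4 * ‖x i‖ ^ 2 + ‖y i‖ ^ 2)
        ≤ ∑ i ∈ s, ((‖(x + y) i‖ + ‖(x - y) i‖) + e i) ^ 2 := by
      refine Finset.sum_le_sum fun i _ => ?_
      have h3 : 0 ≤ 4 * ‖x i‖ ^ 2 + ‖y i‖ ^ 2 := by positivity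
      calc 4 * ‖x i‖ ^ 2 + ‖y i‖ ^ 2 = Real.sqrt (4 * ‖x i‖ ^ 2 + ‖y i‖ ^ 2) ^ 2 :=
            (Real.sq_sqrt h3).symm
        _ ≤ _ := by
            gcongr
            exact hpt i
    have h2 : Real.sqrt (∑ i ∈ s, ((‖(x + y) i‖ + ‖(x - y) i‖) + e i) ^ 2) ≤ R := by
      calc Real.sqrt (∑ i ∈ s, ((‖(x + y) i‖ + ‖(x - y) i‖) + e i) ^ 2)
          ≤ Real.sqrt (∑ i ∈ s, (‖(x + y) i‖ + ‖(x - y) i‖) ^ 2) + Real.sqrt (∑ i ∈ s, e i ^ 2) :=
            midLp_sqrt_sum_add_le s _ _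
        _ ≤ (Real.sqrt (∑ i ∈ s, ‖(x + y) i‖ ^ 2) + Real.sqrt (∑ i ∈ s, ‖(x - y) i‖ ^ 2))
              + Real.sqrt (∑ i ∈ s, e i ^ 2) := by
            gcongr
            exact midLp_sqrt_sum_add_le s _ _
        _ ≤ R := by
            rw [hR]
            gcongr
            · exact midLp_sum_le Y _ s
            · exact midLp_sum_le Y _ s
            · exact hes s
    have h3 := (Real.sqrt_le_left hR0).mp h2
    linarith
  have hfinal : 4 * ‖x‖ ^ 2 + ‖y‖ ^ 2 ≤ R ^ 2 := hasSum_le_of_sum_le hsum hfin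
  have := (Real.sqrt_le_left hR0).mpr hfinal
  rw [hR] at this
  linarith

end Crest.Agent.R125
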