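import Crest.Agent.R125.Cof

/-!
# Row 125, task B: the abstract "no equivalent AUC norm" lemma
-/

set_option autoImplicit false

namespace Crest.Agent.R125

open Filter Topology

variable {X : Type} [NormedAddCommGroup X] [NormedSpace ℝ X]

/-- convexity: if `N x = 1`, `N (x + t₀ y) ≥ 1 + c` and `t₀ ≤ t` then `N (x + t y) ≥ 1 + c`. -/
theorem EquivNorm.mono_of_convex {N : X → ℝ} (hN : EquivNorm N) {x y : X} {t₀ t c : ℝ}
    (hx : N x = 1) (ht₀ : 0 < t₀) (ht : t₀ ≤ t) (hc : 0 ≤ c) (h : 1 + c ≤ N (x + t₀ • y)) :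
    1 + c ≤ N (x + t • y) := by
  obtain ⟨hsub, hhom, -⟩ := hN
  have htpos : 0 < t := lt_of_lt_of_le ht₀ ht
  have hconv : x + t₀ • y = (t₀ / t) • (x + t • y) + (1 - t₀ / t) • x := by
    have : (t₀ / t) * t = t₀ := div_mul_cancel₀ t₀ htpos.ne'
    rw [smul_add, smul_smul (t₀ / t) t y, this, sub_smul, one_smul]
    abel
  have hts : 0 ≤ t₀ / t := (div_pos ht₀ htpos).le
  have hts1 : t₀ / t ≤ 1 := (div_le_one htpos).mpr ht
  have h2 : N (x + t₀ • y) ≤ (t₀ / t) * N (x + t • y) + (1 - t₀ / t) := by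
    rw [hconv]
    refine (hsub _ _).trans ?_
    rw [hhom, hhom, abs_of_nonneg hts, abs_of_nonneg (sub_nonneg.mpr hts1), hx, mul_one]
  have h4 : c + t₀ / t ≤ (t₀ / t) * N (x + t • y) := by linarith
  have h5 : 0 < t₀ / t := div_pos ht₀ htpos
  by_contra hcon
  push Not at hcon
  have : (t₀ / t) * N (x + t • y) < (t₀ / t) * (1 + c) := mul_lt_mul_of_pos_left hcon h5
  nlinarith

/-- Scaled form of the AUC inequality at one `t`. -/
theorem EquivNorm.auc_scaled {N : X → ℝ} (hN : EquivNorm N) (t c : ℝ) (ht : 0 < t) (hc : 0 < c)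
    (h : ∀ x : X, N x = 1 → ∃ F : Set X, Cof F ∧ ∀ y ∈ F, N y = 1 → c ≤ N (x + t • y) - 1)
    (x : X) (hx : 0 < N x) :
    ∃ F : Set X, Cof F ∧ ∀ y ∈ F, t * N x ≤ N y → (1 + c) * N x ≤ N (x + y) := by
  have hhom := hN.2.1
  have hx0 : N ((N x)⁻¹ • x) = 1 := by
    rw [hhom, abs_of_pos (inv_pos.mpr hx), inv_mul_cancel₀ hx.ne']
  obtain ⟨F, hF, hFy⟩ := h _ hx0
  refine ⟨F, hF, fun y hy hty => ?_⟩
  obtain ⟨S, rfl, -, -⟩ := hF
  have hNy : 0 < N y := lt_of_lt_of_le (mul_pos ht hx) hty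
  have hy0 : N ((N y)⁻¹ • y) = 1 := by
    rw [hhom, abs_of_pos (inv_pos.mpr hNy), inv_mul_cancel₀ hNy.ne']
  have h1 := hFy _ (S.smul_mem _ hy) hy0
  have hst : t ≤ N y / N x := by rw [le_div_iff₀ hx]; exact hty
  have h3 := hN.mono_of_convex hx0 ht hst hc.le (by linarith)
  have h6 : x + y = (N x) • ((N x)⁻¹ • x + (N y / N x) • ((N y)⁻¹ • y)) := by
    rw [smul_add, smul_smul, smul_smul, smul_smul, mul_inv_cancel₀ hx.ne', one_smul]
    congr 1
    rw [mul_div_cancel₀ _ hx.ne', mul_inv_cancel₀ hNy.ne', one_smul]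
  rw [h6, hhom, abs_of_pos hx]
  nlinarith

/-- **Abstract lemma.** Suppose that for every height `n` there are "levels" `P 0, …, P n` of
vectors of norm `≤ B`, level `0` containing a vector of norm `≥ κ`, such that every nonzero `u` of
level `j < n`, every `Cof` set `F` and every `ε > 0` admit a successor `u'` of level `j+1` with
`u' - u` within `ε` of some `f ∈ F` with `‖f‖ ≥ κ ‖u‖`. Then no equivalent norm is AUC. -/
theorem not_AUC_of_trees (B κ : ℝ) (hκ : 0 < κ)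
    (h : ∀ n : ℕ, ∃ P : ℕ → X → Prop, (∃ u, P 0 u ∧ κ ≤ ‖u‖) ∧ (∀ j u, P j u → ‖u‖ ≤ B) ∧
      ∀ j < n, ∀ u, P j u → u ≠ 0 → ∀ F : Set X, Cof F → ∀ ε : ℝ, 0 < ε →
        ∃ u', P (j + 1) u' ∧ ∃ f ∈ F, ‖u' - u - f‖ ≤ ε ∧ κ * ‖u‖ ≤ ‖f‖)
    (N : X → ℝ) (hN : EquivNorm N) : ¬ AUC N := by
  intro hauc
  obtain ⟨hsub, hhom, a, b, ha, hab⟩ := id hN
  have hbpos : 0 < b := by
    obtain ⟨P, ⟨u0, -, hu0k⟩, -, -⟩ := h 0
    have h1 := hab u0
    have h2 : 0 < ‖u0‖ := by linarith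
    have h3 : a * ‖u0‖ ≤ b * ‖u0‖ := h1.1.trans h1.2
    have h4 : a ≤ b := le_of_mul_le_mul_right h3 h2
    linarith
  set t := a * κ / b with ht
  have htpos : 0 < t := by positivity
  obtain ⟨c, hc, hcx⟩ := hauc t htpos
  have hbound : ∀ n : ℕ, (1 + c / 2) ^ n * (a * κ) ≤ b * B := by
    intro n
    obtain ⟨P, ⟨u0, hP0, hu0k⟩, hB, hstep⟩ := h n
    have hgrow : ∀ j ≤ n, ∃ u, P j u ∧ (1 + c / 2) ^ j * (a * κ) ≤ N u := by
      intro j
      induction j with
      | zero =>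
        intro _
        exact ⟨u0, hP0, by simpa using (mul_le_mul_of_nonneg_left hu0k ha.le).trans (hab u0).1⟩
      | succ j ih =>
        intro hj
        obtain ⟨u, hPu, hu⟩ := ih (Nat.le_of_succ_le hj)
        have hNu : 0 < N u := lt_of_lt_of_le (by positivity) hu
        have hune : u ≠ 0 := by
          rintro rfl
          have := (hab 0).2
          simp at this
          linarith
        obtain ⟨F, hF, hFy⟩ := hN.auc_scaled t c htpos hc hcx u hNu
        have hεpos : 0 < c / 2 * N u / b := by positivity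
        obtain ⟨u', hPu', f, hf, hfε, hfk⟩ := hstep j hj u hPu hune F hF _ hεpos
        have he : N (u' - u - f) ≤ c / 2 * N u := by
          calc N (u' - u - f) ≤ b * ‖u' - u - f‖ := (hab _).2
            _ ≤ b * (c / 2 * N u / b) := mul_le_mul_of_nonneg_left hfε hbpos.le
            _ = c / 2 * N u := by field_simp
        have htN : t * N u ≤ N f := by
          calc t * N u ≤ t * (b * ‖u‖) := mul_le_mul_of_nonneg_left (hab u).2 htpos.le
            _ = a * (κ * ‖u‖) := by rw [ht]; field_simp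
            _ ≤ a * ‖f‖ := mul_le_mul_of_nonneg_left hfk ha.le
            _ ≤ N f := (hab f).1
        have h1 := hFy f hf htN
        have hneg : N (-(u' - u - f)) = N (u' - u - f) := by
          have := hhom (-1) (u' - u - f)
          simpa using this
        have h2 : N (u + f) ≤ N u' + N (u' - u - f) := by
          have : u + f = u' + -(u' - u - f) := by abel
          calc N (u + f) = N (u' + -(u' - u - f)) := by rw [← this]
            _ ≤ N u' + N (-(u' - u - f)) := hsub _ _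
            _ = _ := by rw [hneg]
        have h3 : (1 + c / 2) * N u ≤ N u' := by nlinarith
        refine ⟨u', hPu', le_trans ?_ h3⟩
        rw [pow_succ, mul_comm ((1 + c / 2) ^ j), mul_assoc]
        exact mul_le_mul_of_nonneg_left hu (by positivity)
    obtain ⟨u, hPu, hu⟩ := hgrow n le_rfl
    exact hu.trans (((hab u).2).trans (mul_le_mul_of_nonneg_left (hB _ _ hPu) hbpos.le))
  have hlim : Tendsto (fun n : ℕ => (1 + c / 2) ^ n) atTop atTop :=
    tendsto_pow_atTop_atTop_of_one_lt (by linarith)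
  have hpos : 0 < a * κ := by positivity
  obtain ⟨n, hn⟩ := (hlim.eventually (eventually_gt_atTop (b * B / (a * κ)))).exists
  have := hbound n
  rw [div_lt_iff₀ hpos] at hn
  linarith

/-- In finite dimension the given norm is (vacuously) AUC, with `F = {0}`. -/
theorem not_finiteDimensional_of_no_AUC (h : ∀ N : X → ℝ, EquivNorm N → ¬ AUC N) :
    ¬ FiniteDimensional ℝ X := by
  intro hfd
  refine h (fun x => ‖x‖) ⟨fun x y => norm_add_le x y, fun a x => ?_, 1, 1, one_pos, fun x => ?_⟩ ?_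
  · show ‖a • x‖ = |a| * ‖x‖
    rw [norm_smul, Real.norm_eq_abs]
  · show 1 * ‖x‖ ≤ ‖x‖ ∧ ‖x‖ ≤ 1 * ‖x‖
    simp
  · intro t _
    refine ⟨1, one_pos, fun x _ => ⟨((⊥ : Submodule ℝ X) : Set X), ⟨⊥, rfl, ?_, ?_⟩, ?_⟩⟩
    · simp
    · infer_instance
    · intro y hy hy1
      have : y = 0 := by simpa using hy
      subst this
      simp at hy1

/-- An upper `ℓ²` estimate forces a sequence to be weakly null. -/
theorem tendsto_of_upper_l2 (d : ℕ → X) (C : ℝ)
    (h : ∀ (A : Finset ℕ) (a : ℕ → ℝ),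
      ‖∑ n ∈ A, a n • d n‖ ≤ C * Real.sqrt (∑ n ∈ A, a n ^ 2))
    (φ : X →L[ℝ] ℝ) : Tendsto (fun n => φ (d n)) atTop (𝓝 0) := by
  have hsum : ∀ A : Finset ℕ, ∑ n ∈ A, (φ (d n)) ^ 2 ≤ (‖φ‖ * C) ^ 2 := by
    intro A
    set σ := ∑ n ∈ A, (φ (d n)) ^ 2 with hσ
    have hσ0 : 0 ≤ σ := Finset.sum_nonneg fun _ _ => sq_nonneg _
    have h1 : σ = φ (∑ n ∈ A, φ (d n) • d n) := by
      rw [map_sum, hσ]
      refine Finset.sum_congr rfl fun n _ => ?_
      rw [map_smul, smul_eq_mul, sq]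
    have h2 : σ ≤ ‖φ‖ * (C * Real.sqrt σ) := by
      calc σ ≤ |σ| := le_abs_self _
        _ = ‖φ (∑ n ∈ A, φ (d n) • d n)‖ := by rw [← h1, Real.norm_eq_abs]
        _ ≤ ‖φ‖ * ‖∑ n ∈ A, φ (d n) • d n‖ := φ.le_opNorm _
        _ ≤ ‖φ‖ * (C * Real.sqrt σ) := mul_le_mul_of_nonneg_left (h A _) (norm_nonneg _)
    rcases hσ0.eq_or_lt with h0 | hpos
    · rw [← h0]; positivity
    · have hs : 0 < Real.sqrt σ := Real.sqrt_pos.mpr hpos
      have h3 : Real.sqrt σ * Real.sqrt σ = σ := Real.mul_self_sqrt hσ0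
      have h4 : Real.sqrt σ ≤ ‖φ‖ * C := by
        have : Real.sqrt σ * Real.sqrt σ ≤ (‖φ‖ * C) * Real.sqrt σ := by rw [h3]; linarith
        exact le_of_mul_le_mul_right this hs
      calc σ = Real.sqrt σ ^ 2 := by rw [sq, h3]
        _ ≤ (‖φ‖ * C) ^ 2 := pow_le_pow_left₀ hs.le h4 2
  have hsm : Summable fun n => (φ (d n)) ^ 2 :=
    summable_of_sum_le (fun _ => sq_nonneg _) hsum
  have h0 := hsm.tendsto_atTop_zero
  have h1 : Tendsto (fun n => Real.sqrt ((φ (d n)) ^ 2)) atTop (𝓝 0) := by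
    have := (Real.continuous_sqrt.tendsto 0).comp h0
    simpa [Function.comp_def] using this
  have h2 : Tendsto (fun n => |φ (d n)|) atTop (𝓝 0) := by
    simpa [Real.sqrt_sq_eq_abs] using h1
  exact (tendsto_zero_iff_abs_tendsto_zero _).mpr h2

/-- Tree version used for S0168/S0169/S0166: a family `u` indexed by lists (vertices; children of
`s` are `n :: s`), used up to height `n` for every `n` (`ht = ⊤` situation: all lists), with
`‖u s‖ ≤ B`, `‖u []‖ ≥ κ`, increments of norm `≥ κ` and weakly null along siblings. `good s` says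
the vertex `s` is allowed to have children. -/
theorem not_AUC_of_list_tree (B κ : ℝ) (hκ : 0 < κ) (hB : 0 < B)
    (h : ∀ n : ℕ, ∃ u : List ℕ → X, κ ≤ ‖u []‖ ∧ (∀ s, s.length ≤ n → ‖u s‖ ≤ B) ∧
      (∀ s, s.length < n → ∀ k : ℕ, κ ≤ ‖u (k :: s) - u s‖) ∧
      (∀ s, s.length < n → ∀ φ : X →L[ℝ] ℝ,
        Tendsto (fun k : ℕ => φ (u (k :: s) - u s)) atTop (𝓝 0)))
    (N : X → ℝ) (hN : EquivNorm N) : ¬ AUC N := by
  -- constant `κ' = min κ (κ / (2 B))`
  set κ' := min κ (κ / (2 * B)) with hκ'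
  have hκ'pos : 0 < κ' := lt_min hκ (by positivity)
  refine not_AUC_of_trees B κ' hκ'pos (fun n => ?_) N hN
  obtain ⟨u, hu0, huB, hinc, hweak⟩ := h n
  refine ⟨fun j x => j ≤ n ∧ ∃ s : List ℕ, s.length = j ∧ x = u s,
    ⟨u [], ⟨Nat.zero_le _, [], rfl, rfl⟩, (min_le_left _ _).trans hu0⟩, ?_, ?_⟩
  · rintro j x ⟨hj, s, hs, rfl⟩
    exact huB s (hs ▸ hj)
  · rintro j hj x ⟨-, s, hs, rfl⟩ - F hF ε hε
    have hsl : s.length < n := hs ▸ hj
    have hev := hF.eventually_near (fun k => u (k :: s) - u s) (hweak s hsl) (min ε (κ / 2))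
      (lt_min hε (by positivity))
    obtain ⟨k, f, hf, hfk⟩ := hev.exists
    refine ⟨u (k :: s), ⟨hj, k :: s, by simp [hs], rfl⟩, f, hf,
      (hfk.le.trans (min_le_left _ _)), ?_⟩
    have h1 : κ ≤ ‖u (k :: s) - u s‖ := hinc s hsl k
    have h2 : ‖u (k :: s) - u s - f‖ ≤ κ / 2 := hfk.le.trans (min_le_right _ _)
    have h3 : ‖u (k :: s) - u s‖ ≤ ‖u (k :: s) - u s - f‖ + ‖f‖ := by
      have := norm_add_le (u (k :: s) - u s - f) f
      simpa using this
    have h4 : κ / 2 ≤ ‖f‖ := by linarith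
    have h5 : κ' * ‖u s‖ ≤ κ / (2 * B) * B :=
      mul_le_mul (min_le_right _ _) (huB s hsl.le) (norm_nonneg _) (by positivity)
    have h6 : κ / (2 * B) * B = κ / 2 := by field_simp
    linarith

end Crest.Agent.R125
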