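import Mathlib
import Crest.Prelude.Def_TreePotentials

/-!
# Row 125, task D: the clamp splitting lemma on the tree `List ℕ`

Vertices are lists; the parent of `a :: v` is `v`; `pathPotential f s` is the sum of `f` over all
suffixes of `s`.
-/

set_option autoImplicit false

namespace Crest.Agent.R125

open Crest.AnalysisR.TreePotential

/-- `S` is closed under taking parents (hence under suffixes) and contains the root. -/
def SuffixClosed (S : Set (List ℕ)) : Prop :=
  [] ∈ S ∧ ∀ (a : ℕ) (v : List ℕ), a :: v ∈ S → v ∈ S

/-- Every finite set of vertices is contained in a finite suffix-closed set. -/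
theorem exists_suffixClosed (S₀ : Finset (List ℕ)) :
    ∃ S : Finset (List ℕ), S₀ ⊆ S ∧ SuffixClosed (S : Set (List ℕ)) := by
  classical
  refine ⟨insert [] (S₀.biUnion fun s => s.tails.toFinset), ?_, ?_, ?_⟩
  · intro s hs
    refine Finset.mem_insert_of_mem (Finset.mem_biUnion.2 ⟨s, hs, ?_⟩)
    simp
  · simp
  · intro a v h
    simp only [Finset.coe_insert, Finset.coe_biUnion, Set.mem_insert_iff, Set.mem_iUnion,
      Finset.mem_coe, List.mem_toFinset, List.mem_tails, reduceCtorEq, false_or] at h ⊢
    obtain ⟨s, hs, hsuf⟩ := h
    right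
    exact ⟨s, hs, (List.suffix_cons a v).trans hsuf⟩

theorem pathPotential_add (f g : List ℕ → ℝ) (s : List ℕ) :
    pathPotential (fun u => f u + g u) s = pathPotential f s + pathPotential g s := by
  induction s with
  | nil => simp [pathPotential]
  | cons a v ih => simp only [pathPotential, ih]; ring

theorem pathPotential_smul (c : ℝ) (f : List ℕ → ℝ) (s : List ℕ) :
    pathPotential (fun u => c * f u) s = c * pathPotential f s := by
  induction s with
  | nil => simp [pathPotential]
  | cons a v ih => simp only [pathPotential, ih]; ring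

theorem pathPotential_sub (f g : List ℕ → ℝ) (s : List ℕ) :
    pathPotential (fun u => f u - g u) s = pathPotential f s - pathPotential g s := by
  induction s with
  | nil => simp [pathPotential]
  | cons a v ih => simp only [pathPotential, ih]; ring

/-- on a suffix-closed set the truncation has the same potential -/
theorem pathPotential_trunc_of_mem (S : Set (List ℕ)) [DecidablePred (· ∈ S)] (hS : SuffixClosed S)
    (g : List ℕ → ℝ) (s : List ℕ) (hs : s ∈ S) :
    pathPotential (fun u => if u ∈ S then g u else 0) s = pathPotential g s := by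
  induction s with
  | nil => simp [pathPotential, hs]
  | cons a v ih => simp only [pathPotential, ih (hS.2 a v hs), if_pos hs]

/-- Truncating to a suffix-closed set: the potential of the truncation at `s` is the potential of
`g` at some vertex (the last ancestor of `s` in `S`). -/
theorem pathPotential_trunc (S : Set (List ℕ)) [DecidablePred (· ∈ S)] (hS : SuffixClosed S)
    (g : List ℕ → ℝ) (s : List ℕ) :
    ∃ s', pathPotential (fun u => if u ∈ S then g u else 0) s = pathPotential g s' := by
  induction s with
  | nil => exact ⟨[], pathPotential_trunc_of_mem S hS g [] hS.1⟩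
  | cons a v ih =>
    by_cases h : a :: v ∈ S
    · exact ⟨a :: v, pathPotential_trunc_of_mem S hS g _ h⟩
    · obtain ⟨s', hs'⟩ := ih
      refine ⟨s', ?_⟩
      simp only [pathPotential, if_neg h, add_zero]
      exact hs'

/-- the function whose potential is `ψ` -/
def diffFn (ψ : List ℕ → ℝ) : List ℕ → ℝ
  | [] => ψ []
  | a :: v => ψ (a :: v) - ψ v

theorem pathPotential_diffFn (ψ : List ℕ → ℝ) (s : List ℕ) : pathPotential (diffFn ψ) s = ψ s := by
  induction s with
  | nil => simp [pathPotential, diffFn]
  | cons a v ih => simp only [pathPotential, ih, diffFn]; ring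

/-- the clamp is monotone and `1`-Lipschitz, and so is its complement -/
theorem clamp_incr (lo hi p d : ℝ) :
    |max lo (min (p + d) hi) - max lo (min p hi)| ≤ |d| ∧
      |d - (max lo (min (p + d) hi) - max lo (min p hi))| ≤ |d| := by
  rcases le_total 0 d with hd | hd
  · have h1 : max lo (min p hi) ≤ max lo (min (p + d) hi) :=
      max_le_max le_rfl (min_le_min (by linarith) le_rfl)
    have h2 : max lo (min (p + d) hi) ≤ max lo (min p hi) + d := by
      apply max_le
      · linarith [le_max_left lo (min p hi)]
      · rcases le_total p hi with h | h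
        · rw [min_eq_left h]
          linarith [min_le_left (p + d) hi, le_max_right lo p]
        · rw [min_eq_right h]
          linarith [min_le_right (p + d) hi, le_max_right lo hi]
    rw [abs_of_nonneg hd, abs_of_nonneg (by linarith), abs_of_nonneg (by linarith)]
    constructor <;> linarith
  · have h1 : max lo (min (p + d) hi) ≤ max lo (min p hi) :=
      max_le_max le_rfl (min_le_min (by linarith) le_rfl)
    have h2 : max lo (min p hi) + d ≤ max lo (min (p + d) hi) := by
      have : max lo (min p hi) ≤ max lo (min (p + d) hi) - d := by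
        apply max_le
        · linarith [le_max_left lo (min (p + d) hi)]
        · rcases le_total (p + d) hi with h | h
          · rw [min_eq_left h]
            linarith [min_le_left p hi, le_max_right lo (p + d)]
          · rw [min_eq_right h]
            linarith [min_le_right p hi, le_max_right lo hi]
      linarith
    rw [abs_of_nonpos hd, abs_of_nonpos (by linarith), abs_of_nonpos (by linarith)]
    constructor <;> linarith

/-- **Clamp splitting.** `f` is supported in the suffix-closed set `S`, `|A * pot f| ≤ R`,
`|pot g| ≤ 1`, `0 ≤ B ≤ R`. Then `B * g` restricted to the complement of `S` splits as `G₁ + G₂`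
with `|Gᵢ| ≤ B |g|` such that both `A f + G₁` and `A f - G₂` have potentials bounded by `R`. -/
theorem clamp_split (S : Set (List ℕ)) (hS : SuffixClosed S) (f g : List ℕ → ℝ)
    (hf : ∀ s, s ∉ S → f s = 0) (A B R : ℝ) (hB : 0 ≤ B) (hBR : B ≤ R)
    (hfR : ∀ s, |A * pathPotential f s| ≤ R) (hg : ∀ s, |pathPotential g s| ≤ 1) :
    ∃ G₁ G₂ : List ℕ → ℝ,
      (∀ s ∈ S, G₁ s = 0 ∧ G₂ s = 0) ∧
      (∀ s, s ∉ S → G₁ s + G₂ s = B * g s) ∧
      (∀ s, |G₁ s| ≤ B * |g s| ∧ |G₂ s| ≤ B * |g s|) ∧
      (∀ s, |pathPotential (fun u => A * f u + G₁ u) s| ≤ R) ∧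
      (∀ s, |pathPotential (fun u => A * f u - G₂ u) s| ≤ R) := by
  classical
  have hR : 0 ≤ R := hB.trans hBR
  set goff : List ℕ → ℝ := fun u => if u ∈ S then 0 else g u with hgoff
  set ψ : List ℕ → ℝ := fun s => B * pathPotential goff s with hψ
  set c : List ℕ → ℝ := fun s => A * pathPotential f s with hc
  set ψ₁ : List ℕ → ℝ := fun s => max (-(R + c s)) (min (ψ s) (R - c s)) with hψ₁
  have hcR : ∀ s, -R ≤ c s ∧ c s ≤ R := fun s => abs_le.1 (hfR s)
  -- `goff = g - trunc g`
  have hgoff' : ∀ s, pathPotential goff s =
      pathPotential g s - pathPotential (fun u => if u ∈ S then g u else 0) s := by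
    intro s
    rw [← pathPotential_sub]
    congr 1
    ext u
    by_cases hu : u ∈ S <;> simp [hgoff, hu]
  have hψS : ∀ s ∈ S, ψ s = 0 := by
    intro s hs
    simp only [hψ]
    rw [hgoff', pathPotential_trunc_of_mem S hS g s hs, sub_self, mul_zero]
  have hψ2 : ∀ s, |ψ s| ≤ 2 * R := by
    intro s
    simp only [hψ]
    rw [hgoff', abs_mul, abs_of_nonneg hB]
    obtain ⟨s', hs'⟩ := pathPotential_trunc S hS g s
    rw [hs']
    have h1 : |pathPotential g s - pathPotential g s'| ≤ 2 := by
      have := abs_sub (pathPotential g s) (pathPotential g s')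
      linarith [hg s, hg s']
    calc B * |pathPotential g s - pathPotential g s'| ≤ R * 2 := by
          apply mul_le_mul hBR h1 (abs_nonneg _) hR
      _ = 2 * R := by ring
  have hψ₁S : ∀ s ∈ S, ψ₁ s = 0 := by
    intro s hs
    simp only [hψ₁]
    rw [hψS s hs, min_eq_left (by linarith [(hcR s).2]), max_eq_right (by linarith [(hcR s).1])]
  have hψ₁lo : ∀ s, -(R + c s) ≤ ψ₁ s := fun s => le_max_left _ _
  have hψ₁hi : ∀ s, ψ₁ s ≤ R - c s := fun s =>
    max_le (by linarith) (min_le_right _ _)
  refine ⟨diffFn ψ₁, fun u => B * goff u - diffFn ψ₁ u, ?_, ?_, ?_, ?_, ?_⟩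
  · intro s hs
    have h1 : diffFn ψ₁ s = 0 := by
      cases s with
      | nil => simp only [diffFn]; exact hψ₁S _ hs
      | cons a v => simp only [diffFn]; rw [hψ₁S _ hs, hψ₁S _ (hS.2 a v hs), sub_self]
    refine ⟨h1, ?_⟩
    simp only [h1, hgoff, if_pos hs, mul_zero, sub_zero]
  · intro s hs
    simp only [hgoff, if_neg hs]
    ring
  · intro s
    by_cases hs : s ∈ S
    · have h1 : diffFn ψ₁ s = 0 := by
        cases s with
        | nil => simp only [diffFn]; exact hψ₁S _ hs
        | cons a v => simp only [diffFn]; rw [hψ₁S _ hs, hψ₁S _ (hS.2 a v hs), sub_self]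
      have h0 : 0 ≤ B * |g s| := mul_nonneg hB (abs_nonneg _)
      simp only [h1, hgoff, if_pos hs, mul_zero, sub_zero, abs_zero]
      exact ⟨h0, h0⟩
    · cases s with
      | nil => exact absurd hS.1 hs
      | cons a v =>
        have hcs : c (a :: v) = c v := by
          simp only [hc, pathPotential, hf _ hs, add_zero]
        have hψs : ψ (a :: v) = ψ v + B * g (a :: v) := by
          simp only [hψ, pathPotential, hgoff, if_neg hs]
          ring
        have key := clamp_incr (-(R + c v)) (R - c v) (ψ v) (B * g (a :: v))
        have habs : |B * g (a :: v)| = B * |g (a :: v)| := by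
          rw [abs_mul, abs_of_nonneg hB]
        rw [habs] at key
        simp only [diffFn, hψ₁, hcs, hψs, hgoff, if_neg hs]
        exact key
  · intro s
    rw [pathPotential_add, pathPotential_smul, pathPotential_diffFn]
    rw [abs_le]
    have h1 := hψ₁lo s
    have h2 := hψ₁hi s
    simp only [hc] at h1 h2
    constructor <;> linarith
  · intro s
    rw [pathPotential_sub, pathPotential_smul, pathPotential_sub, pathPotential_smul,
      pathPotential_diffFn]
    have h2 := abs_le.1 (hψ2 s)
    have h3 := hcR s
    change |c s - (ψ s - ψ₁ s)| ≤ R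
    rw [abs_le]
    rcases le_total (ψ s) (R - c s) with h | h
    · rcases le_total (-(R + c s)) (ψ s) with h' | h'
      · have : ψ₁ s = ψ s := by
          simp only [hψ₁]; rw [min_eq_left h, max_eq_right h']
        rw [this]; constructor <;> linarith [h3.1, h3.2]
      · have : ψ₁ s = -(R + c s) := by
          simp only [hψ₁]; rw [min_eq_left h, max_eq_left h']
        rw [this]; constructor <;> linarith [h3.1, h3.2, h2.1, h2.2]
    · have : ψ₁ s = R - c s := by
        simp only [hψ₁]; rw [min_eq_right h, max_eq_right (by linarith [h3.1, h3.2])]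
      rw [this]; constructor <;> linarith [h3.1, h3.2, h2.1, h2.2]

end Crest.Agent.R125
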