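import Crest.Agent.R125.Mid
import Crest.Agent.R125.TreeSplit
import Crest.Agent.R125.NoAUC

/-!
# Row 125, task E0: basic facts on the four tree-potential models
-/

set_option autoImplicit false

namespace Crest.Agent.R125

open Filter Topology Crest.AnalysisR.TreePotential

/-! ## Basic facts about tests (task E0) -/

theorem sum_sq_comb_le {ι : Type*} (A : Finset ι) (f g k : ι → ℝ) (α β : ℝ)
    (hαβ : α ^ 2 + β ^ 2 ≤ 1) (hf : ∑ i ∈ A, f i ^ 2 ≤ 1) (hg : ∑ i ∈ A, g i ^ 2 ≤ 1)
    (hk : ∀ i, k i ^ 2 ≤ α ^ 2 * f i ^ 2 + β ^ 2 * g i ^ 2) : ∑ i ∈ A, k i ^ 2 ≤ 1 := by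
  calc ∑ i ∈ A, k i ^ 2 ≤ ∑ i ∈ A, (α ^ 2 * f i ^ 2 + β ^ 2 * g i ^ 2) :=
        Finset.sum_le_sum (fun i _ => hk i)
    _ = α ^ 2 * ∑ i ∈ A, f i ^ 2 + β ^ 2 * ∑ i ∈ A, g i ^ 2 := by
        rw [Finset.sum_add_distrib, Finset.mul_sum, Finset.mul_sum]
    _ ≤ α ^ 2 * 1 + β ^ 2 * 1 := by
        gcongr
    _ ≤ 1 := by linarith

/-- `ExtraCondition` is solid and `ℓ²`-convex. -/
theorem extraCondition_comb (m : PotentialModel) (f g k : List ℕ → ℝ) (α β : ℝ)
    (hαβ : α ^ 2 + β ^ 2 ≤ 1) (hf : ExtraCondition m f) (hg : ExtraCondition m g)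
    (hk : ∀ s, k s ^ 2 ≤ α ^ 2 * f s ^ 2 + β ^ 2 * g s ^ 2) : ExtraCondition m k := by
  cases m with
  | rootlessSibling =>
    refine ⟨?_, fun r A => ?_⟩
    · have h := hk []
      rw [hf.1, hg.1] at h
      have : k [] ^ 2 ≤ 0 := by simpa using h
      exact pow_eq_zero_iff (two_ne_zero) |>.mp (le_antisymm this (sq_nonneg _))
    · exact sum_sq_comb_le A (fun n => f (n :: r)) (fun n => g (n :: r)) (fun n => k (n :: r)) α β
        hαβ (hf.2 r A) (hg.2 r A) (fun n => hk _)
  | rootedSibling =>
    intro r A
    exact sum_sq_comb_le A (fun n => f (n :: r)) (fun n => g (n :: r)) (fun n => k (n :: r)) α β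
        hαβ (hf r A) (hg r A) (fun n => hk _)
  | antichain =>
    refine ⟨?_, fun A hA => ?_⟩
    · refine (hf.1.union hg.1).subset (fun s hs => ?_)
      by_contra hcon
      simp only [Set.mem_union, Function.mem_support, not_or, not_not] at hcon
      have h := hk s
      rw [hcon.1, hcon.2] at h
      have h2 : k s ^ 2 ≤ 0 := by simpa using h
      exact hs (pow_eq_zero_iff (two_ne_zero) |>.mp (le_antisymm h2 (sq_nonneg _)))
    · exact sum_sq_comb_le A f g k α β hαβ (hf.2 A hA) (hg.2 A hA) hk
  | global =>
    intro A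
    exact sum_sq_comb_le A f g k α β hαβ (hf A) (hg A) hk

/-- the Dirac function at a vertex -/
noncomputable def dirac (s : List ℕ) : List ℕ → ℝ := fun u => if u = s then 1 else 0

theorem pathPotential_dirac (s u : List ℕ) :
    (pathPotential (dirac s) u = 0 ∧ ¬ s <:+ u) ∨ (pathPotential (dirac s) u = 1 ∧ s <:+ u) := by
  induction u with
  | nil =>
    by_cases h : s = []
    · right; subst h; simp [pathPotential, dirac]
    · left
      refine ⟨?_, by simpa using h⟩
      simp [pathPotential, dirac, Ne.symm h]
  | cons a v ih =>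
    simp only [pathPotential]
    by_cases h : a :: v = s
    · right
      subst h
      rcases ih with ⟨h0, _⟩ | ⟨_, h1⟩
      · refine ⟨by simp [h0, dirac], List.suffix_refl _⟩
      · exfalso
        have := h1.length_le
        simp at this
    · have hd : dirac s (a :: v) = 0 := by simp [dirac, h]
      rw [hd, add_zero]
      rcases ih with ⟨h0, h1⟩ | ⟨h0, h1⟩
      · left
        refine ⟨h0, fun hs => ?_⟩
        rcases List.suffix_cons_iff.mp hs with h2 | h2
        · exact h h2.symm
        · exact h1 h2
      · right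
        exact ⟨h0, h1.trans (List.suffix_cons a v)⟩

theorem sum_dirac_sq_le {ι : Type*} (A : Finset ι) (e : ι → List ℕ) (he : Function.Injective e)
    (s : List ℕ) : ∑ i ∈ A, dirac s (e i) ^ 2 ≤ 1 := by
  classical
  have h1 : ∀ i, dirac s (e i) ^ 2 = if e i = s then 1 else 0 := by
    intro i
    unfold dirac
    split_ifs <;> simp
  simp only [h1]
  rw [Finset.sum_ite, Finset.sum_const_zero, add_zero, Finset.sum_const, nsmul_eq_mul, mul_one]
  have : (A.filter (fun i => e i = s)).card ≤ 1 := by
    rw [Finset.card_le_one]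
    intro a ha b hb
    simp only [Finset.mem_filter] at ha hb
    exact he (ha.2.trans hb.2.symm)
  exact_mod_cast this

/-- `dirac s` is a test, except at the root of the rootless model. -/
theorem isTest_dirac (m : PotentialModel) (s : List ℕ)
    (h : m ≠ PotentialModel.rootlessSibling ∨ s ≠ []) : IsTest m (dirac s) := by
  refine ⟨fun u => ?_, ?_⟩
  · rcases pathPotential_dirac s u with ⟨h0, _⟩ | ⟨h0, _⟩ <;> rw [h0] <;> simp
  · have hinj : ∀ r : List ℕ, Function.Injective (fun n : ℕ => n :: r) := by
      intro r a b hab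
      simpa using hab
    cases m with
    | rootlessSibling =>
      refine ⟨?_, fun r A => sum_dirac_sq_le A _ (hinj r) s⟩
      have hs : s ≠ [] := by
        rcases h with h | h
        · exact absurd rfl h
        · exact h
      simp [dirac, Ne.symm hs]
    | rootedSibling => exact fun r A => sum_dirac_sq_le A _ (hinj r) s
    | antichain =>
      refine ⟨?_, fun A _ => sum_dirac_sq_le A id Function.injective_id s⟩
      refine (Set.finite_singleton s).subset (fun u hu => ?_)
      by_contra hcon
      exact hu (by simp [dirac, show u ≠ s from hcon])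
    | global => exact fun A => sum_dirac_sq_le A id Function.injective_id s

theorem pathPotential_zero (s : List ℕ) : pathPotential (fun _ => 0) s = 0 := by
  induction s with
  | nil => rfl
  | cons a v ih => simp [pathPotential, ih]

theorem isTest_zero (m : PotentialModel) : IsTest m (fun _ => 0) := by
  refine ⟨fun s => by rw [pathPotential_zero]; simp, ?_⟩
  cases m with
  | rootlessSibling => exact ⟨rfl, fun r A => by simp⟩
  | rootedSibling => exact fun r A => by simp
  | antichain => exact ⟨by simp [Function.support], fun A _ => by simp⟩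
  | global => exact fun A => by simp

theorem isTest_neg (m : PotentialModel) (f : List ℕ → ℝ) (hf : IsTest m f) :
    IsTest m (fun s => - f s) := by
  refine ⟨fun s => ?_, extraCondition_comb m f f _ 1 0 (by norm_num) hf.2 hf.2
    (fun s => by simp)⟩
  have : (fun s => - f s) = fun s => (-1) * f s := by funext s; ring
  rw [this, pathPotential_smul, abs_mul]
  simpa using hf.1 s

/-- **Linear relation principle**: elements of the model space respect all finite linear
relations between tests. -/
theorem model_linear_relation (m : PotentialModel) (z : lp (fun _ : PotentialTest m => ℝ) ⊤)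
    (hz : z ∈ modelSpace m) {ι : Type*} (I : Finset ι) (c : ι → ℝ) (F : ι → PotentialTest m)
    (h : ∀ s : List ℕ, ∑ i ∈ I, c i * (F i).1 s = 0) :
    ∑ i ∈ I, c i * (z : PotentialTest m → ℝ) (F i) = 0 := by
  set Λ : lp (fun _ : PotentialTest m => ℝ) ⊤ →L[ℝ] ℝ :=
    ∑ i ∈ I, c i • lp.evalCLM ℝ (fun _ : PotentialTest m => ℝ) ⊤ (F i) with hΛ
  have hΛapp : ∀ w : lp (fun _ : PotentialTest m => ℝ) ⊤,
      Λ w = ∑ i ∈ I, c i * (w : PotentialTest m → ℝ) (F i) := by
    intro w
    simp only [hΛ, sum_apply, smul_apply, smul_eq_mul]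
    rfl
  have hle : modelSpace m ≤ LinearMap.ker (Λ : lp (fun _ : PotentialTest m => ℝ) ⊤ →ₗ[ℝ] ℝ) := by
    apply Submodule.topologicalClosure_minimal
    · rw [Submodule.span_le]
      rintro _ ⟨s, rfl⟩
      show Λ (coordVector m s) = 0
      rw [hΛapp]
      exact h s
    · exact Λ.isClosed_ker
  have := hle hz
  rw [← hΛapp]
  exact this

/-! ## coordinate vectors and branch sums inside the model space (task F) -/

/-- coordinate vector as an element of the model space -/
noncomputable def coordX (m : PotentialModel) (s : List ℕ) : modelSpace m :=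
  ⟨coordVector m s, Submodule.le_topologicalClosure _ (Submodule.subset_span ⟨s, rfl⟩)⟩

/-- the sum of the coordinate vectors over `s` and all its ancestors -/
noncomputable def branchSum (m : PotentialModel) : List ℕ → modelSpace m
  | [] => coordX m []
  | a :: v => branchSum m v + coordX m (a :: v)

end Crest.Agent.R125
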