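import Crest.Agent.R125.ModelBasic

/-!
# Row 125, task E: the homogeneous midpoint inequality in the four models
-/

set_option autoImplicit false

namespace Crest.Agent.R125

open Filter Topology Crest.AnalysisR.TreePotential

variable {m : PotentialModel}

/-- evaluation at a test, as a continuous functional on the model space -/
noncomputable def evCLM (k : PotentialTest m) : modelSpace m →L[ℝ] ℝ :=
  (lp.evalCLM ℝ (fun _ : PotentialTest m => ℝ) ⊤ k).comp (modelSpace m).subtypeL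

/-- evaluation of an element of the model space at a test -/
noncomputable def ev (z : modelSpace m) (k : PotentialTest m) : ℝ :=
  ((z : lp (fun _ : PotentialTest m => ℝ) ⊤) : PotentialTest m → ℝ) k

theorem evCLM_apply (k : PotentialTest m) (z : modelSpace m) : evCLM k z = ev z k := rfl

theorem ev_add (z w : modelSpace m) (k : PotentialTest m) : ev (z + w) k = ev z k + ev w k := by
  rw [← evCLM_apply, map_add]; rfl

theorem ev_sub (z w : modelSpace m) (k : PotentialTest m) : ev (z - w) k = ev z k - ev w k := by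
  rw [← evCLM_apply, map_sub]; rfl

theorem abs_ev_le_norm (z : modelSpace m) (k : PotentialTest m) : |ev z k| ≤ ‖z‖ := by
  have := lp.norm_apply_le_norm (p := ⊤) (by simp)
    (z : lp (fun _ : PotentialTest m => ℝ) ⊤) k
  simpa [ev, Real.norm_eq_abs] using this

theorem ev_le_norm (z : modelSpace m) (k : PotentialTest m) : ev z k ≤ ‖z‖ :=
  (le_abs_self _).trans (abs_ev_le_norm z k)

theorem ev_relation (z : modelSpace m) {ι : Type*} (I : Finset ι) (c : ι → ℝ)
    (F : ι → PotentialTest m) (h : ∀ s : List ℕ, ∑ i ∈ I, c i * (F i).1 s = 0) :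
    ∑ i ∈ I, c i * ev z (F i) = 0 :=
  model_linear_relation m z z.2 I c F h

theorem ev_smul_test (z : modelSpace m) (k₁ k₂ : PotentialTest m) (c : ℝ)
    (h : ∀ s, k₁.1 s = c * k₂.1 s) : ev z k₁ = c * ev z k₂ := by
  have := ev_relation z (Finset.univ : Finset (Fin 2)) ![1, -c] ![k₁, k₂] (by
    intro s
    simp [Fin.sum_univ_two, h s])
  simp [Fin.sum_univ_two] at this
  linarith

theorem ev_four (z : modelSpace m) (k₁ k₂ k₃ k₄ : PotentialTest m) (c : ℝ)
    (h : ∀ s, k₁.1 s - k₂.1 s = c * (k₃.1 s - k₄.1 s)) :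
    ev z k₁ - ev z k₂ = c * (ev z k₃ - ev z k₄) := by
  have := ev_relation z (Finset.univ : Finset (Fin 4)) ![1, -1, -c, c] ![k₁, k₂, k₃, k₄] (by
    intro s
    simp [Fin.sum_univ_four]
    linarith [h s])
  simp [Fin.sum_univ_four] at this
  linarith

theorem exists_ev_gt (z : modelSpace m) (δ : ℝ) (hδ : 0 < δ) :
    ∃ k : PotentialTest m, ‖z‖ - δ < ev z k := by
  have : Nonempty (PotentialTest m) := ⟨⟨_, isTest_zero m⟩⟩
  have hlub := lp.isLUB_norm (z : lp (fun _ : PotentialTest m => ℝ) ⊤)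
  obtain ⟨c, ⟨k, rfl⟩, hk, -⟩ := hlub.exists_between (show ‖z‖ - δ < ‖z‖ by linarith)
  have hk' : ‖z‖ - δ < |ev z k| := by simpa [ev, Real.norm_eq_abs] using hk
  rcases le_total 0 (ev z k) with h0 | h0
  · exact ⟨k, by rwa [abs_of_nonneg h0] at hk'⟩
  · refine ⟨⟨_, isTest_neg m k.1 k.2⟩, ?_⟩
    have : ev z ⟨_, isTest_neg m k.1 k.2⟩ = (-1) * ev z k :=
      ev_smul_test z _ k (-1) (by intro s; simp)
    rw [this]
    rw [abs_of_nonpos h0] at hk'
    linarith

/-- every element of the algebraic span depends on finitely many coordinates of the test -/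
theorem exists_support (x' : lp (fun _ : PotentialTest m => ℝ) ⊤)
    (hx : x' ∈ Submodule.span ℝ (Set.range (coordVector m))) :
    ∃ S₀ : Finset (List ℕ), ∀ k₁ k₂ : PotentialTest m, (∀ s ∈ S₀, k₁.1 s = k₂.1 s) →
      (x' : PotentialTest m → ℝ) k₁ = (x' : PotentialTest m → ℝ) k₂ := by
  induction hx using Submodule.span_induction with
  | mem x hx =>
    obtain ⟨s, rfl⟩ := hx
    exact ⟨{s}, fun k₁ k₂ h => h s (by simp)⟩
  | zero => exact ⟨∅, fun _ _ _ => rfl⟩
  | add x y _ _ hx hy =>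
    obtain ⟨S₁, h₁⟩ := hx
    obtain ⟨S₂, h₂⟩ := hy
    classical
    refine ⟨S₁ ∪ S₂, fun k₁ k₂ h => ?_⟩
    have e₁ := h₁ k₁ k₂ (fun s hs => h s (Finset.mem_union_left _ hs))
    have e₂ := h₂ k₁ k₂ (fun s hs => h s (Finset.mem_union_right _ hs))
    simp only [lp.coeFn_add, Pi.add_apply, e₁, e₂]
  | smul a x _ hx =>
    obtain ⟨S₁, h₁⟩ := hx
    refine ⟨S₁, fun k₁ k₂ h => ?_⟩
    simp only [lp.coeFn_smul, Pi.smul_apply, h₁ k₁ k₂ h]

/-- the Dirac test at `s` (the zero test at the root of the rootless model) -/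
noncomputable def dtest (m : PotentialModel) (s : List ℕ) : PotentialTest m :=
  open Classical in
  if h : m ≠ PotentialModel.rootlessSibling ∨ s ≠ [] then ⟨dirac s, isTest_dirac m s h⟩
  else ⟨fun _ => 0, isTest_zero m⟩

theorem test_mul_dtest (k : PotentialTest m) (s u : List ℕ) :
    k.1 s * (dtest m s).1 u = if u = s then k.1 u else 0 := by
  by_cases h : m ≠ PotentialModel.rootlessSibling ∨ s ≠ []
  · rw [dtest, dif_pos h]
    by_cases hus : u = s
    · subst hus; simp [dirac]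
    · simp [dirac, hus]
  · rw [dtest, dif_neg h]
    push Not at h
    obtain ⟨rfl, rfl⟩ := h
    have h0 : k.1 [] = 0 := k.2.2.1
    by_cases hus : u = []
    · subst hus; simp [h0]
    · simp [hus]

/-- an element killed by the Dirac tests of `S` is killed by every test supported in `S` -/
theorem ev_eq_zero_of_support (S : Finset (List ℕ)) (y : modelSpace m)
    (hy : ∀ s ∈ S, ev y (dtest m s) = 0) (k : PotentialTest m) (hk : ∀ s, s ∉ S → k.1 s = 0) :
    ev y k = 0 := by
  classical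
  have := ev_relation y (Finset.insertNone S)
    (fun o => match o with | none => 1 | some s => - k.1 s)
    (fun o => match o with | none => k | some s => dtest m s) (by
      intro u
      rw [Finset.sum_insertNone]
      simp only [one_mul, neg_mul, test_mul_dtest, Finset.sum_neg_distrib]
      rw [Finset.sum_ite_eq]
      split_ifs with hu
      · ring
      · rw [hk u hu]; ring)
  rw [Finset.sum_insertNone] at this
  simp only [one_mul, neg_mul] at this
  have h0 : ∑ s ∈ S, -(k.1 s * ev y (dtest m s)) = 0 :=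
    Finset.sum_eq_zero (fun s hs => by rw [hy s hs]; ring)
  rw [h0] at this
  linarith

/-- truncation of a test to a suffix-closed set is a test -/
theorem isTest_trunc (S : Set (List ℕ)) [DecidablePred (· ∈ S)] (hS : SuffixClosed S)
    (f : List ℕ → ℝ) (hf : IsTest m f) : IsTest m (fun u => if u ∈ S then f u else 0) := by
  refine ⟨fun s => ?_, ?_⟩
  · obtain ⟨s', hs'⟩ := pathPotential_trunc S hS f s
    rw [hs']
    exact hf.1 s'
  · refine extraCondition_comb m f f _ 1 0 (by norm_num) hf.2 hf.2 (fun s => ?_)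
    split_ifs
    · simp
    · simp [sq_nonneg]

theorem key_estimate (S : Finset (List ℕ)) (hS : SuffixClosed (S : Set (List ℕ)))
    (x' y : modelSpace m)
    (hx' : ∀ k₁ k₂ : PotentialTest m, (∀ s ∈ S, k₁.1 s = k₂.1 s) → ev x' k₁ = ev x' k₂)
    (hy : ∀ k : PotentialTest m, (∀ s, s ∉ S → k.1 s = 0) → ev y k = 0)
    (α β : ℝ) (hα : 0 ≤ α) (hβ : 0 ≤ β) (hαβ : α ^ 2 + β ^ 2 ≤ 1) :
    2 * α * ‖x'‖ + β * ‖y‖ ≤ ‖x' + y‖ + ‖x' - y‖ := by
  classical
  have hα1 : α ≤ 1 := by nlinarith [sq_nonneg β]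
  have hβ1 : β ≤ 1 := by nlinarith [sq_nonneg α]
  apply le_of_forall_pos_le_add
  intro ε hε
  obtain ⟨f, hf⟩ := exists_ev_gt x' (ε / 3) (by positivity)
  obtain ⟨g, hg⟩ := exists_ev_gt y (ε / 3) (by positivity)
  -- truncations
  set ft : List ℕ → ℝ := fun u => if u ∈ (S : Set (List ℕ)) then f.1 u else 0 with hft
  set gt : List ℕ → ℝ := fun u => if u ∈ (S : Set (List ℕ)) then g.1 u else 0 with hgt
  have hftT : IsTest m ft := isTest_trunc _ hS f.1 f.2
  have hgtT : IsTest m gt := isTest_trunc _ hS g.1 g.2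
  have hft0 : ∀ s, s ∉ (S : Set (List ℕ)) → ft s = 0 := fun s hs => if_neg hs
  have hft1 : ∀ s, s ∈ (S : Set (List ℕ)) → ft s = f.1 s := fun s hs => if_pos hs
  have hgt0 : ∀ s, s ∉ (S : Set (List ℕ)) → gt s = 0 := fun s hs => if_neg hs
  have hgt1 : ∀ s, s ∈ (S : Set (List ℕ)) → gt s = g.1 s := fun s hs => if_pos hs
  obtain ⟨G₁, G₂, hG0, hGsum, hGle, hp1, hp2⟩ := clamp_split (S : Set (List ℕ)) hS ft g.1 hft0 α β 1
    hβ hβ1 (fun s => by
      rw [abs_mul, abs_of_nonneg hα]
      have := hftT.1 s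
      nlinarith [abs_nonneg (pathPotential ft s)]) g.2.1
  -- the two combined tests
  have hsq : ∀ (G : List ℕ → ℝ) (σ : ℝ), (σ = 1 ∨ σ = -1) → (∀ s ∈ (S : Set (List ℕ)), G s = 0) →
      (∀ s, |G s| ≤ β * |g.1 s|) →
      ∀ s, (α * ft s + σ * G s) ^ 2 ≤ α ^ 2 * ft s ^ 2 + β ^ 2 * g.1 s ^ 2 := by
    intro G σ hσ hG0 hGle s
    by_cases hs : s ∈ (S : Set (List ℕ))
    · rw [hG0 s hs]
      nlinarith [sq_nonneg (β * g.1 s)]
    · rw [hft0 s hs]
      have h1 : G s ^ 2 ≤ (β * |g.1 s|) ^ 2 := by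
        rw [← sq_abs (G s)]
        exact pow_le_pow_left₀ (abs_nonneg _) (hGle s) 2
      have h2 : (β * |g.1 s|) ^ 2 = β ^ 2 * g.1 s ^ 2 := by rw [mul_pow, sq_abs]
      have h3 : (σ * G s) ^ 2 = G s ^ 2 := by
        rcases hσ with rfl | rfl <;> ring
      nlinarith
  have hpT : IsTest m (fun u => α * ft u + G₁ u) :=
    ⟨hp1, extraCondition_comb m ft g.1 _ α β hαβ hftT.2 g.2.2 (fun s => by
      have := hsq G₁ 1 (Or.inl rfl) (fun s hs => (hG0 s hs).1) (fun s => (hGle s).1) s
      simpa using this)⟩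
  have hmT : IsTest m (fun u => α * ft u - G₂ u) :=
    ⟨hp2, extraCondition_comb m ft g.1 _ α β hαβ hftT.2 g.2.2 (fun s => by
      have := hsq G₂ (-1) (Or.inr rfl) (fun s hs => (hG0 s hs).2) (fun s => (hGle s).2) s
      simpa [sub_eq_add_neg] using this)⟩
  have haT : IsTest m (fun u => α * ft u) := by
    refine ⟨fun s => ?_, extraCondition_comb m ft ft _ α 0 (by nlinarith) hftT.2 hftT.2
      (fun s => by nlinarith)⟩
    rw [pathPotential_smul, abs_mul, abs_of_nonneg hα]
    have := hftT.1 s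
    nlinarith [abs_nonneg (pathPotential ft s)]
  set hp : PotentialTest m := ⟨_, hpT⟩
  set hm : PotentialTest m := ⟨_, hmT⟩
  set ka : PotentialTest m := ⟨_, haT⟩
  set kf : PotentialTest m := ⟨_, hftT⟩
  set kg : PotentialTest m := ⟨_, hgtT⟩
  -- values on x'
  have e1 : ev x' kf = ev x' f := hx' _ _ (fun s hs => by
    show ft s = f.1 s
    exact hft1 s hs)
  have e2 : ev x' ka = α * ev x' kf := ev_smul_test x' ka kf α (fun s => rfl)
  have e3 : ev x' hp = ev x' ka := hx' _ _ (fun s hs => by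
    show α * ft s + G₁ s = α * ft s
    rw [(hG0 s (by simpa using hs)).1]; ring)
  have e4 : ev x' hm = ev x' ka := hx' _ _ (fun s hs => by
    show α * ft s - G₂ s = α * ft s
    rw [(hG0 s (by simpa using hs)).2]; ring)
  -- values on y
  have e5 : ev y kg = 0 := hy kg (fun s hs => by
    show gt s = 0
    exact hgt0 s hs)
  have e6 : ev y hp - ev y hm = β * (ev y g - ev y kg) := ev_four y hp hm g kg β (fun s => by
    show (α * ft s + G₁ s) - (α * ft s - G₂ s) = β * (g.1 s - gt s)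
    by_cases hs : s ∈ (S : Set (List ℕ))
    · rw [(hG0 s hs).1, (hG0 s hs).2, hgt1 s hs]
      ring
    · have := hGsum s hs
      rw [hgt0 s hs]
      linarith)
  have n1 : ev x' hp + ev y hp ≤ ‖x' + y‖ := by rw [← ev_add]; exact ev_le_norm _ _
  have n2 : ev x' hm - ev y hm ≤ ‖x' - y‖ := by rw [← ev_sub]; exact ev_le_norm _ _
  have t1 : α * (‖x'‖ - ε / 3) ≤ α * ev x' f := mul_le_mul_of_nonneg_left hf.le hα
  have t2 : β * (‖y‖ - ε / 3) ≤ β * ev y g := mul_le_mul_of_nonneg_left hg.le hβ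
  have t3 : α * (ε / 3) ≤ ε / 3 := by nlinarith
  have t4 : β * (ε / 3) ≤ ε / 3 := by nlinarith
  rw [e5] at e6
  rw [e3, e2, e1] at n1
  rw [e4, e2, e1] at n2
  nlinarith

theorem sqrt_lipschitz_aux (A a b : ℝ) (ha : 0 ≤ a) :
    Real.sqrt (4 * A ^ 2 + b ^ 2) ≤ Real.sqrt (4 * a ^ 2 + b ^ 2) + 2 * |A - a| := by
  set r := Real.sqrt (4 * a ^ 2 + b ^ 2) with hr
  have hr0 : 0 ≤ r := Real.sqrt_nonneg _
  have hr2 : r ^ 2 = 4 * a ^ 2 + b ^ 2 := Real.sq_sqrt (by positivity)
  have hra : 2 * a ≤ r := by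
    apply Real.le_sqrt_of_sq_le
    nlinarith [sq_nonneg b]
  rw [Real.sqrt_le_left (by positivity)]
  have h1 : (A - a) ≤ |A - a| := le_abs_self _
  have h2 : |A - a| ^ 2 = (A - a) ^ 2 := sq_abs _
  have h3 : 0 ≤ |A - a| := abs_nonneg _
  nlinarith [mul_le_mul_of_nonneg_left hra h3, mul_le_mul_of_nonneg_left h1 ha]

theorem qmid_model (m : PotentialModel) : QMid (modelSpace m) := by
  intro x η hη
  classical
  -- approximate `x` by an element of the span
  have hxcl : (x : lp (fun _ : PotentialTest m => ℝ) ⊤) ∈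
      closure (Submodule.span ℝ (Set.range (coordVector m)) :
        Set (lp (fun _ : PotentialTest m => ℝ) ⊤)) := by
    have h := x.2
    have h' : (x : lp (fun _ : PotentialTest m => ℝ) ⊤) ∈
        ((Submodule.span ℝ (Set.range (coordVector m))).topologicalClosure :
          Set (lp (fun _ : PotentialTest m => ℝ) ⊤)) := h
    rwa [Submodule.topologicalClosure_coe] at h'
  obtain ⟨x0, hx0, hdist⟩ := Metric.mem_closure_iff.mp hxcl (η / 4) (by positivity)
  obtain ⟨S₀, hS₀⟩ := exists_support x0 hx0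
  obtain ⟨S, hS₀S, hS⟩ := exists_suffixClosed S₀
  set x' : modelSpace m := ⟨x0, Submodule.le_topologicalClosure _ hx0⟩ with hx'def
  have hxx' : ‖x - x'‖ < η / 4 := by
    have : ‖x - x'‖ = dist (x : lp (fun _ : PotentialTest m => ℝ) ⊤) x0 := by
      rw [dist_eq_norm]; rfl
    rw [this]; exact hdist
  refine ⟨{y : modelSpace m | ∀ s : S, evCLM (dtest m s.1) y = 0},
    cof_of_finite_functionals (fun s : S => evCLM (dtest m s.1)), ?_⟩
  intro y hy
  have hy' : ∀ k : PotentialTest m, (∀ s, s ∉ S → k.1 s = 0) → ev y k = 0 :=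
    ev_eq_zero_of_support S y (fun s hs => hy ⟨s, hs⟩)
  have hx'S : ∀ k₁ k₂ : PotentialTest m, (∀ s ∈ S, k₁.1 s = k₂.1 s) → ev x' k₁ = ev x' k₂ :=
    fun k₁ k₂ h => hS₀ k₁ k₂ (fun s hs => h s (hS₀S hs))
  set a := ‖x'‖ with ha
  set b := ‖y‖ with hb
  set r := Real.sqrt (4 * a ^ 2 + b ^ 2) with hr
  have hr0 : 0 ≤ r := Real.sqrt_nonneg _
  have hr2 : r ^ 2 = 4 * a ^ 2 + b ^ 2 := Real.sq_sqrt (by positivity)
  have hmain : r ≤ ‖x' + y‖ + ‖x' - y‖ := by
    rcases hr0.eq_or_lt with h0 | hpos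
    · rw [← h0]; positivity
    · have := key_estimate S hS x' y hx'S hy' (2 * a / r) (b / r) (by positivity) (by positivity)
        (by
          rw [div_pow, div_pow, ← add_div, div_le_one (by positivity)]
          nlinarith)
      have e : 2 * (2 * a / r) * a + b / r * b = r := by
        field_simp
        nlinarith
      rw [← ha, ← hb, e] at this
      exact this
  have h1 : ‖x' + y‖ ≤ ‖x + y‖ + ‖x - x'‖ := by
    have : x' + y = (x + y) - (x - x') := by abel
    rw [this]; exact norm_sub_le _ _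
  have h2 : ‖x' - y‖ ≤ ‖x - y‖ + ‖x - x'‖ := by
    have : x' - y = (x - y) - (x - x') := by abel
    rw [this]; exact norm_sub_le _ _
  have h3 : |‖x‖ - a| ≤ ‖x - x'‖ := abs_norm_sub_norm_le _ _
  have h4 := sqrt_lipschitz_aux ‖x‖ a b (norm_nonneg _)
  rw [← hr] at h4
  linarith

end Crest.Agent.R125
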