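import Crest.Agent.R125.ModelBasic

/-!
# Row 125, task F: branch sums, siblings, separability, no AUC renorming of the models
-/

set_option autoImplicit false

namespace Crest.Agent.R125

open Filter Topology Crest.AnalysisR.TreePotential

/-- evaluation of an element of the model space at a test -/
theorem modelTree_norm_le (m : PotentialModel) (z : modelSpace m) (C : ℝ) (hC : 0 ≤ C)
    (h : ∀ f : PotentialTest m, |((z : lp (fun _ : PotentialTest m => ℝ) ⊤) : PotentialTest m → ℝ) f| ≤ C) :
    ‖z‖ ≤ C :=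
  lp.norm_le_of_forall_le (f := (z : lp (fun _ : PotentialTest m => ℝ) ⊤)) hC h

theorem modelTree_le_norm (m : PotentialModel) (z : modelSpace m) (f : PotentialTest m) :
    |((z : lp (fun _ : PotentialTest m => ℝ) ⊤) : PotentialTest m → ℝ) f| ≤ ‖z‖ :=
  lp.norm_apply_le_norm (by simp) (z : lp (fun _ : PotentialTest m => ℝ) ⊤) f

theorem coordX_apply (m : PotentialModel) (s : List ℕ) (f : PotentialTest m) :
    ((coordX m s : lp (fun _ : PotentialTest m => ℝ) ⊤) : PotentialTest m → ℝ) f = f.1 s := rfl

theorem branchSum_apply (m : PotentialModel) (s : List ℕ) (f : PotentialTest m) :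
    ((branchSum m s : lp (fun _ : PotentialTest m => ℝ) ⊤) : PotentialTest m → ℝ) f =
      pathPotential f.1 s := by
  induction s with
  | nil => rfl
  | cons a v ih =>
    simp only [branchSum, pathPotential]
    rw [← ih]
    rfl

theorem norm_branchSum_le (m : PotentialModel) (s : List ℕ) : ‖branchSum m s‖ ≤ 1 := by
  apply modelTree_norm_le m _ 1 zero_le_one
  intro f
  rw [branchSum_apply]
  exact f.2.1 s

theorem one_le_norm_coordX (m : PotentialModel) (s : List ℕ)
    (h : m ≠ PotentialModel.rootlessSibling ∨ s ≠ []) : 1 ≤ ‖coordX m s‖ := by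
  obtain ⟨T, hT⟩ : ∃ T : PotentialTest m, T.1 = dirac s := ⟨⟨_, isTest_dirac m s h⟩, rfl⟩
  have := modelTree_le_norm m (coordX m s) T
  rw [coordX_apply, hT] at this
  simpa [dirac] using this

/-- the children square sums of a test are at most one, in all four models -/
theorem sibling_sq_sum_le (m : PotentialModel) (f : PotentialTest m) (r : List ℕ) (A : Finset ℕ) :
    ∑ n ∈ A, f.1 (n :: r) ^ 2 ≤ 1 := by
  classical
  have himg : ∑ u ∈ A.image (fun n => n :: r), f.1 u ^ 2 = ∑ n ∈ A, f.1 (n :: r) ^ 2 := by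
    apply Finset.sum_image
    intro a _ b _ hab
    exact (List.cons.inj hab).1
  obtain ⟨f, hf1, hf2⟩ := f
  cases m with
  | rootlessSibling => exact hf2.2 r A
  | rootedSibling => exact hf2 r A
  | antichain =>
    rw [← himg]
    apply hf2.2
    intro u hu v hv huv hsuf
    simp only [Finset.mem_image] at hu hv
    obtain ⟨a, _, rfl⟩ := hu
    obtain ⟨b, _, rfl⟩ := hv
    exact huv (hsuf.eq_of_length (by simp))
  | global =>
    rw [← himg]
    exact hf2 _

theorem sum_smul_coordX_apply (m : PotentialModel) (r : List ℕ) (A : Finset ℕ) (a : ℕ → ℝ)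
    (f : PotentialTest m) :
    (((∑ n ∈ A, a n • coordX m (n :: r) : modelSpace m) : lp (fun _ : PotentialTest m => ℝ) ⊤) :
      PotentialTest m → ℝ) f = ∑ n ∈ A, a n * f.1 (n :: r) := by
  classical
  induction A using Finset.induction_on with
  | empty => simp
  | insert n A hn ih =>
    rw [Finset.sum_insert hn, Finset.sum_insert hn, ← ih]
    rfl

/-- upper `ℓ²` estimate for siblings -/
theorem sibling_upper_l2 (m : PotentialModel) (r : List ℕ) (A : Finset ℕ) (a : ℕ → ℝ) :
    ‖∑ n ∈ A, a n • coordX m (n :: r)‖ ≤ 1 * Real.sqrt (∑ n ∈ A, a n ^ 2) := by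
  rw [one_mul]
  apply modelTree_norm_le m _ _ (Real.sqrt_nonneg _)
  intro f
  rw [sum_smul_coordX_apply]
  have hle : Real.sqrt (∑ n ∈ A, f.1 (n :: r) ^ 2) ≤ 1 := by
    rw [show (1 : ℝ) = Real.sqrt 1 from Real.sqrt_one.symm]
    exact Real.sqrt_le_sqrt (sibling_sq_sum_le m f r A)
  have h1 := Real.sum_mul_le_sqrt_mul_sqrt A a (fun n => f.1 (n :: r))
  have h2 := Real.sum_mul_le_sqrt_mul_sqrt A (fun n => - a n) (fun n => f.1 (n :: r))
  simp only [neg_mul, Finset.sum_neg_distrib, neg_sq] at h2
  have h3 : Real.sqrt (∑ n ∈ A, a n ^ 2) * Real.sqrt (∑ n ∈ A, f.1 (n :: r) ^ 2) ≤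
      Real.sqrt (∑ n ∈ A, a n ^ 2) := by
    calc _ ≤ Real.sqrt (∑ n ∈ A, a n ^ 2) * 1 :=
          mul_le_mul_of_nonneg_left hle (Real.sqrt_nonneg _)
      _ = _ := mul_one _
  rw [abs_le]
  constructor <;> linarith

theorem model_separable (m : PotentialModel) : TopologicalSpace.SeparableSpace (modelSpace m) := by
  have h1 : TopologicalSpace.IsSeparable (Set.range (coordVector m)) :=
    (Set.countable_range _).isSeparable
  have h2 : TopologicalSpace.IsSeparable
      (Submodule.span ℝ (Set.range (coordVector m)) : Set (lp (fun _ : PotentialTest m => ℝ) ⊤)) :=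
    h1.span
  have h3 : TopologicalSpace.IsSeparable
      (modelSpace m : Set (lp (fun _ : PotentialTest m => ℝ) ⊤)) := by
    have := h2.closure
    simpa [modelSpace, Submodule.topologicalClosure_coe] using this
  exact h3.separableSpace

theorem model_no_AUC (m : PotentialModel) (N : modelSpace m → ℝ) (hN : EquivNorm N) :
    ¬ AUC N := by
  refine not_AUC_of_list_tree 1 1 one_pos one_pos ?_ N hN
  intro _
  refine ⟨fun s => branchSum m (s ++ [0]), ?_, ?_, ?_, ?_⟩
  · obtain ⟨T, hT⟩ : ∃ T : PotentialTest m, T.1 = dirac [0] :=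
      ⟨⟨_, isTest_dirac m [0] (Or.inr (by simp))⟩, rfl⟩
    have := modelTree_le_norm m (branchSum m ([] ++ [0])) T
    rw [branchSum_apply, hT] at this
    simpa [dirac, pathPotential] using this
  · intro s _
    exact norm_branchSum_le m _
  · intro s _ k
    have : branchSum m (k :: s ++ [0]) - branchSum m (s ++ [0]) = coordX m (k :: (s ++ [0])) := by
      simp [branchSum]
    rw [this]
    exact one_le_norm_coordX m _ (Or.inr (by simp))
  · intro s _ φ
    have : ∀ k : ℕ, branchSum m (k :: s ++ [0]) - branchSum m (s ++ [0]) =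
        coordX m (k :: (s ++ [0])) := by
      intro k
      simp [branchSum]
    simp only [this]
    exact tendsto_of_upper_l2 (fun k => coordX m (k :: (s ++ [0]))) 1
      (fun A a => sibling_upper_l2 m (s ++ [0]) A a) φ

end Crest.Agent.R125
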