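import Crest.Agent.R125.Defs

/-!
# Row 125, task K: reflexivity (not in Mathlib)

* Hilbert spaces are reflexive (Fréchet–Riesz twice).
* reflexivity transfers along continuous linear equivalences.
* an `ℓ²`-sum of reflexive spaces is reflexive.  Paper proof: `P h : lp Y 2 →L Y h` the coordinate map, `J h` the
  inclusion (`lp.single`).  For `Ψ ∈ E**` put `Ψ_h φ = Ψ (φ ∘ P h)`, `= ev (x h)` by reflexivity of `Y h`.
  With `φ_h` norming `x h`, `Φ = ∑_{h<H} ‖x h‖ • (φ_h ∘ P h)` has `‖Φ‖ ≤ (∑ ‖x h‖²)^{1/2}` (Cauchy–Schwarz), and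
  `Ψ Φ = ∑ ‖x h‖²`, so `∑_{h<H} ‖x h‖² ≤ ‖Ψ‖²` and `x ∈ lp Y 2`.  For `Φ ∈ E*`, `Φ_h = Φ ∘ J h` satisfy `∑ ‖Φ_h‖² ≤ ‖Φ‖²`
  (test on vectors `∑ ‖Φ_h‖ • J h (y h)` with `y h` almost norming `Φ_h`) and `‖Φ - ∑_{h<H} Φ_h ∘ P h‖ ≤ (∑_{h≥H} ‖Φ_h‖²)^{1/2} → 0`,
  so `Ψ Φ = lim ∑_{h<H} Ψ (Φ_h ∘ P h) = lim ∑_{h<H} Φ_h (x h) = Φ x`.
-/

set_option autoImplicit false

namespace Crest.Agent.R125

theorem refl_hilbert (H : Type) [NormedAddCommGroup H] [InnerProductSpace ℝ H] [CompleteSpace H] :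
    Refl H := by
  intro Ψ
  -- `Ψ ∘ toDual` is a continuous linear functional on `H`
  let ψ : StrongDual ℝ H := LinearMap.mkContinuous
    { toFun := fun y => Ψ (InnerProductSpace.toDual ℝ H y)
      map_add' := fun a b => by simp
      map_smul' := fun c a => by simp } ‖Ψ‖
    (fun y => by simpa using Ψ.le_opNorm (InnerProductSpace.toDual ℝ H y))
  refine ⟨(InnerProductSpace.toDual ℝ H).symm ψ, ?_⟩
  ext φ
  obtain ⟨y, rfl⟩ := (InnerProductSpace.toDual ℝ H).surjective φ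
  rw [NormedSpace.dual_def, InnerProductSpace.toDual_apply_apply, real_inner_comm,
    InnerProductSpace.toDual_symm_apply]
  rfl

theorem Refl.of_equiv {X Y : Type} [NormedAddCommGroup X] [NormedSpace ℝ X]
    [NormedAddCommGroup Y] [NormedSpace ℝ Y] (e : X ≃L[ℝ] Y) (h : Refl X) : Refl Y := by
  intro Ψ
  -- transport `Ψ` to `X**`
  let pre : StrongDual ℝ X →L[ℝ] StrongDual ℝ Y :=
    (ContinuousLinearMap.compL ℝ Y X ℝ).flip (e.symm : Y →L[ℝ] X)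
  obtain ⟨x, hx⟩ := h (Ψ.comp pre)
  refine ⟨e x, ?_⟩
  ext φ
  have h1 := congrArg (fun Θ : StrongDual ℝ (StrongDual ℝ X) => Θ (φ.comp (e : X →L[ℝ] Y))) hx
  simp only [NormedSpace.dual_def] at h1 ⊢
  have h2 : pre (φ.comp (e : X →L[ℝ] Y)) = φ := by
    ext y
    simp [pre]
  simpa [h2] using h1

end Crest.Agent.R125
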