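import Crest.Agent.R125.Reflexive

/-!
# Row 125, task K2: an `ℓ²`-sum of reflexive spaces is reflexive (see the docstring of `Reflexive.lean`)

Route taken: the natural pairing `lpDual : lp (fun i => (Y i)*) 2 →L (lp Y 2)*` (Mathlib's
`lp.dualPairing`) is surjective for every family `Y`.  Applying this to `Y` and to `Y*` identifies
`(lp Y 2)**` with `lp Y** 2`, and coordinatewise reflexivity finishes.
-/

set_option autoImplicit false

namespace Crest.Agent.R125

open scoped ENNReal NNReal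

/-- almost norming vectors -/
theorem exists_almost_norming {Z : Type} [NormedAddCommGroup Z] [NormedSpace ℝ Z]
    (φ : StrongDual ℝ Z) {r : ℝ} (hr : r < 1) : ∃ y : Z, ‖y‖ ≤ 1 ∧ r * ‖φ‖ ≤ φ y := by
  by_cases h0 : ‖φ‖ = 0
  · exact ⟨0, by simp, by simp [h0]⟩
  have hpos : 0 < ‖φ‖ := lt_of_le_of_ne (norm_nonneg _) (Ne.symm h0)
  obtain ⟨x, hx1, hx2⟩ := φ.exists_lt_apply_of_lt_opNorm (r := r * ‖φ‖) (by nlinarith)
  rcases le_total 0 (φ x) with h | h
  · exact ⟨x, hx1.le, by rw [Real.norm_of_nonneg h] at hx2; exact hx2.le⟩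
  · exact ⟨-x, by simpa using hx1.le, by rw [Real.norm_of_nonpos h] at hx2; simpa using hx2.le⟩

theorem real_le_of_forall_lt_one_mul_le {S B : ℝ} (h : ∀ r : ℝ, r < 1 → r * S ≤ B) : S ≤ B := by
  by_contra hlt
  push Not at hlt
  have h0 : 0 ≤ B := by simpa using h 0 one_pos
  have hS : 0 < S := lt_of_le_of_lt h0 hlt
  have h1 := h ((B + S) / (2 * S)) (by rw [div_lt_one (by positivity)]; linarith)
  have h2 : (B + S) / (2 * S) * S = (B + S) / 2 := by field_simp
  rw [h2] at h1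
  linarith

section
variable (Y : ℕ → Type) [∀ i, NormedAddCommGroup (Y i)] [∀ i, NormedSpace ℝ (Y i)]

/-- the natural pairing `ℓ²(Y*) → (ℓ²(Y))*` -/
noncomputable def lpDual : lp (fun i => StrongDual ℝ (Y i)) 2 →L[ℝ] StrongDual ℝ (lp Y 2) :=
  lp.dualPairing 2 2 (fun i => ContinuousLinearMap.id ℝ (StrongDual ℝ (Y i))) (K := 1)
    (fun i => by simpa using ContinuousLinearMap.norm_id_le)

theorem lpDual_apply (φ : lp (fun i => StrongDual ℝ (Y i)) 2) (x : lp Y 2) :
    lpDual Y φ x = ∑' i, φ i (x i) := rfl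

theorem lpDual_surjective : Function.Surjective (lpDual Y) := by
  intro Φ
  let φ : ∀ i, StrongDual ℝ (Y i) := fun i => Φ.comp (lp.singleContinuousLinearMap ℝ Y 2 i)
  have h2 : (2 : ℝ≥0∞).toReal = 2 := by simp
  have key : ∀ s : Finset ℕ, ∑ i ∈ s, ‖φ i‖ ^ (2 : ℝ≥0∞).toReal ≤ ‖Φ‖ ^ 2 := by
    intro s
    simp only [h2, Real.rpow_two]
    set S : ℝ := ∑ i ∈ s, ‖φ i‖ ^ 2 with hS
    have hS0 : 0 ≤ S := Finset.sum_nonneg fun i _ => by positivity
    have hmain : S ≤ ‖Φ‖ * Real.sqrt S := by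
      apply real_le_of_forall_lt_one_mul_le
      intro r hr
      choose y hy1 hy2 using fun i => exists_almost_norming (φ i) hr
      set v : lp Y 2 := ∑ i ∈ s, lp.single 2 i (‖φ i‖ • y i) with hv
      have hΦv : Φ v = ∑ i ∈ s, ‖φ i‖ * φ i (y i) := by
        rw [hv, map_sum]
        refine Finset.sum_congr rfl fun i _ => ?_
        simp [φ]
      have hnv : ‖v‖ ^ 2 ≤ S := by
        have := lp.norm_sum_single (p := 2) (E := Y) (by simp) (fun i => ‖φ i‖ • y i) s
        simp only [h2, Real.rpow_two] at this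
        rw [hv, this, hS]
        refine Finset.sum_le_sum fun i _ => ?_
        rw [norm_smul, norm_norm]
        have : ‖φ i‖ * ‖y i‖ ≤ ‖φ i‖ * 1 := by gcongr; exact hy1 i
        rw [mul_one] at this
        gcongr
      have hnv' : ‖v‖ ≤ Real.sqrt S := Real.le_sqrt_of_sq_le hnv
      calc r * S = ∑ i ∈ s, ‖φ i‖ * (r * ‖φ i‖) := by
            rw [hS, Finset.mul_sum]
            refine Finset.sum_congr rfl fun i _ => ?_
            ring
        _ ≤ ∑ i ∈ s, ‖φ i‖ * φ i (y i) := by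
            refine Finset.sum_le_sum fun i _ => ?_
            gcongr
            exact hy2 i
        _ = Φ v := hΦv.symm
        _ ≤ ‖Φ v‖ := Real.le_norm_self _
        _ ≤ ‖Φ‖ * ‖v‖ := Φ.le_opNorm v
        _ ≤ ‖Φ‖ * Real.sqrt S := by gcongr
    have hsq : Real.sqrt S ≤ ‖Φ‖ := by
      by_cases hz : Real.sqrt S = 0
      · rw [hz]; positivity
      have hpos : 0 < Real.sqrt S := lt_of_le_of_ne (Real.sqrt_nonneg _) (Ne.symm hz)
      have : Real.sqrt S * Real.sqrt S ≤ ‖Φ‖ * Real.sqrt S := by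
        rw [Real.mul_self_sqrt hS0]; exact hmain
      exact le_of_mul_le_mul_right this hpos
    calc S = Real.sqrt S ^ 2 := (Real.sq_sqrt hS0).symm
      _ ≤ ‖Φ‖ ^ 2 := by gcongr
  have hmem : Memℓp φ 2 := memℓp_gen' key
  refine ⟨⟨φ, hmem⟩, ?_⟩
  apply lp.ext_continuousLinearMap (by simp)
  intro i
  ext y
  simp only [ContinuousLinearMap.comp_apply, lp.singleContinuousLinearMap_apply, lpDual_apply]
  rw [tsum_eq_single i]
  · simp [φ]
  · intro j hj
    rw [lp.single_apply_ne _ _ _ hj]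
    simp

end

theorem Refl.lp_two (Y : ℕ → Type) [∀ i, NormedAddCommGroup (Y i)] [∀ i, NormedSpace ℝ (Y i)]
    (h : ∀ i, Refl (Y i)) : Refl (lp Y 2) := by
  intro Ψ
  obtain ⟨ξ, hξ⟩ := lpDual_surjective (fun i => StrongDual ℝ (Y i)) (Ψ.comp (lpDual Y))
  choose x hx using fun i => h i (ξ i)
  have hnorm : ∀ i, ‖x i‖ = ‖ξ i‖ := fun i => by
    rw [← hx i]
    exact ((NormedSpace.inclusionInDoubleDualLi (E := Y i) ℝ).norm_map (x i)).symm
  have hmem : Memℓp x 2 := (lp.memℓp ξ).mono' fun i => (hnorm i).le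
  refine ⟨⟨x, hmem⟩, ?_⟩
  ext Φ
  obtain ⟨φ, rfl⟩ := lpDual_surjective Y Φ
  have h1 := congrArg (fun Θ : StrongDual ℝ (lp (fun i => StrongDual ℝ (Y i)) 2) => Θ φ) hξ
  simp only [lpDual_apply, ContinuousLinearMap.comp_apply] at h1
  rw [NormedSpace.dual_def, lpDual_apply, ← h1]
  refine tsum_congr fun i => ?_
  rw [← hx i, NormedSpace.dual_def]

end Crest.Agent.R125
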