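import Crest.Agent.R125.Space166Defs

/-! # Row 125, task L2 -/

set_option autoImplicit false

namespace Crest.Agent.R125

open Filter Topology Crest.AnalysisR.TreePotential

/-- **L2.** an `ℓ²`-sum of separable spaces is separable -/
theorem separable_lp_two (Y : ℕ → Type) [∀ i, NormedAddCommGroup (Y i)] [∀ i, NormedSpace ℝ (Y i)]
    [∀ i, TopologicalSpace.SeparableSpace (Y i)] : TopologicalSpace.SeparableSpace (lp Y 2) := by
  rw [← TopologicalSpace.isSeparable_univ_iff]
  have h1 : TopologicalSpace.IsSeparable (⋃ i : ℕ, Set.range (lp.single (E := Y) 2 i)) :=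
    TopologicalSpace.IsSeparable.iUnion fun i =>
      TopologicalSpace.isSeparable_range (lp.isometry_single (E := Y) (p := 2) i).continuous
  have h2 := (h1.span (R := ℝ)).closure
  refine h2.mono ?_
  intro f _
  have hs := lp.hasSum_single (E := Y) (p := 2) (by simp) f
  refine mem_closure_of_tendsto hs (Filter.Eventually.of_forall fun s => ?_)
  refine Submodule.sum_mem _ fun i _ => Submodule.subset_span ?_
  exact Set.mem_iUnion.mpr ⟨i, ⟨f i, rfl⟩⟩

theorem separable_Xh (h : ℕ) : TopologicalSpace.SeparableSpace (Xh h) := by
  have h1 : TopologicalSpace.IsSeparable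
      (coordX PotentialModel.global '' {s : List ℕ | s.length ≤ h}) :=
    ((Set.to_countable _).image _).isSeparable
  have h2 := (h1.span (R := ℝ)).closure
  exact h2.separableSpace

end Crest.Agent.R125
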