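import Crest.Agent.R125.Space166Defs
import Crest.Agent.R125.ModelTree

/-! # Row 125, task L3

Use `not_AUC_of_list_tree` with `B = κ = 1`; for height `n` put `u s = lp.single 2 n ⟨branchSum global s, _⟩` for `s.length ≤ n` (and `0` otherwise).
`branchSum global s ∈ Xh n` by induction; norms via `lp.norm_single`, `norm_branchSum_le`, `one_le_norm_coordX`; weak nullity: compose `φ` with the continuous linear map
`lp.single 2 n`, and use `tendsto_of_upper_l2` with `sibling_upper_l2` inside `Xh n`. -/

set_option autoImplicit false

namespace Crest.Agent.R125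

open Filter Topology Crest.AnalysisR.TreePotential

theorem coordX_mem_Xh (n : ℕ) (s : List ℕ) (hs : s.length ≤ n) :
    coordX PotentialModel.global s ∈ Xh n :=
  Submodule.le_topologicalClosure _ (Submodule.subset_span ⟨s, hs, rfl⟩)

theorem branchSum_mem_Xh (n : ℕ) : ∀ s : List ℕ, s.length ≤ n →
    branchSum PotentialModel.global s ∈ Xh n
  | [], hs => coordX_mem_Xh n [] hs
  | a :: v, hs => by
    have hv : v.length ≤ n := by
      have : (a :: v).length = v.length + 1 := rfl
      omega
    exact (Xh n).add_mem (branchSum_mem_Xh n v hv) (coordX_mem_Xh n (a :: v) hs)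

/-- **L3.** trees of every finite height with branch sums of norm `≤ 1` -/
theorem E166_no_AUC (N : E166 → ℝ) (hN : EquivNorm N) : ¬ AUC N := by
  classical
  have hg : PotentialModel.global ≠ PotentialModel.rootlessSibling := by
    intro h; cases h
  have h2pos : (0 : ENNReal) < 2 := by norm_num
  refine not_AUC_of_list_tree 1 1 one_pos one_pos (fun n => ?_) N hN
  let u : List ℕ → E166 := fun s =>
    if h : s.length ≤ n then
      lp.single 2 n (⟨branchSum PotentialModel.global s, branchSum_mem_Xh n s h⟩ : Xh n)
    else 0
  have hu : ∀ s (h : s.length ≤ n), u s =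
      lp.single 2 n (⟨branchSum PotentialModel.global s, branchSum_mem_Xh n s h⟩ : Xh n) := by
    intro s h
    simp only [u, dif_pos h]
  have hdiff : ∀ s (h : s.length < n) (k : ℕ), u (k :: s) - u s =
      lp.single 2 n (⟨coordX PotentialModel.global (k :: s),
        coordX_mem_Xh n (k :: s) (by simpa using h)⟩ : Xh n) := by
    intro s h k
    have h1 : (k :: s).length ≤ n := by simpa using h
    rw [hu _ h1, hu _ h.le, ← lp.single_sub]
    congr 1
    apply Subtype.ext
    show branchSum PotentialModel.global (k :: s) - branchSum PotentialModel.global s = _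
    simp [branchSum]
  refine ⟨u, ?_, ?_, ?_, ?_⟩
  · rw [hu [] (Nat.zero_le n), lp.norm_single h2pos]
    exact one_le_norm_coordX PotentialModel.global [] (Or.inl hg)
  · intro s hs
    rw [hu s hs, lp.norm_single h2pos]
    exact norm_branchSum_le PotentialModel.global s
  · intro s hs k
    rw [hdiff s hs k, lp.norm_single h2pos]
    exact one_le_norm_coordX PotentialModel.global (k :: s) (Or.inl hg)
  · intro s hs φ
    let d : ℕ → Xh n := fun k => ⟨coordX PotentialModel.global (k :: s),
        coordX_mem_Xh n (k :: s) (by simpa using hs)⟩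
    have hd : ∀ (A : Finset ℕ) (a : ℕ → ℝ),
        ‖∑ k ∈ A, a k • d k‖ ≤ 1 * Real.sqrt (∑ k ∈ A, a k ^ 2) := by
      intro A a
      have := sibling_upper_l2 PotentialModel.global s A a
      refine le_trans (le_of_eq ?_) this
      have h1 : ((∑ k ∈ A, a k • d k : Xh n) : modelSpace PotentialModel.global) =
          ∑ k ∈ A, a k • coordX PotentialModel.global (k :: s) := by
        simp [d]
      rw [← h1]
      rfl
    have key := @tendsto_of_upper_l2 (Xh n) (Xh n).normedAddCommGroup (Xh n).normedSpace d 1 hd
      (φ.comp (lp.singleContinuousLinearMap ℝ (fun h : ℕ => Xh h) 2 n))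
    refine key.congr fun k => ?_
    rw [hdiff s hs k]
    rfl

end Crest.Agent.R125
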