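import Crest.Agent.R125.XhRefl
import Crest.Agent.R125.Space166Sep
import Crest.Agent.R125.Space166Tree
import Crest.Agent.R125.ModelMid
import Crest.Agent.R125.MidLp
import Crest.Agent.R125.ReflexiveLp

/-! # Row 125: assembly for the space of S0166 -/

set_option autoImplicit false

namespace Crest.Agent.R125

open Filter Topology Crest.AnalysisR.TreePotential

theorem E166_separable : TopologicalSpace.SeparableSpace E166 :=
  haveI := separable_Xh
  separable_lp_two _

theorem E166_refl : Refl E166 := Refl.lp_two _ refl_Xh

theorem E166_qmid : QMid E166 := QMid.lp_two _ (fun h => (qmid_model _).submodule (Xh h))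

end Crest.Agent.R125
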