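import Crest.Agent.R125.ModelBasic

/-!
# Row 125: definition of the reflexive space for S0166

`Xh h` = closed span, inside the global tree-potential model, of the coordinate vectors of the vertices of
height `≤ h`; it is isomorphic to `ℓ²` (constants `1` and `√(h+1)`), hence reflexive.
`E166` = `ℓ²`-sum of the `Xh h`.
-/

set_option autoImplicit false

namespace Crest.Agent.R125

open Filter Topology Crest.AnalysisR.TreePotential

instance instCompleteModel (m : PotentialModel) : CompleteSpace (modelSpace m) :=
  (Submodule.isClosed_topologicalClosure _).completeSpace_coe

/-- closed span of the coordinates of height at most `h` in the global model -/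
noncomputable def Xh (h : ℕ) : Submodule ℝ (modelSpace PotentialModel.global) :=
  (Submodule.span ℝ (coordX PotentialModel.global '' {s : List ℕ | s.length ≤ h})).topologicalClosure

instance instCompleteXh (h : ℕ) : CompleteSpace (Xh h) :=
  (Submodule.isClosed_topologicalClosure _).completeSpace_coe

/-- the space of S0166 -/
abbrev E166 : Type := lp (fun h : ℕ => Xh h) 2

end Crest.Agent.R125
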