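import Crest.Agent.R125.NoAUC
import Crest.Prelude.Def_TreeProducts

/-!
# Row 125, task G: path products of independent multipliers (S0169)

Plan. `M v = pathProduct W v`.  Under the hypotheses: `M v ≥ 0` a.e., `∫ M v = 1`, so the class
`u v : productSpan μ W` has norm `1`.  `u (n :: v) - u v = M v * (W (n :: v) - 1)` has `L¹` norm
`κ = ∫ |x - 1| dν > 0`, and for fixed `v`
`‖∑ a n • (u (n :: v) - u v)‖₁ = E|M v| E|∑ a n (W (n :: v) - 1)| ≤ σ √(∑ a n ²)`.
Then apply `tendsto_of_upper_l2` and `not_AUC_of_list_tree`.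
-/

set_option autoImplicit false
set_option linter.unusedSectionVars false
set_option warn.classDefReducibility false

namespace Crest.Agent.R125

open MeasureTheory ProbabilityTheory Filter Topology Crest.AnalysisR.TreeProduct

section TP

variable {ν : Measure ℝ} [IsProbabilityMeasure ν] {Ω : Type} [MeasurableSpace Ω] {μ : Measure Ω}
  [IsProbabilityMeasure μ] {W : List ℕ → Ω → ℝ}

/-- the σ-algebra generated by the `W i`, `i ∈ S` -/
def tpSig (W : List ℕ → Ω → ℝ) (S : Set (List ℕ)) : MeasurableSpace Ω :=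
  ⨆ i ∈ S, MeasurableSpace.comap (W i) inferInstance

theorem tpSig_mono {S T : Set (List ℕ)} (h : S ⊆ T) : tpSig W S ≤ tpSig W T :=
  biSup_mono h

theorem measurable_tpSig_W {S : Set (List ℕ)} {i : List ℕ} (hi : i ∈ S) :
    Measurable[tpSig W S] (W i) := by
  have h : MeasurableSpace.comap (W i) inferInstance ≤ tpSig W S :=
    le_biSup (fun i => MeasurableSpace.comap (W i) inferInstance) hi
  exact (comap_measurable (W i)).mono h le_rfl

theorem measurable_tpSig_pathProduct (s : List ℕ) :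
    Measurable[tpSig W {u | u <:+ s}] (pathProduct W s) := by
  induction s with
  | nil => exact measurable_const
  | cons a v ih =>
    have h1 : Measurable[tpSig W {u | u <:+ a :: v}] (pathProduct W v) :=
      ih.mono (tpSig_mono fun u (hu : u <:+ v) => hu.trans (List.suffix_cons a v)) le_rfl
    have h2 : Measurable[tpSig W {u | u <:+ a :: v}] (W (a :: v)) :=
      measurable_tpSig_W (List.suffix_refl _)
    exact h1.mul h2

theorem tp_indepFun (hW : IsRealization ν μ W) {S T : Set (List ℕ)} (hST : Disjoint S T)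
    {f g : Ω → ℝ} (hf : Measurable[tpSig W S] f) (hg : Measurable[tpSig W T] g) :
    IndepFun f g μ := by
  rw [IndepFun_iff_Indep]
  have h := indep_iSup_of_disjoint (fun i => (hW.1 i).comap_le) hW.2.1.iIndep hST
  exact indep_of_indep_of_le_left (indep_of_indep_of_le_right h hg.comap_le) hf.comap_le

theorem tp_disjoint (s : List ℕ) :
    Disjoint {u : List ℕ | u <:+ s} (Set.range fun k : ℕ => k :: s) := by
  rw [Set.disjoint_right]
  rintro _ ⟨k, rfl⟩ (h : k :: s <:+ s)
  have := h.length_le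
  simp at this

theorem tp_memLp_id (hm2 : Integrable (fun x : ℝ => x ^ 2) ν) : MemLp (fun x : ℝ => x) 2 ν :=
  (memLp_two_iff_integrable_sq measurable_id.aestronglyMeasurable).mpr hm2

theorem tp_memLp_W (hW : IsRealization ν μ W) (hm2 : Integrable (fun x : ℝ => x ^ 2) ν)
    {v : List ℕ} (hv : v ≠ []) : MemLp (W v) 2 μ := by
  have h1 := tp_memLp_id hm2
  rw [← hW.2.2 v hv] at h1
  exact (memLp_map_measure_iff measurable_id.aestronglyMeasurable (hW.1 v).aemeasurable).mp h1

theorem tp_integral_comp_W (hW : IsRealization ν μ W) {v : List ℕ} (hv : v ≠ []) (f : ℝ → ℝ)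
    (hf : Measurable f) : ∫ z, f (W v z) ∂μ = ∫ x, f x ∂ν := by
  rw [← hW.2.2 v hv, integral_map (hW.1 v).aemeasurable hf.aestronglyMeasurable]

theorem tp_W_pos (hW : IsRealization ν μ W) (hpos : ν (Set.Ioi 0) = 1) {v : List ℕ}
    (hv : v ≠ []) : ∀ᵐ z ∂μ, 0 < W v z := by
  have h1 : μ (W v ⁻¹' Set.Ioi 0) = 1 := by
    rw [← Measure.map_apply (hW.1 v) measurableSet_Ioi, hW.2.2 v hv, hpos]
  have h2 : ∀ᵐ z ∂μ, z ∈ W v ⁻¹' Set.Ioi 0 :=
    (prob_compl_eq_zero_iff ((hW.1 v) measurableSet_Ioi)).mpr h1 |> fun h => by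
      rw [ae_iff]; exact h
  exact h2

theorem tp_pathProduct_props (hW : IsRealization ν μ W) (hpos : ν (Set.Ioi 0) = 1)
    (hmean : ∫ x, x ∂ν = 1) (hm2 : Integrable (fun x : ℝ => x ^ 2) ν) (s : List ℕ) :
    Integrable (pathProduct W s) μ ∧ ∫ z, pathProduct W s z ∂μ = 1 ∧
      ∀ᵐ z ∂μ, 0 ≤ pathProduct W s z := by
  induction s with
  | nil =>
    refine ⟨integrable_const _, ?_, ?_⟩
    · simp [pathProduct]
    · exact Eventually.of_forall fun _ => zero_le_one
  | cons a v ih =>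
    obtain ⟨hi, h1, h0⟩ := ih
    have hne : a :: v ≠ [] := List.cons_ne_nil a v
    have hind : IndepFun (pathProduct W v) (W (a :: v)) μ :=
      tp_indepFun hW (tp_disjoint v) (measurable_tpSig_pathProduct v)
        (measurable_tpSig_W ⟨a, rfl⟩)
    have hWi : Integrable (W (a :: v)) μ := (tp_memLp_W hW hm2 hne).integrable (by norm_num)
    refine ⟨hind.integrable_mul hi hWi, ?_, ?_⟩
    · have := hind.integral_fun_mul_eq_mul_integral hi.aestronglyMeasurable
        hWi.aestronglyMeasurable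
      have h2 : ∫ z, W (a :: v) z ∂μ = 1 := by
        rw [tp_integral_comp_W hW hne (fun x => x) measurable_id, hmean]
      show ∫ z, pathProduct W v z * W (a :: v) z ∂μ = 1
      rw [this, h1, h2, mul_one]
    · filter_upwards [h0, tp_W_pos hW hpos hne] with z hz1 hz2
      exact mul_nonneg hz1 hz2.le

theorem tp_kappa_pos (hnc : ∀ c : ℝ, ν ≠ Measure.dirac c)
    (hint : Integrable (fun x : ℝ => x) ν) : 0 < ∫ x, |x - 1| ∂ν := by
  have h0 : 0 ≤ ∫ x, |x - 1| ∂ν := integral_nonneg fun _ => abs_nonneg _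
  rcases h0.eq_or_lt with h | h
  · exfalso
    have hi : Integrable (fun x : ℝ => |x - 1|) ν := (hint.sub (integrable_const 1)).abs
    have h2 := (integral_eq_zero_iff_of_nonneg (fun _ => abs_nonneg _) hi).mp h.symm
    have hae : (fun x : ℝ => x) =ᵐ[ν] fun _ => (1 : ℝ) := by
      filter_upwards [h2] with x hx
      have hx' : |x - 1| = 0 := hx
      linarith [abs_eq_zero.mp hx']
    apply hnc 1
    have h1 : Measure.map (fun x : ℝ => x) ν = Measure.map (fun _ : ℝ => (1 : ℝ)) ν :=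
      Measure.map_congr hae
    rw [Measure.map_const] at h1
    simpa [Measure.map_id'] using h1
  · exact h

theorem tp_coeFn_sum_smul (A : Finset ℕ) (c : ℕ → ℝ) (x : ℕ → Lp ℝ 1 μ) :
    ⇑(∑ k ∈ A, c k • x k) =ᵐ[μ] fun z => ∑ k ∈ A, c k * x k z := by
  classical
  induction A using Finset.induction_on with
  | empty =>
    filter_upwards [Lp.coeFn_zero ℝ 1 μ] with z hz
    simp
  | insert k A hk ih =>
    rw [Finset.sum_insert hk]
    filter_upwards [Lp.coeFn_add (c k • x k) (∑ k ∈ A, c k • x k), Lp.coeFn_smul (c k) (x k), ih]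
      with z h1 h2 h3
    rw [h1, Pi.add_apply, h2, h3, Finset.sum_insert hk, Pi.smul_apply, smul_eq_mul]

/-- the linear combination of the centred sibling multipliers -/
def tpY (W : List ℕ → Ω → ℝ) (s : List ℕ) (A : Finset ℕ) (a : ℕ → ℝ) : Ω → ℝ :=
  fun z => ∑ k ∈ A, a k * (W (k :: s) z - 1)

theorem measurable_tpSig_tpY (s : List ℕ) (A : Finset ℕ) (a : ℕ → ℝ) :
    Measurable[tpSig W (Set.range fun k : ℕ => k :: s)] (tpY W s A a) := by
  refine Finset.measurable_fun_sum A fun k _ => ?_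
  have h : Measurable[tpSig W (Set.range fun k : ℕ => k :: s)] (W (k :: s)) :=
    measurable_tpSig_W ⟨k, rfl⟩
  exact (h.sub_const 1).const_mul (a k)

theorem tp_measurable_pathProduct (hW : IsRealization ν μ W) (s : List ℕ) :
    Measurable (pathProduct W s) := by
  induction s with
  | nil => exact measurable_const
  | cons a v ih => exact ih.mul (hW.1 _)

theorem tp_measurable_tpY (hW : IsRealization ν μ W) (s : List ℕ) (A : Finset ℕ) (a : ℕ → ℝ) :
    Measurable (tpY W s A a) :=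
  Finset.measurable_fun_sum A fun k _ => ((hW.1 (k :: s)).sub_const 1).const_mul (a k)

theorem tp_memLp_term (hW : IsRealization ν μ W) (hm2 : Integrable (fun x : ℝ => x ^ 2) ν)
    (s : List ℕ) (a : ℕ → ℝ) (k : ℕ) : MemLp (fun z => a k * (W (k :: s) z - 1)) 2 μ :=
  ((tp_memLp_W hW hm2 (List.cons_ne_nil k s)).sub (memLp_const 1)).const_mul (a k)

theorem tp_memLp_tpY (hW : IsRealization ν μ W) (hm2 : Integrable (fun x : ℝ => x ^ 2) ν)
    (s : List ℕ) (A : Finset ℕ) (a : ℕ → ℝ) : MemLp (tpY W s A a) 2 μ :=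
  memLp_finsetSum A fun k _ => tp_memLp_term hW hm2 s a k

theorem tp_integral_tpY (hW : IsRealization ν μ W) (hmean : ∫ x, x ∂ν = 1)
    (hm2 : Integrable (fun x : ℝ => x ^ 2) ν) (s : List ℕ) (A : Finset ℕ) (a : ℕ → ℝ) :
    ∫ z, tpY W s A a z ∂μ = 0 := by
  unfold tpY
  rw [integral_finsetSum A fun k _ => (tp_memLp_term hW hm2 s a k).integrable (by norm_num)]
  refine Finset.sum_eq_zero fun k _ => ?_
  have hne : k :: s ≠ [] := List.cons_ne_nil k s
  have hWi : Integrable (W (k :: s)) μ := (tp_memLp_W hW hm2 hne).integrable (by norm_num)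
  rw [integral_const_mul, integral_sub hWi (integrable_const 1),
    tp_integral_comp_W hW hne (fun x => x) measurable_id, hmean]
  simp

theorem tp_variance_tpY (hW : IsRealization ν μ W)
    (hm2 : Integrable (fun x : ℝ => x ^ 2) ν) (s : List ℕ) (A : Finset ℕ) (a : ℕ → ℝ) :
    Var[tpY W s A a; μ] = Var[id; ν] * ∑ k ∈ A, a k ^ 2 := by
  have h1 : tpY W s A a = ∑ k ∈ A, fun z => a k * (W (k :: s) z - 1) := by
    funext z
    simp [tpY, Finset.sum_apply]
  rw [h1, IndepFun.variance_sum (fun k _ => tp_memLp_term hW hm2 s a k), Finset.mul_sum]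
  · refine Finset.sum_congr rfl fun k _ => ?_
    have hne : k :: s ≠ [] := List.cons_ne_nil k s
    rw [variance_const_mul, variance_sub_const (hW.1 _).aestronglyMeasurable,
      ← variance_id_map (hW.1 _).aemeasurable, hW.2.2 _ hne, mul_comm]
  · intro k _ l _ hkl
    have hne : k :: s ≠ l :: s := fun h => hkl (List.cons.inj h).1
    exact (hW.2.1.indepFun hne).comp (φ := fun x => a k * (x - 1)) (ψ := fun x => a l * (x - 1))
      ((measurable_id.sub_const 1).const_mul _) ((measurable_id.sub_const 1).const_mul _)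

theorem tp_integral_abs_tpY_le (hW : IsRealization ν μ W) (hmean : ∫ x, x ∂ν = 1)
    (hm2 : Integrable (fun x : ℝ => x ^ 2) ν) (s : List ℕ) (A : Finset ℕ) (a : ℕ → ℝ) :
    ∫ z, |tpY W s A a z| ∂μ ≤ Real.sqrt Var[id; ν] * Real.sqrt (∑ k ∈ A, a k ^ 2) := by
  have hY := tp_memLp_tpY hW hm2 s A a
  have h1 : Var[tpY W s A a; μ] = ∫ z, tpY W s A a z ^ 2 ∂μ :=
    variance_of_integral_eq_zero hY.aemeasurable (tp_integral_tpY hW hmean hm2 s A a)
  have h2 := variance_eq_sub hY.abs
  have h3 := variance_nonneg (fun z => |tpY W s A a z|) μ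
  have h4 : (∫ z, |tpY W s A a z| ∂μ) ^ 2 ≤ ∫ z, tpY W s A a z ^ 2 ∂μ := by
    have h5 : μ[(fun z => |tpY W s A a z|) ^ 2] = ∫ z, tpY W s A a z ^ 2 ∂μ := by
      refine integral_congr_ae (Eventually.of_forall fun z => ?_)
      simp
    have h6 : Var[fun z => |tpY W s A a z|; μ] =
        μ[(fun z => |tpY W s A a z|) ^ 2] - μ[fun z => |tpY W s A a z|] ^ 2 := h2
    rw [h5] at h6
    linarith
  rw [← Real.sqrt_mul (variance_nonneg _ _), ← tp_variance_tpY hW hm2 s A a, h1]
  exact (le_abs_self _).trans (Real.abs_le_sqrt h4)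

theorem tp_norm_comb (hW : IsRealization ν μ W) (hpos : ν (Set.Ioi 0) = 1)
    (hmean : ∫ x, x ∂ν = 1) (hm2 : Integrable (fun x : ℝ => x ^ 2) ν) (s : List ℕ)
    (A : Finset ℕ) (a : ℕ → ℝ) (x : List ℕ → Lp ℝ 1 μ)
    (hx : ∀ v, x v =ᵐ[μ] pathProduct W v) :
    ‖∑ k ∈ A, a k • (x (k :: s) - x s)‖ = ∫ z, |tpY W s A a z| ∂μ := by
  obtain ⟨hi, h1, h0⟩ := tp_pathProduct_props hW hpos hmean hm2 s
  have hae : ⇑(∑ k ∈ A, a k • (x (k :: s) - x s)) =ᵐ[μ]
      fun z => pathProduct W s z * tpY W s A a z := by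
    have hall : ∀ᵐ z ∂μ, ∀ k : ℕ, (x (k :: s) - x s : Lp ℝ 1 μ) z =
        pathProduct W s z * (W (k :: s) z - 1) := by
      rw [ae_all_iff]
      intro k
      filter_upwards [Lp.coeFn_sub (x (k :: s)) (x s), hx (k :: s), hx s] with z h1 h2 h3
      rw [h1, Pi.sub_apply, h2, h3]
      show pathProduct W s z * W (k :: s) z - pathProduct W s z = _
      ring
    filter_upwards [tp_coeFn_sum_smul A a (fun k => x (k :: s) - x s), hall] with z h1 h2
    rw [h1, tpY, Finset.mul_sum]
    refine Finset.sum_congr rfl fun k _ => ?_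
    rw [h2 k]
    ring
  have hind : IndepFun (pathProduct W s) (tpY W s A a) μ :=
    tp_indepFun hW (tp_disjoint s) (measurable_tpSig_pathProduct s) (measurable_tpSig_tpY s A a)
  have h2 := hind.integral_fun_comp_mul_comp (f := fun x : ℝ => |x|) (g := fun x : ℝ => |x|)
    (tp_measurable_pathProduct hW s).aemeasurable (tp_measurable_tpY hW s A a).aemeasurable
    continuous_abs.aestronglyMeasurable continuous_abs.aestronglyMeasurable
  have h3 : ∫ z, |pathProduct W s z| ∂μ = 1 := by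
    rw [← h1]
    refine integral_congr_ae ?_
    filter_upwards [h0] with z hz
    exact abs_of_nonneg hz
  rw [L1.norm_eq_integral_norm]
  calc ∫ z, ‖(∑ k ∈ A, a k • (x (k :: s) - x s) : Lp ℝ 1 μ) z‖ ∂μ
      = ∫ z, |pathProduct W s z| * |tpY W s A a z| ∂μ := by
        refine integral_congr_ae ?_
        filter_upwards [hae] with z hz
        rw [hz, Real.norm_eq_abs, abs_mul]
    _ = ∫ z, |tpY W s A a z| ∂μ := by rw [h2, h3, one_mul]

end TP

theorem treeProd_no_AUC (ν : Measure ℝ) [IsProbabilityMeasure ν] (hpos : ν (Set.Ioi 0) = 1)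
    (hnc : ∀ c : ℝ, ν ≠ Measure.dirac c) (hmean : ∫ x, x ∂ν = 1)
    (hm2 : Integrable (fun x : ℝ => x ^ 2) ν)
    (Ω : Type) [MeasurableSpace Ω] (μ : Measure Ω) [IsProbabilityMeasure μ]
    (W : List ℕ → Ω → ℝ) (hW : IsRealization ν μ W)
    (N : productSpan μ W → ℝ) (hN : EquivNorm N) : ¬ AUC N := by
  have hintid : Integrable (fun x : ℝ => x) ν := (tp_memLp_id hm2).integrable (by norm_num)
  set κ0 := ∫ x, |x - 1| ∂ν with hκ0def
  have hκ0 : 0 < κ0 := tp_kappa_pos hnc hintid
  have hP := tp_pathProduct_props hW hpos hmean hm2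
  let x : List ℕ → Lp ℝ 1 μ := fun s => (hP s).1.toL1 _
  have hx : ∀ v, x v =ᵐ[μ] pathProduct W v := fun v => Integrable.coeFn_toL1 _
  have hmem : ∀ s, x s ∈ productSpan μ W := fun s =>
    Submodule.le_topologicalClosure _ (Submodule.subset_span ⟨s, hx s⟩)
  let u : List ℕ → productSpan μ W := fun s => ⟨x s, hmem s⟩
  have hnorm : ∀ s, ‖u s‖ = 1 := by
    intro s
    show ‖x s‖ = 1
    rw [L1.norm_eq_integral_norm, ← (hP s).2.1]
    refine integral_congr_ae ?_
    filter_upwards [hx s, (hP s).2.2] with z h1 h2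
    rw [h1, Real.norm_eq_abs, abs_of_nonneg h2]
  have hcomb : ∀ (s : List ℕ) (A : Finset ℕ) (a : ℕ → ℝ),
      ‖∑ k ∈ A, a k • (u (k :: s) - u s)‖ = ∫ z, |tpY W s A a z| ∂μ := by
    intro s A a
    rw [← tp_norm_comb hW hpos hmean hm2 s A a x hx, Submodule.coe_norm]
    congr 1
    simp [u]
  have hinc : ∀ (s : List ℕ) (k : ℕ), ‖u (k :: s) - u s‖ = κ0 := by
    intro s k
    have h := hcomb s {k} (fun _ => 1)
    simp only [Finset.sum_singleton, one_smul, tpY, one_mul] at h
    rw [h, tp_integral_comp_W hW (List.cons_ne_nil k s) (fun x => |x - 1|)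
      ((measurable_id.sub_const 1).abs)]
  refine not_AUC_of_list_tree 1 (min κ0 1) (lt_min hκ0 one_pos) one_pos
    (fun n => ⟨u, ?_, ?_, ?_, ?_⟩) N hN
  · rw [hnorm]; exact min_le_right _ _
  · intro s _; rw [hnorm]
  · intro s _ k; rw [hinc]; exact min_le_left _ _
  · intro s _ φ
    refine tendsto_of_upper_l2 (fun k => u (k :: s) - u s) (Real.sqrt Var[id; ν]) ?_ φ
    intro A a
    rw [hcomb]
    exact tp_integral_abs_tpY_le hW hmean hm2 s A a

end Crest.Agent.R125
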