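import Crest.Agent.R125.Space166Defs
import Crest.Agent.R125.Reflexive

/-! # Row 125, task L1

`Xh h` is isomorphic to a Hilbert space, hence reflexive.
Paper proof: `T : ℓ²({s // s.length ≤ h}) → modelSpace global`, `(T ξ) f = ∑ f s * ξ s = ⟪f|, ξ⟫`;
`‖T ξ‖ ≤ ‖ξ‖` since tests have `ℓ²` norm `≤ 1`; `‖T ξ‖ ≥ ‖ξ‖ / √(h+1)` since `ξ / (‖ξ‖ √(h+1))` (extended by `0`) is a test
(its potentials are sums of at most `h+1` values: Cauchy–Schwarz).  So `T` is injective with closed range, the range is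
`Xh h`, and `refl_hilbert` + `Refl.of_equiv` conclude. -/

set_option autoImplicit false
set_option synthInstance.maxHeartbeats 400000

namespace Crest.Agent.R125

open Filter Topology Crest.AnalysisR.TreePotential
open scoped ENNReal NNReal InnerProductSpace

/-! ### potentials as sums along the path -/

/-- Cauchy–Schwarz along a path, for families vanishing above height `h`. -/
theorem xh_pot_sq_le (h : ℕ) (f : List ℕ → ℝ) (hf : ∀ u : List ℕ, h < u.length → f u = 0)
    (s : List ℕ) : ∃ n : ℕ, 1 ≤ n ∧ n ≤ h + 1 ∧ n ≤ s.length + 1 ∧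
      pathPotential f s ^ 2 ≤ n * pathPotential (fun u => f u ^ 2) s := by
  induction s with
  | nil => exact ⟨1, le_refl _, by omega, by simp, by simp [pathPotential]⟩
  | cons a v ih =>
    obtain ⟨n, h1, h2, h3, h4⟩ := ih
    by_cases hl : (a :: v).length ≤ h
    · refine ⟨n + 1, by omega, ?_, ?_, ?_⟩
      · simp only [List.length_cons] at hl; omega
      · simp only [List.length_cons]; omega
      · simp only [pathPotential]
        set P := pathPotential f v
        set Q := pathPotential (fun u => f u ^ 2) v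
        set b := f (a :: v)
        have hn : (1 : ℝ) ≤ n := by exact_mod_cast h1
        push_cast
        nlinarith [sq_nonneg (P - n * b), sq_nonneg P, sq_nonneg b]
    · refine ⟨n, h1, h2, by simp only [List.length_cons]; omega, ?_⟩
      have h0 : f (a :: v) = 0 := hf _ (by omega)
      simpa [pathPotential, h0] using h4

/-- the potential is a finite sum -/
theorem xh_pot_eq_sum (f : List ℕ → ℝ) (s : List ℕ) :
    ∃ A : Finset (List ℕ), (∀ u ∈ A, u.length ≤ s.length) ∧ pathPotential f s = ∑ u ∈ A, f u := by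
  classical
  induction s with
  | nil => exact ⟨{[]}, by simp, by simp [pathPotential]⟩
  | cons a v ih =>
    obtain ⟨A, hA1, hA2⟩ := ih
    have hnot : (a :: v) ∉ A := fun hmem => by
      have := hA1 _ hmem
      simp at this
    refine ⟨insert (a :: v) A, ?_, ?_⟩
    · intro u hu
      rcases Finset.mem_insert.1 hu with rfl | hu
      · exact le_refl _
      · have := hA1 u hu
        simp only [List.length_cons]; omega
    · rw [Finset.sum_insert hnot, pathPotential, hA2, add_comm]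


/-! ### the Hilbert space and the map -/

/-- index set: vertices of height at most `h` -/
abbrev XhI (h : ℕ) : Type := {s : List ℕ // s.length ≤ h}

/-- the Hilbert space `ℓ²(XhI h)` -/
abbrev XhH (h : ℕ) : Type := lp (fun _ : XhI h => ℝ) 2

theorem xh_two : (2 : ℝ≥0∞).toReal = 2 := by simp

theorem xh_test_sum_le (h : ℕ) (f : PotentialTest PotentialModel.global) (A : Finset (XhI h)) :
    ∑ i ∈ A, ‖f.1 i.1‖ ^ (2 : ℝ≥0∞).toReal ≤ 1 := by
  have h1 : ∑ u ∈ A.map ⟨Subtype.val, Subtype.val_injective⟩, f.1 u ^ 2 ≤ 1 := f.2.2 _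
  rw [Finset.sum_map] at h1
  simpa [xh_two] using h1

/-- restriction of a test to the vertices of height at most `h` -/
noncomputable def xhR (h : ℕ) (f : PotentialTest PotentialModel.global) : XhH h :=
  ⟨fun i => f.1 i.1, memℓp_gen' (xh_test_sum_le h f)⟩

theorem xhR_norm_le (h : ℕ) (f : PotentialTest PotentialModel.global) : ‖xhR h f‖ ≤ 1 := by
  refine lp.norm_le_of_forall_sum_le (by simp) zero_le_one fun A => ?_
  simpa [xhR] using xh_test_sum_le h f A

theorem xh_inner_le (h : ℕ) (f : PotentialTest PotentialModel.global) (ξ : XhH h) :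
    ‖⟪xhR h f, ξ⟫_ℝ‖ ≤ ‖ξ‖ := by
  calc ‖⟪xhR h f, ξ⟫_ℝ‖ ≤ ‖xhR h f‖ * ‖ξ‖ := norm_inner_le_norm _ _
    _ ≤ 1 * ‖ξ‖ := by gcongr; exact xhR_norm_le h f
    _ = ‖ξ‖ := one_mul _

/-- the map `ξ ↦ (f ↦ ⟪f|, ξ⟫)` into bounded functions on tests -/
noncomputable def xhT0 (h : ℕ) : XhH h →L[ℝ] lp (fun _ : PotentialTest PotentialModel.global => ℝ) ⊤ :=
  LinearMap.mkContinuous
    { toFun := fun ξ => ⟨fun f => ⟪xhR h f, ξ⟫_ℝ, memℓp_infty ⟨‖ξ‖, by
        rintro _ ⟨f, rfl⟩
        exact xh_inner_le h f ξ⟩⟩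
      map_add' := fun ξ ζ => by
        ext f
        simp only [inner_add_right]
        rfl
      map_smul' := fun c ξ => by
        ext f
        simp [inner_smul_right] } 1
    (fun ξ => by
      rw [one_mul]
      exact lp.norm_le_of_forall_le (norm_nonneg _) fun f => xh_inner_le h f ξ)

theorem xhT0_apply (h : ℕ) (ξ : XhH h) (f : PotentialTest PotentialModel.global) :
    (xhT0 h ξ : PotentialTest PotentialModel.global → ℝ) f = ⟪xhR h f, ξ⟫_ℝ := rfl

theorem xhT0_single (h : ℕ) (i : XhI h) (a : ℝ) :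
    xhT0 h (lp.single 2 i a) = a • coordVector PotentialModel.global i.1 := by
  classical
  ext f
  rw [xhT0_apply, lp.inner_single_right]
  simp [xhR, coordVector]


/-- the norming test -/
theorem xh_isTest (h : ℕ) (ξ : XhH h) (c : ℝ) (hc : (h + 1) * (c ^ 2 * ‖ξ‖ ^ 2) ≤ 1) :
    IsTest PotentialModel.global (fun u => if hu : u.length ≤ h then c * ξ ⟨u, hu⟩ else 0) := by
  classical
  set g : List ℕ → ℝ := fun u => if hu : u.length ≤ h then c * ξ ⟨u, hu⟩ else 0 with hg
  have hsum : ∀ A : Finset (List ℕ), ∑ u ∈ A, g u ^ 2 ≤ c ^ 2 * ‖ξ‖ ^ 2 := by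
    intro A
    have h1 : ∑ u ∈ A, g u ^ 2 = ∑ u ∈ A.filter (fun u => u.length ≤ h), g u ^ 2 := by
      rw [Finset.sum_filter]
      refine Finset.sum_congr rfl fun u _ => ?_
      by_cases hu : u.length ≤ h
      · simp [hu]
      · simp [hu, hg]
    rw [h1, ← Finset.sum_subtype_eq_sum_filter]
    have h2 := lp.sum_rpow_le_norm_rpow (p := 2) (by simp) ξ (A.subtype (fun u => u.length ≤ h))
    simp only [xh_two, Real.rpow_two, Real.norm_eq_abs, sq_abs] at h2
    calc ∑ x ∈ A.subtype (fun u => u.length ≤ h), g x ^ 2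
        = ∑ x ∈ A.subtype (fun u => u.length ≤ h), c ^ 2 * ξ x ^ 2 := by
          refine Finset.sum_congr rfl fun x _ => ?_
          simp [hg, x.2, mul_pow]
      _ = c ^ 2 * ∑ x ∈ A.subtype (fun u => u.length ≤ h), ξ x ^ 2 := by rw [Finset.mul_sum]
      _ ≤ c ^ 2 * ‖ξ‖ ^ 2 := by gcongr
  have hnn : 0 ≤ c ^ 2 * ‖ξ‖ ^ 2 := by positivity
  have hh : (0 : ℝ) ≤ h := Nat.cast_nonneg h
  have hle1 : c ^ 2 * ‖ξ‖ ^ 2 ≤ 1 := by nlinarith
  refine ⟨fun s => ?_, fun A => (hsum A).trans hle1⟩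
  obtain ⟨n, h1, h2, -, h4⟩ := xh_pot_sq_le h g (fun u hu => by simp [hg, not_le.2 hu]) s
  obtain ⟨A, -, hA⟩ := xh_pot_eq_sum (fun u => g u ^ 2) s
  rw [hA] at h4
  have h5 : pathPotential g s ^ 2 ≤ 1 := by
    calc pathPotential g s ^ 2 ≤ n * ∑ u ∈ A, g u ^ 2 := h4
      _ ≤ (h + 1) * (c ^ 2 * ‖ξ‖ ^ 2) := by
          gcongr
          · exact_mod_cast h2
          · exact hsum A
      _ ≤ 1 := hc
  exact (sq_le_one_iff_abs_le_one _).1 h5

theorem xhT0_lower (h : ℕ) (ξ : XhH h) : ‖ξ‖ ≤ Real.sqrt (h + 1) * ‖xhT0 h ξ‖ := by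
  by_cases h0 : ‖ξ‖ = 0
  · rw [h0]; positivity
  have hpos : 0 < ‖ξ‖ := lt_of_le_of_ne (norm_nonneg _) (Ne.symm h0)
  set r := Real.sqrt (h + 1) with hr
  have hr0 : 0 < r := Real.sqrt_pos.2 (by positivity)
  have hr2 : r ^ 2 = h + 1 := Real.sq_sqrt (by positivity)
  set c := 1 / (‖ξ‖ * r) with hcdef
  have hc : ((h : ℝ) + 1) * (c ^ 2 * ‖ξ‖ ^ 2) ≤ 1 := by
    rw [← hr2, hcdef]
    apply le_of_eq
    field_simp
  let g : PotentialTest PotentialModel.global := ⟨_, xh_isTest h ξ c hc⟩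
  have hR : xhR h g = c • ξ := by
    ext i
    simp [xhR, g, i.2]
  have h1 : ‖(xhT0 h ξ : PotentialTest PotentialModel.global → ℝ) g‖ ≤ ‖xhT0 h ξ‖ :=
    lp.norm_apply_le_norm (by simp) _ g
  rw [xhT0_apply, hR, real_inner_smul_left, real_inner_self_eq_norm_sq] at h1
  have h2 : c * ‖ξ‖ ^ 2 = ‖ξ‖ / r := by
    rw [hcdef]; field_simp
  rw [h2, Real.norm_of_nonneg (by positivity), div_le_iff₀ hr0] at h1
  linarith

theorem xh_mem_of_single (h : ℕ) {F : Type*} [NormedAddCommGroup F] [NormedSpace ℝ F]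
    (T : XhH h →L[ℝ] F) (K : Submodule ℝ F) (hK : IsClosed (K : Set F))
    (hs : ∀ i a, T (lp.single 2 i a) ∈ K) (ξ : XhH h) : T ξ ∈ K := by
  have h1 := (lp.hasSum_single (by simp) ξ).map T T.continuous
  refine hK.mem_of_tendsto h1 (Eventually.of_forall fun A => ?_)
  exact K.sum_mem fun i _ => hs i _

/-- the map into the model space -/
noncomputable def xhT1 (h : ℕ) : XhH h →L[ℝ] modelSpace PotentialModel.global :=
  (xhT0 h).codRestrict (modelSpace PotentialModel.global) (fun ξ =>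
    xh_mem_of_single h (xhT0 h) _ (Submodule.isClosed_topologicalClosure _) (fun i a => by
      rw [xhT0_single]
      exact Submodule.smul_mem _ _ (coordX PotentialModel.global i.1).2) ξ)

theorem xhT1_single (h : ℕ) (i : XhI h) (a : ℝ) :
    xhT1 h (lp.single 2 i a) = a • coordX PotentialModel.global i.1 :=
  Subtype.ext (xhT0_single h i a)

theorem xhT1_lower (h : ℕ) (ξ : XhH h) : ‖ξ‖ ≤ Real.sqrt (h + 1) * ‖xhT1 h ξ‖ :=
  xhT0_lower h ξ

/-- the map into `Xh h` -/
noncomputable def xhT2 (h : ℕ) : XhH h →L[ℝ] Xh h :=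
  (xhT1 h).codRestrict (Xh h) (fun ξ =>
    xh_mem_of_single h (xhT1 h) _ (Submodule.isClosed_topologicalClosure _) (fun i a => by
      rw [xhT1_single]
      exact Submodule.smul_mem _ _ (Submodule.le_topologicalClosure _
        (Submodule.subset_span ⟨i.1, i.2, rfl⟩))) ξ)

theorem xhT2_lower (h : ℕ) (ξ : XhH h) : ‖ξ‖ ≤ Real.sqrt (h + 1) * ‖xhT2 h ξ‖ :=
  xhT0_lower h ξ

theorem xhT1_antilipschitz (h : ℕ) : AntilipschitzWith (Real.sqrt (h + 1)).toNNReal (xhT1 h) :=
  (xhT1 h).antilipschitz_of_bound fun ξ => by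
    rw [Real.coe_toNNReal _ (Real.sqrt_nonneg _)]
    exact xhT1_lower h ξ

theorem xhT2_surjective (h : ℕ) : Function.Surjective (xhT2 h) := by
  classical
  intro z
  have hcl : IsClosed ((xhT1 h).range : Set (modelSpace PotentialModel.global)) :=
    (xhT1_antilipschitz h).isClosed_range (xhT1 h).uniformContinuous
  have hle : Xh h ≤ (xhT1 h).range := by
    refine Submodule.topologicalClosure_minimal _ (Submodule.span_le.2 ?_) hcl
    rintro _ ⟨s, hs, rfl⟩
    exact ⟨lp.single 2 ⟨s, hs⟩ 1, by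
      have := xhT1_single h ⟨s, hs⟩ 1
      rw [one_smul] at this
      exact this⟩
  obtain ⟨ξ, hξ⟩ := hle z.2
  exact ⟨ξ, Subtype.ext hξ⟩

theorem xhT2_injective (h : ℕ) : Function.Injective (xhT2 h) :=
  (injective_iff_map_eq_zero _).2 fun ξ hξ => by
    have := xhT2_lower h ξ
    rw [hξ] at this
    have h0 : ‖(0 : Xh h)‖ = 0 := norm_zero
    rw [h0, mul_zero] at this
    exact norm_le_zero_iff.1 this

theorem xh_refl_aux (h : ℕ) (H : Type) [NormedAddCommGroup H] [NormedSpace ℝ H] [CompleteSpace H]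
    (hH : Refl H) (T : H →L[ℝ] Xh h) (h1 : Function.Injective T) (h2 : Function.Surjective T) :
    Refl (Xh h) := by
  have e : H ≃L[ℝ] Xh h :=
    @ContinuousLinearEquiv.ofBijective ℝ ℝ _ _ (RingHom.id ℝ) H _ _ (Xh h) _ _ (RingHom.id ℝ)
      _ _ _ _ _ _ T (LinearMap.ker_eq_bot.2 h1) (LinearMap.range_eq_top.2 h2)
  exact Refl.of_equiv e hH

theorem refl_Xh (h : ℕ) : Refl (Xh h) :=
  xh_refl_aux h (XhH h) (refl_hilbert (XhH h)) (xhT2 h) (xhT2_injective h) (xhT2_surjective h)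

end Crest.Agent.R125
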